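import Vale.Agent.P240.R2.H727.Rank

/-!
Matrix form of the rank bound: elementary abelian `p`-subgroups of `Γ / scalars`, `Γ ≤ GL_n(K)`.
-/

open Module

namespace Vale.Agent.P240.R2.H727

theorem num_bound {p n k m : ℕ} (hp : p.Prime) (h2 : p = 2 → n ≠ 2 ∧ n ≠ 4) (hm : 1 ≤ m)
    (h : p ^ k * m ≤ n) : m - 1 + 2 * k ≤ n - 1 := by
  have hp2 := hp.two_le
  rcases Nat.lt_or_ge 2 p with hp3 | hp3
  · have h3 : ∀ k : ℕ, 2 * k + 1 ≤ 3 ^ k := by
      intro k
      induction k with
      | zero => simp
      | succ k ih => rw [pow_succ]; omega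
    have h4 : 2 * k + 1 ≤ p ^ k := (h3 k).trans (Nat.pow_le_pow_left hp3 k)
    have h5 : (2 * k + 1) * m ≤ n := (Nat.mul_le_mul_right m h4).trans h
    have h6 : 2 * k * 1 ≤ 2 * k * m := Nat.mul_le_mul_left _ hm
    have h7 : (2 * k + 1) * m = 2 * k * m + m := by ring
    omega
  · have hp2' : p = 2 := le_antisymm hp3 hp2
    subst hp2'
    obtain ⟨hn2, hn4⟩ := h2 rfl
    rcases Nat.lt_or_ge k 3 with hk | hk
    · interval_cases k
      · simp at h; omega
      · simp at h; omega
      · norm_num at h; omega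
    · have h3 : ∀ j : ℕ, 2 * (j + 3) + 1 ≤ 2 ^ (j + 3) := by
        intro j
        induction j with
        | zero => simp
        | succ j ih =>
          have : 2 ^ (j + 1 + 3) = 2 * 2 ^ (j + 3) := by ring
          omega
      obtain ⟨j, rfl⟩ := Nat.exists_eq_add_of_le hk
      have h4 := h3 j
      rw [add_comm j 3] at h4
      have h5 : (2 * (3 + j) + 1) * m ≤ n := (Nat.mul_le_mul_right m h4).trans h
      have h6 : 2 * (3 + j) * 1 ≤ 2 * (3 + j) * m := Nat.mul_le_mul_left _ hm
      have h7 : (2 * (3 + j) + 1) * m = 2 * (3 + j) * m + m := by ring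
      omega

section
variable {K ι Γ G : Type*} [Field K] [Fintype ι] [DecidableEq ι] [Group Γ] [Group G]

/-- the commutative group structure on a commutative subgroup -/
@[reducible] def cg (A : Subgroup G) (hA : ∀ x ∈ A, ∀ y ∈ A, x * y = y * x) : CommGroup A :=
  { (inferInstance : Group A) with
    mul_comm := fun x y => Subtype.ext (hA x x.2 y y.2) }

/-- the projective action of a commutative subgroup of `G = Γ / scalars` over the algebraic
closure -/
noncomputable def toPR [Nonempty ι] (π : Γ →* G) (hπ : Function.Surjective π)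
    (ρ : Γ →* Matrix.GeneralLinearGroup ι K)
    (hker : ∀ g, π g = 1 ↔ ∃ c : K, (ρ g : Matrix ι ι K) = c • 1)
    (A : Subgroup G) (hA : ∀ x ∈ A, ∀ y ∈ A, x * y = y * x) :
    @PR A (AlgebraicClosure K) (ι → AlgebraicClosure K) (cg A hA) _ _ _ :=
  letI := cg A hA
  { a := fun x => Matrix.toLin'
      ((ρ (Classical.choose (hπ (x : G))) : Matrix ι ι K).map (algebraMap K (AlgebraicClosure K)))
    inj := by
      intro x
      set g := Classical.choose (hπ (x : G))
      have h1 := Matrix.GeneralLinearGroup.coe_map_inv_mul_map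
        (algebraMap K (AlgebraicClosure K)) (ρ g)
      have h2 := congrArg Matrix.toLin' h1
      rw [Matrix.toLin'_mul, Matrix.toLin'_one] at h2
      intro u v huv
      have h3 := congrArg (fun f => f u) h2
      have h4 := congrArg (fun f => f v) h2
      simp only [LinearMap.comp_apply, LinearMap.id_apply] at h3 h4
      rw [← h3, ← h4, huv]
    mul := by
      intro x y
      set g := Classical.choose (hπ (x : G)) with hg
      set h := Classical.choose (hπ (y : G)) with hh
      set k := Classical.choose (hπ ((x * y : A) : G)) with hk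
      have hg' : π g = x := Classical.choose_spec (hπ (x : G))
      have hh' : π h = y := Classical.choose_spec (hπ (y : G))
      have hk' : π k = ((x * y : A) : G) := Classical.choose_spec (hπ ((x * y : A) : G))
      have h1 : π (g * h * k⁻¹) = 1 := by
        rw [map_mul, map_mul, map_inv, hg', hh', hk']
        exact mul_inv_cancel ((x : G) * (y : G))
      obtain ⟨c, hc⟩ := (hker _).1 h1
      have h2 : (ρ g : Matrix ι ι K) * (ρ h : Matrix ι ι K) = c • (ρ k : Matrix ι ι K) := by
        have h3 : ρ g * ρ h = ρ (g * h * k⁻¹) * ρ k := by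
          rw [← map_mul, ← map_mul]; congr 1; group
        have h4 := congrArg (fun u : Matrix.GeneralLinearGroup ι K => (u : Matrix ι ι K)) h3
        simp only [Units.val_mul] at h4
        rw [h4, hc, smul_mul_assoc, one_mul]
      have hc0 : c ≠ 0 := by
        rintro rfl
        rw [zero_smul] at hc
        have := (ρ (g * h * k⁻¹)).isUnit
        rw [hc] at this
        exact not_isUnit_zero this
      refine ⟨algebraMap K _ c, by simpa using hc0, ?_⟩
      have h5 := congrArg (fun M : Matrix ι ι K => M.map (algebraMap K (AlgebraicClosure K))) h2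
      simp only [Matrix.map_mul] at h5
      have h6 : (c • (ρ k : Matrix ι ι K)).map (algebraMap K (AlgebraicClosure K)) =
          (algebraMap K (AlgebraicClosure K) c) •
            ((ρ k : Matrix ι ι K).map (algebraMap K (AlgebraicClosure K))) := by
        ext i j; simp
      rw [h6] at h5
      have h7 := congrArg Matrix.toLin' h5
      rw [Matrix.toLin'_mul, map_smul] at h7
      exact h7
    faith := by
      rintro x ⟨c, hc⟩
      set g := Classical.choose (hπ (x : G)) with hg
      have hg' : π g = x := Classical.choose_spec (hπ (x : G))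
      have h1 : (ρ g : Matrix ι ι K).map (algebraMap K (AlgebraicClosure K)) = c • 1 := by
        apply Matrix.toLin'.injective
        rw [hc, map_smul, Matrix.toLin'_one]
        rfl
      obtain ⟨i0⟩ := (inferInstance : Nonempty ι)
      have h2 : (ρ g : Matrix ι ι K) = ((ρ g : Matrix ι ι K) i0 i0) • 1 := by
        have hc' : algebraMap K (AlgebraicClosure K) ((ρ g : Matrix ι ι K) i0 i0) = c := by
          have := congrFun (congrFun h1 i0) i0
          simpa using this
        refine Matrix.ext fun i j => ?_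
        apply (algebraMap K (AlgebraicClosure K)).injective
        have h0 := congrFun (congrFun h1 i) j
        by_cases hij : i = j
        · subst hij
          simp at h0
          simp [h0, hc']
        · simp [hij] at h0
          simp [hij, h0]
      have h3 := (hker g).2 ⟨_, h2⟩
      apply Subtype.ext
      rw [← hg', h3]
      rfl }

/-- elementary abelian `p`-subgroups of `Γ / scalars`, `Γ ≤ GL_n(K)` -/
theorem card_elem_le {p : ℕ} [hpp : Fact p.Prime] (hp : (p : K) ≠ 0) (π : Γ →* G)
    (hπ : Function.Surjective π) (ρ : Γ →* Matrix.GeneralLinearGroup ι K)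
    (hker : ∀ g, π g = 1 ↔ ∃ c : K, (ρ g : Matrix ι ι K) = c • 1)
    (A : Subgroup G) (hA : ∀ x ∈ A, ∀ y ∈ A, x * y = y * x) (hAp : ∀ x ∈ A, x ^ p = 1)
    (h2 : p = 2 → Fintype.card ι ≠ 2 ∧ Fintype.card ι ≠ 4) :
    Nat.card A ≤ p ^ (Fintype.card ι - 1) := by
  rcases isEmpty_or_nonempty ι with hι | hι
  · have h1 : ∀ x : G, x = 1 := by
      intro x
      obtain ⟨g, rfl⟩ := hπ x
      exact (hker g).2 ⟨1, by ext i; exact hι.elim i⟩
    have : Subsingleton A := ⟨fun x y => Subtype.ext ((h1 x).trans (h1 y).symm)⟩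
    rw [Nat.card_of_subsingleton (1 : A)]
    exact Nat.one_le_pow _ _ hpp.out.pos
  · let _ := cg A hA
    have hp' : (p : AlgebraicClosure K) ≠ 0 := by
      intro h
      apply hp
      apply (algebraMap K (AlgebraicClosure K)).injective
      rw [map_natCast, map_zero, h]
    obtain ⟨k, m, hm, hkm, hc⟩ := card_le_aux hp' (Fintype.card ι) A (ι → AlgebraicClosure K)
      (by simp) Fintype.card_pos (fun x => Subtype.ext (hAp x x.2)) (toPR π hπ ρ hker A hA)
    exact hc.trans (Nat.pow_le_pow_right hpp.out.pos (num_bound hpp.out h2 hm hkm))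

end

/-- passing to an overgroup: the rank goes up by at most one if `N` has index at most `p` -/
theorem card_le_mul_inf {G : Type*} [Group G] [Finite G] {p : ℕ} (N A : Subgroup G)
    (hN : N.index ≤ p) : Nat.card A ≤ p * Nat.card (A ⊓ N : Subgroup G) := by
  have h1 : N.relIndex A ≤ p := by
    have h0 : N.relIndex ⊤ ≠ 0 := by
      rw [Subgroup.relIndex_top_right]; exact Subgroup.FiniteIndex.index_ne_zero
    have h2 := Subgroup.relIndex_le_of_le_right (le_top : A ≤ ⊤) h0
    rw [Subgroup.relIndex_top_right] at h2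
    exact h2.trans hN
  have h2 : Nat.card (N.subgroupOf A) * N.relIndex A = Nat.card A :=
    (N.subgroupOf A).card_mul_index
  have h3 : Nat.card (N.subgroupOf A) ≤ Nat.card (A ⊓ N : Subgroup G) := by
    refine Nat.card_le_card_of_injective
      (fun x : N.subgroupOf A => (⟨((x : A) : G), (x : A).2, x.2⟩ : (A ⊓ N : Subgroup G))) ?_
    intro x y hxy
    exact Subtype.ext (Subtype.ext (congrArg (fun t : (A ⊓ N : Subgroup G) => (t : G)) hxy))
  rw [← h2, mul_comm]
  exact Nat.mul_le_mul h1 h3

/-- the rank bound for an overgroup `G'` of (a copy of) `Γ / scalars` of index at most `p` -/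
theorem card_elem_le' {K ι Γ G : Type*} [Field K] [Fintype ι] [DecidableEq ι] [Group Γ] [Group G]
    [Finite G] {p : ℕ} [hpp : Fact p.Prime] (hp : (p : K) ≠ 0) (N : Subgroup G)
    (hN : N.index ≤ p) (π : Γ →* N)
    (hπ : Function.Surjective π) (ρ : Γ →* Matrix.GeneralLinearGroup ι K)
    (hker : ∀ g, π g = 1 ↔ ∃ c : K, (ρ g : Matrix ι ι K) = c • 1)
    (A : Subgroup G) (hA : ∀ x ∈ A, ∀ y ∈ A, x * y = y * x) (hAp : ∀ x ∈ A, x ^ p = 1)
    (hι : 1 ≤ Fintype.card ι) (h2 : p = 2 → Fintype.card ι ≠ 2 ∧ Fintype.card ι ≠ 4) :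
    Nat.card A ≤ p ^ Fintype.card ι := by
  have h1 := card_elem_le hp π hπ ρ hker (A.subgroupOf N)
    (fun x hx y hy => Subtype.ext (hA _ hx _ hy)) (fun x hx => Subtype.ext (hAp _ hx)) h2
  have h3 : Nat.card (A ⊓ N : Subgroup G) ≤ Nat.card (A.subgroupOf N) := by
    refine Nat.card_le_card_of_injective
      (fun x : (A ⊓ N : Subgroup G) => (⟨⟨x.1, x.2.2⟩, x.2.1⟩ : A.subgroupOf N)) ?_
    intro x y hxy
    exact Subtype.ext (congrArg (fun t : A.subgroupOf N => ((t : N) : G)) hxy)
  calc Nat.card A ≤ p * Nat.card (A ⊓ N : Subgroup G) := card_le_mul_inf N A hN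
    _ ≤ p * p ^ (Fintype.card ι - 1) := Nat.mul_le_mul_left _ (h3.trans h1)
    _ = p ^ Fintype.card ι := by
      rw [← pow_succ']; congr 1; omega

end Vale.Agent.P240.R2.H727
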