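import Vale.Agent.P240.R2.AS.Stmts
import Vale.Agent.P240.R2.H727.RankM

/-!
`StmtM4`: the `p`-rank of `PGU_n(q)` is at most `n - 1`.
-/

open Matrix

namespace Vale.Agent.P240.R2.H727

universe u

open Vale.Agent.P240.R2.AS

section

variable {K : Type u} [Field K]

theorem exists_norm_one [Fintype K] [StarRing K] {q : ℕ} (hq : 2 ≤ q) (hK : Nat.card K = q ^ 2)
    (hs : ∀ x : K, star x = x ^ q) : ∃ ζ : K, ζ ≠ 1 ∧ ζ * star ζ = 1 := by
  obtain ⟨g, hg⟩ := IsCyclic.exists_generator (α := Kˣ)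
  have hord : orderOf g = q ^ 2 - 1 := by
    rw [orderOf_eq_card_of_forall_mem_zpowers hg, Nat.card_units, hK]
  have hmul : (q - 1) * (q + 1) = q ^ 2 - 1 := by
    obtain ⟨r, rfl⟩ : ∃ r, q = r + 2 := ⟨q - 2, by omega⟩
    have : (r + 2) ^ 2 = (r + 1) * (r + 3) + 1 := by ring
    simp [this]
  refine ⟨((g ^ (q - 1) : Kˣ) : K), ?_, ?_⟩
  · intro h
    have h1 : g ^ (q - 1) = 1 := Units.ext (by simpa using h)
    have h2 := orderOf_dvd_of_pow_eq_one h1
    rw [hord, ← hmul] at h2
    have h3 := Nat.le_of_dvd (by omega) h2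
    have h4 : (q - 1) * 1 < (q - 1) * (q + 1) := Nat.mul_lt_mul_of_pos_left (by omega) (by omega)
    omega
  · rw [hs, ← pow_succ']
    have h1 : (g ^ (q - 1)) ^ (q + 1) = 1 := by
      rw [← pow_mul, hmul, ← hord, pow_orderOf_eq_one]
    have := congrArg (fun u : Kˣ => (u : K)) h1
    simpa using this

/-- a unitary matrix commuting with all unitary matrices is scalar -/
theorem scalar_of_center [StarRing K] {n : ℕ} (hn : 1 ≤ n) {ζ : K} (hζ1 : ζ ≠ 1)
    (hζ : ζ * star ζ = 1) (g : GU K n) (hg : g ∈ Subgroup.center (GU K n)) :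
    ∃ c : K, (g : Matrix (Fin n) (Fin n) K) = c • 1 := by
  classical
  have hcomm : ∀ M : Matrix (Fin n) (Fin n) K, M ∈ Matrix.unitaryGroup (Fin n) K →
      M * (g : Matrix (Fin n) (Fin n) K) = g * M := by
    intro M hM
    have := Subgroup.mem_center_iff.1 hg ⟨M, hM⟩
    exact congrArg (fun u : GU K n => (u : Matrix (Fin n) (Fin n) K)) this
  have hdiag : ∀ i j : Fin n, i ≠ j → (g : Matrix (Fin n) (Fin n) K) i j = 0 := by
    intro i j hij
    have hM : Matrix.diagonal (fun k => if k = i then ζ else 1) ∈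
        Matrix.unitaryGroup (Fin n) K := by
      rw [Matrix.mem_unitaryGroup_iff, Matrix.star_eq_conjTranspose,
        Matrix.diagonal_conjTranspose, Matrix.diagonal_mul_diagonal, ← Matrix.diagonal_one]
      congr 1
      funext k
      by_cases hk : k = i <;> simp [hk, hζ]
    have h1 := congrFun (congrFun (hcomm _ hM) i) j
    rw [Matrix.diagonal_mul, Matrix.mul_diagonal] at h1
    simp only [if_true, if_neg hij.symm, mul_one] at h1
    have h2 : (ζ - 1) * (g : Matrix (Fin n) (Fin n) K) i j = 0 := by linear_combination h1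
    rcases mul_eq_zero.1 h2 with h3 | h3
    · exact absurd (sub_eq_zero.1 h3) hζ1
    · exact h3
  have hswap : ∀ i j : Fin n, (g : Matrix (Fin n) (Fin n) K) i i =
      (g : Matrix (Fin n) (Fin n) K) j j := by
    intro i j
    have hM : (1 : Matrix (Fin n) (Fin n) K).submatrix (Equiv.swap i j) (Equiv.refl (Fin n)) ∈
        Matrix.unitaryGroup (Fin n) K := by
      rw [Matrix.mem_unitaryGroup_iff, Matrix.star_eq_conjTranspose,
        Matrix.conjTranspose_submatrix, Matrix.conjTranspose_one, Matrix.submatrix_mul_equiv,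
        one_mul, Matrix.submatrix_one_equiv]
    have h1 := congrFun (congrFun (hcomm _ hM) i) j
    rw [Matrix.one_submatrix_mul] at h1
    have h2 := Matrix.mul_submatrix_one (Equiv.swap i j) (Equiv.refl (Fin n))
      (g : Matrix (Fin n) (Fin n) K)
    rw [h2] at h1
    simpa using h1.symm
  refine ⟨(g : Matrix (Fin n) (Fin n) K) ⟨0, hn⟩ ⟨0, hn⟩, ?_⟩
  refine Matrix.ext fun i j => ?_
  by_cases hij : i = j
  · subst hij
    simp [hswap i ⟨0, hn⟩]
  · simp [hij, hdiag i j hij]

theorem center_iff [Fintype K] [StarRing K] {q : ℕ} (hq : 2 ≤ q) (hK : Nat.card K = q ^ 2)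
    (hs : ∀ x : K, star x = x ^ q) {n : ℕ} (hn : 1 ≤ n) (g : GU K n) :
    g ∈ Subgroup.center (GU K n) ↔ ∃ c : K, (g : Matrix (Fin n) (Fin n) K) = c • 1 := by
  constructor
  · obtain ⟨ζ, hζ1, hζ⟩ := exists_norm_one hq hK hs
    exact scalar_of_center hn hζ1 hζ g
  · rintro ⟨c, hc⟩
    rw [Subgroup.mem_center_iff]
    intro h
    apply Subtype.ext
    change (h : Matrix (Fin n) (Fin n) K) * g = g * h
    rw [hc]
    simp

theorem cast_ne_zero [Fintype K] {q p : ℕ} (hK : Nat.card K = q ^ 2) (hp : p ∣ q + 1) :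
    (p : K) ≠ 0 := by
  intro h
  have h1 : (q : K) = 0 := by
    have h2 : ((Fintype.card K : ℕ) : K) = 0 := by simp
    rw [← Nat.card_eq_fintype_card, hK] at h2
    push_cast at h2
    exact pow_eq_zero_iff (two_ne_zero) |>.1 h2
  obtain ⟨r, hr⟩ := hp
  have h3 : ((q + 1 : ℕ) : K) = 0 := by rw [hr]; push_cast; rw [h, zero_mul]
  push_cast at h3
  rw [h1, zero_add] at h3
  exact one_ne_zero h3

/-- the inclusion of the unitary group in the general linear group -/
def rhoU (K : Type u) [Field K] [StarRing K] (n : ℕ) :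
    GU K n →* Matrix.GeneralLinearGroup (Fin n) K := Unitary.toUnits

theorem rhoU_coe [StarRing K] {n : ℕ} (g : GU K n) :
    (rhoU K n g : Matrix (Fin n) (Fin n) K) = g := rfl

end

theorem stmtM4 : StmtM4.{u} := by
  intro K _ _ _ q hq hK hs p hpp hpq n hn hex E hE hEp
  have h := card_elem_le (K := K) (ι := Fin n) (Γ := GU K n) (G := PGU K n) (p := p)
    (cast_ne_zero hK hpq) (QuotientGroup.mk' _) (QuotientGroup.mk'_surjective _) (rhoU K n)
    (fun g => by
      rw [QuotientGroup.mk'_apply, QuotientGroup.eq_one_iff, center_iff hq hK hs hn]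
      rfl) E hE hEp (by
      intro h2
      rw [Fintype.card_fin]
      rcases hex with h3 | h3
      · exact absurd h2 h3
      · exact h3)
  rwa [Fintype.card_fin] at h

end Vale.Agent.P240.R2.H727
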