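import Vale.Agent.P240.R2.H727.O4

/-!
Orthogonal groups of minus type: the BN-pair.
-/

set_option autoImplicit false
set_option linter.all false

namespace Vale.Agent.P240.R2.H727.O

open Subgroup Matrix Vale.Agent.P240.H195 Vale.Agent.P240.R2.H487.CG

section
variable {K : Type*} [Field K] [Finite K] {r : ℕ} (σ : K ≃+* K)

/-- The isometries of determinant `1` commuting with the semilinear map `x ↦ P σ(x)`. -/
def GM (r : ℕ) (σ : K ≃+* K) : Subgroup (SLm (2 * r + 1) K) :=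
  sgp (fun A => Iso A ∧ Sem σ A) ⟨Iso.one, Sem.one σ⟩ fun _ _ h h' => ⟨h.1.mul h'.1, h.2.mul h'.2⟩

lemma mem_GM {A : SLm (2 * r + 1) K} : A ∈ GM r σ ↔ Iso A ∧ Sem σ A := Iff.rfl

/-- upper triangular elements -/
abbrev BO (r : ℕ) (σ : K ≃+* K) : Subgroup (SLm (2 * r + 1) K) := BU (2 * r + 1) K ⊓ GM r σ

/-- unitriangular elements -/
abbrev UO (r : ℕ) (σ : K ≃+* K) : Subgroup (SLm (2 * r + 1) K) := UU (2 * r + 1) K ⊓ GM r σ

/-- even monomial elements -/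
def NO (r : ℕ) (σ : K ≃+* K) : Subgroup (SLm (2 * r + 1) K) :=
  sgp (fun A => (Iso A ∧ Sem σ A) ∧ ∃ w, Gp w ∧ Mon A w) ⟨⟨Iso.one, Sem.one σ⟩, 1, Gp.one, mon_one⟩
    fun _ _ ⟨h, w, hw, hm⟩ ⟨h', w', hw', hm'⟩ =>
      ⟨⟨h.1.mul h'.1, h.2.mul h'.2⟩, w * w', hw.mul hw', mon_mul hm hm'⟩

lemma mem_NO {A : SLm (2 * r + 1) K} : A ∈ NO r σ ↔ A ∈ GM r σ ∧ ∃ w, Gp w ∧ Mon A w := Iff.rfl

/-- the simple reflections -/
def SS' (r : ℕ) (σ : K ≃+* K) : Set (SLm (2 * r + 1) K) :=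
  {A | A ∈ GM r σ ∧ ∃ (i : ℕ) (h : i < r), Mon A (ts i h)}

/-- the root group of `s` -/
def XO (r : ℕ) (σ : K ≃+* K) (s : SLm (2 * r + 1) K) : Subgroup (SLm (2 * r + 1) K) :=
  UO r σ ⊓ (LU (2 * r + 1) K).comap (MulAut.conj s).toMonoidHom

variable {σ}

lemma mem_XO {s A : SLm (2 * r + 1) K} :
    A ∈ XO r σ s ↔ A ∈ UO r σ ∧ IsLo (s * A * s⁻¹) := Iff.rfl

lemma xe_gm {a b : Fin (2 * r + 1 + 1)} (h : Lg a b) {c : K} (hc : σ c = c) : xe h c ∈ GM r σ :=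
  ⟨xe_iso h c, xe_sem h hc⟩

lemma ye_gm (hσ : ∀ x, σ (σ x) = x) {p : Fin (2 * r + 1 + 1)} (h : Sh p) (a : K) :
    ye σ h a ∈ GM r σ := ⟨ye_iso σ h a, ye_sem hσ h a⟩

lemma ix_lg {i : ℕ} (h : i < r) (h1 : i + 1 < r) :
    Lg (ix i h : Fin (2 * r + 1 + 1)) (iy i h) := by
  constructor <;> rw [Ne, Fin.ext_iff] <;>
    simp only [rv_val, ix_val, iy_val, ma_val, mb_val] <;> omega

lemma iy_ma {i : ℕ} (h : i < r) (h1 : i + 1 = r) : (iy i h : Fin (2 * r + 1 + 1)) = ma r := by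
  rw [Fin.ext_iff, iy_val, ma_val, h1]

lemma ix_lt {i : ℕ} (h : i < r) : (ix i h : Fin (2 * r + 1 + 1)) < iy i h := by
  rw [Fin.lt_def, ix_val, iy_val]; omega

lemma ts_mon (hσ : ∀ x, σ (σ x) = x) {i : ℕ} (h : i < r) :
    ∃ A ∈ GM r σ, Mon A (ts i h) := by
  by_cases h1 : i + 1 < r
  · refine ⟨_, ?_, by rw [ts, if_pos h1]; exact xe_rank (ix_lg h h1) (one_ne_zero (α := K))⟩
    have e : σ (-(1 : K)⁻¹) = -(1 : K)⁻¹ := by rw [map_neg, map_inv₀, map_one]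
    exact mul_mem (xe_gm _ e) (mul_mem (xe_gm _ (map_one σ)) (xe_gm _ e))
  · refine ⟨_, ?_, by rw [ts, if_neg h1]; exact ye_rank hσ (ix_sh i h) (one_ne_zero (α := K))⟩
    exact mul_mem (ye_gm hσ _ _) (mul_mem (ye_gm hσ _ _) (ye_gm hσ _ _))

lemma exists_NO (hσ : ∀ x, σ (σ x) = x) {w : Equiv.Perm (Fin (2 * r + 1 + 1))} (hw : Gp w) :
    ∃ A ∈ GM r σ, Mon A w := by
  refine gp_ind (Q := fun w => ∃ A ∈ GM r σ, Mon A w) ⟨1, one_mem _, mon_one⟩ ?_ w hw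
  rintro w i h hw ⟨A, hA, hm⟩
  obtain ⟨B, hB, hmB⟩ := ts_mon hσ h
  refine ⟨A * B, mul_mem hA hB, ?_⟩
  have := mon_mul hm hmB
  rwa [mul_assoc, ts_sq, mul_one] at this

lemma super_inv {m : ℕ} {v : SLm m K} (hv : v ∈ UU m K) (j : Fin m) :
    (v⁻¹).1 j.castSucc j.succ = -v.1 j.castSucc j.succ := by
  have h1 : v⁻¹ ∈ UU m K := inv_mem hv
  have h2 := up_mul_super hv.1 h1.1 j
  rw [mul_inv_cancel, sl_one, if_neg (cs_ne j), hv.2, h1.2, one_mul, mul_one] at h2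
  exact (neg_eq_of_add_eq_zero_left h2.symm).symm

lemma super_mul {m : ℕ} {u v : SLm m K} (hu : u ∈ UU m K) (hv : v ∈ UU m K) (j : Fin m) :
    (u * v).1 j.castSucc j.succ = u.1 j.castSucc j.succ + v.1 j.castSucc j.succ := by
  rw [up_mul_super hu.1 hv.1 j, hu.2, hv.2, one_mul, mul_one, add_comm]

/-- the index as an element of `Fin (2 r + 1)` -/
def jx (i : ℕ) (h : i < r) : Fin (2 * r + 1) := ⟨i, by omega⟩

lemma jx_cs (i : ℕ) (h : i < r) : (jx i h).castSucc = ix i h := rfl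
lemma jx_sc (i : ℕ) (h : i < r) : (jx i h).succ = iy i h := rfl

lemma simple_inv {v : SLm (2 * r + 1) K} (hv : v ∈ UO r σ) {i : ℕ} (h : i < r) :
    v.1 (Fin.rev (iy i h)) (Fin.rev (ix i h)) = -v.1 (ix i h) (iy i h) := by
  have h1 := super_inv hv.1 (jx i h)
  rw [jx_cs, jx_sc, Iso.inv_apply hv.2.1] at h1
  exact h1

/-- the middle entry vanishes -/
lemma mid_zero {v : SLm (2 * r + 1) K} (hv : v ∈ UO r σ) : v.1 (ma r) (mb r) = 0 := by
  have h1 := hv.2.1.qcol (mb r)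
  rw [Finset.sum_eq_single (ma r)] at h1
  · rw [rev_ma, hv.1.2, mul_one] at h1
    exact h1
  · intro k hk hne
    rw [Finset.mem_filter, Fin.lt_def, rv_val] at hk
    have h2 : mb r < Fin.rev k := by
      rw [Fin.lt_def, rv_val, mb_val]
      have h3 : k.val ≠ r := fun h4 => hne (Fin.ext h4)
      omega
    rw [hv.1.1 _ _ h2, mul_zero]
  · intro h2
    exfalso
    apply h2
    rw [Finset.mem_filter, Fin.lt_def, rv_val, ma_val]
    exact ⟨Finset.mem_univ _, by omega⟩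

/-- **vanishing of the entries at the inversions** -/
lemma inv_zero {v : SLm (2 * r + 1) K} (hv : v ∈ UO r σ) {i : ℕ} (h : i < r)
    (h0 : v.1 (ix i h) (iy i h) = 0) {x y : Fin (2 * r + 1 + 1)} (hxy : x < y)
    (ht : ts i h y < ts i h x) : v.1 x y = 0 := by
  have h1 := simple_inv hv h
  rw [h0, neg_zero] at h1
  by_cases hi : i + 1 < r
  · rcases inv1 hi hxy ht with ⟨rfl, rfl⟩ | ⟨rfl, rfl⟩
    · exact h0
    · exact h1
  · have hi' : i + 1 = r := by omega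
    have hsh := ix_sh i h
    rw [iy_ma h hi'] at h0 h1
    rw [rev_ma] at h1
    have h2 : v.1 (ix i h) (mb r) = 0 := by
      have := hv.2.2 (ix i h) (ma r)
      rwa [PP_ma, PP_ne hsh.a hsh.b, h0, map_zero] at this
    have h3 : v.1 (ma r) (Fin.rev (ix i h)) = 0 := by
      have := hv.2.2 (mb r) (Fin.rev (ix i h))
      rwa [PP_mb, PP_ne hsh.rev.a hsh.rev.b, h1, map_zero] at this
    have h4 : v.1 (ma r) (mb r) = 0 := mid_zero hv
    have h5 : v.1 (ix i h) (Fin.rev (ix i h)) = 0 := by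
      have h6 := hv.2.1.qcol (Fin.rev (ix i h))
      rw [Finset.sum_eq_single (ix i h)] at h6
      · rw [hv.1.2, mul_one] at h6
        exact h6
      · intro k hk hne
        rw [Finset.mem_filter, Fin.lt_def, rv_val] at hk
        by_cases hk1 : k = ma r
        · rw [hk1, h3, zero_mul]
        · have h2 : Fin.rev (ix i h) < Fin.rev k := by
            rw [Fin.rev_lt_rev, Fin.lt_def, ix_val]
            have h3 : k.val ≠ r := fun h4 => hk1 (Fin.ext h4)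
            have h4 : k.val ≠ i := fun h4 => hne (Fin.ext h4)
            omega
          rw [hv.1.1 _ _ h2, mul_zero]
      · intro h2
        exfalso
        apply h2
        rw [Finset.mem_filter, Fin.lt_def, rv_val, ix_val]
        exact ⟨Finset.mem_univ _, by omega⟩
    obtain ⟨a1, a2, a3⟩ := inv2 hi' hxy ht
    have vx : x.val = i ∨ x.val = i + 1 ∨ x.val = i + 2 := by omega
    have vr : (Fin.rev (ix i h) : Fin (2 * r + 1 + 1)).val = i + 3 := by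
      rw [rv_val, ix_val]; omega
    rcases vx with vx | vx | vx
    · have ex : x = ix i h := Fin.ext vx
      have vy : y.val = i + 1 ∨ y.val = i + 2 ∨ y.val = i + 3 := by omega
      rcases vy with vy | vy | vy
      · have ey : y = ma r := Fin.ext (by rw [vy, ma_val]; omega)
        rw [ex, ey, h0]
      · have ey : y = mb r := Fin.ext (by rw [vy, mb_val]; omega)
        rw [ex, ey, h2]
      · have ey : y = Fin.rev (ix i h) := Fin.ext (by rw [vy, vr])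
        rw [ex, ey, h5]
    · have ex : x = ma r := Fin.ext (by rw [vx, ma_val]; omega)
      have vy : y.val = i + 2 ∨ y.val = i + 3 := by omega
      rcases vy with vy | vy
      · have ey : y = mb r := Fin.ext (by rw [vy, mb_val]; omega)
        rw [ex, ey, h4]
      · have ey : y = Fin.rev (ix i h) := Fin.ext (by rw [vy, vr])
        rw [ex, ey, h3]
    · have ex : x = mb r := Fin.ext (by rw [vx, mb_val]; omega)
      have ey : y = Fin.rev (ix i h) := Fin.ext (by rw [vr]; omega)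
      rw [ex, ey, h1]

/-- conjugation by monomial elements -/
lemma conj_uu {n v : SLm (2 * r + 1) K} {w : Equiv.Perm (Fin (2 * r + 1 + 1))} (hn : n ∈ GM r σ)
    (hm : Mon n w) (hv : v ∈ GM r σ) (hd : ∀ i, v.1 i i = 1)
    (hz : ∀ x y, x ≠ y → v.1 x y ≠ 0 → w x < w y) : n * v * n⁻¹ ∈ UO r σ := by
  refine ⟨⟨fun a b hab => ?_, fun a => ?_⟩,
    (GM r σ).mul_mem ((GM r σ).mul_mem hn hv) ((GM r σ).inv_mem hn)⟩
  · obtain ⟨x, rfl⟩ := w.surjective a
    obtain ⟨y, rfl⟩ := w.surjective b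
    by_contra hne
    have h1 := (mon_conj_ne hm v x y).1 hne
    have h2 : x ≠ y := by
      rintro rfl
      exact lt_irrefl _ hab
    exact lt_asymm hab (hz x y h2 h1)
  · obtain ⟨x, rfl⟩ := w.surjective a
    rw [mon_conj hm, hd, mul_one, mul_inv_cancel₀ (mon_ne hm x)]

lemma conj_simple {s v : SLm (2 * r + 1) K} {i : ℕ} {h : i < r} (hs : s ∈ GM r σ)
    (hm : Mon s (ts i h)) (hv : v ∈ UO r σ) (h0 : v.1 (ix i h) (iy i h) = 0) :
    s * v * s⁻¹ ∈ UO r σ := by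
  refine conj_uu hs hm hv.2 hv.1.2 fun x y hxy hne => ?_
  have h1 : x < y := by
    by_contra h2
    exact hne (hv.1.1 x y (lt_of_le_of_ne (not_lt.1 h2) (Ne.symm hxy)))
  by_contra h2
  have h3 : ts i h y < ts i h x :=
    lt_of_le_of_ne (not_lt.1 h2) fun h4 => hxy ((ts i h).injective h4).symm
  exact hne (inv_zero hv h h0 h1 h3)

lemma simple_zero {s v : SLm (2 * r + 1) K} {i : ℕ} {h : i < r}
    (hm : Mon s (ts i h)) (hs : s * v * s⁻¹ ∈ UO r σ) : v.1 (ix i h) (iy i h) = 0 := by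
  by_contra hne
  exact (mon_conj_ne hm v _ _).2 hne (hs.1.1 _ _ (ts_lt h))

/-- positions of the elements of root groups -/
lemma XO_pos {s A : SLm (2 * r + 1) K} {i : ℕ} {h : i < r} (hm : Mon s (ts i h))
    (hA : A ∈ XO r σ s) {x y : Fin (2 * r + 1 + 1)} (hxy : x ≠ y) (hne : A.1 x y ≠ 0) :
    x < y ∧ ts i h y < ts i h x := by
  have h1 : x < y := by
    by_contra h2
    exact hne (hA.1.1.1 x y (lt_of_le_of_ne (not_lt.1 h2) (Ne.symm hxy)))
  refine ⟨h1, ?_⟩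
  have h2 := (mon_conj_ne hm A x y).2 hne
  by_contra h3
  have h4 : ts i h x < ts i h y :=
    lt_of_le_of_ne (not_lt.1 h3) fun h4 => hxy ((ts i h).injective h4)
  exact h2 (hA.2 _ _ h4)

lemma sp_of {i : ℕ} {h : i < r} (hi : i + 1 = r) {x y : Fin (2 * r + 1 + 1)} (h1 : i ≤ x.val)
    (h2 : x.val < y.val) (h3 : y.val ≤ i + 3) : SP (ix i h) x y := by
  simp only [SP, Fin.ext_iff, rv_val, ix_val, ma_val, mb_val]
  omega

lemma sp_of' {i : ℕ} {h : i < r} (hi : i + 1 = r) {x y : Fin (2 * r + 1 + 1)} (h1 : i ≤ y.val)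
    (h2 : y.val < x.val) (h3 : x.val ≤ i + 3) : SP (Fin.rev (ix i h)) x y := by
  simp only [SP, Fin.ext_iff, rv_val, ix_val, ma_val, mb_val]
  omega

/-- elements of the root groups -/
lemma XO_eq1 {s A : SLm (2 * r + 1) K} {i : ℕ} {h : i < r} (hi : i + 1 < r)
    (hm : Mon s (ts i h)) (hA : A ∈ XO r σ s) :
    A = xe (ix_lg h hi) (A.1 (ix i h) (iy i h)) ∧ σ (A.1 (ix i h) (iy i h)) =
      A.1 (ix i h) (iy i h) := by
  refine long_eq (ix_lg h hi) hA.1.2.1 hA.1.2.2 hA.1.1.2 fun x y hxy hne => ?_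
  obtain ⟨h1, h2⟩ := XO_pos hm hA hxy hne
  exact inv1 hi h1 h2

lemma XO_eq2 {s A : SLm (2 * r + 1) K} {i : ℕ} {h : i < r} (hi : i + 1 = r)
    (hm : Mon s (ts i h)) (hA : A ∈ XO r σ s) :
    A = ye σ (ix_sh i h) (A.1 (ix i h) (ma r)) := by
  refine short_eq (ix_sh i h) hA.1.2.1 hA.1.2.2 hA.1.1.2 fun x y hxy hne => ?_
  obtain ⟨h1, h2⟩ := XO_pos hm hA hxy hne
  obtain ⟨h3, h4, h5⟩ := inv2 hi h1 h2
  exact sp_of hi h3 h4 h5

lemma conj_diag {s A : SLm (2 * r + 1) K} {w : Equiv.Perm (Fin (2 * r + 1 + 1))} (hm : Mon s w)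
    (hA : ∀ i, A.1 i i = 1) (a : Fin (2 * r + 1 + 1)) : (s * A * s⁻¹).1 a a = 1 := by
  obtain ⟨x, rfl⟩ := w.surjective a
  rw [mon_conj hm, hA, mul_one, mul_inv_cancel₀ (mon_ne hm x)]

/-- conjugates of the elements of the root groups -/
lemma XO_lo1 {s A : SLm (2 * r + 1) K} {i : ℕ} {h : i < r} (hi : i + 1 < r)
    (hs : s ∈ GM r σ) (hm : Mon s (ts i h)) (hA : A ∈ XO r σ s) :
    ∃ c, σ c = c ∧ s * A * s⁻¹ = xe (ix_lg h hi).symm c := by
  have hG : s * A * s⁻¹ ∈ GM r σ := mul_mem (mul_mem hs hA.1.2) (inv_mem hs)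
  have h1 := long_eq (ix_lg h hi).symm hG.1 hG.2 (conj_diag hm hA.1.1.2) (by
    intro a b hab hne
    obtain ⟨x, rfl⟩ := (ts i h).surjective a
    obtain ⟨y, rfl⟩ := (ts i h).surjective b
    have hxy : x ≠ y := fun h2 => hab (by rw [h2])
    obtain ⟨h2, h3⟩ := XO_pos hm hA hxy ((mon_conj_ne hm A x y).1 hne)
    have e1 : ts i h (ix i h) = iy i h := by
      rw [Fin.ext_iff, ts_val1 h hi, ix_val, iy_val, if_pos rfl]
    have e2 : ts i h (iy i h) = ix i h := by rw [← e1, ts_ts]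
    rcases inv1 hi h2 h3 with ⟨rfl, rfl⟩ | ⟨rfl, rfl⟩
    · exact Or.inl ⟨e1, e2⟩
    · right
      rw [(ts_gp h).rev, (ts_gp h).rev, e1, e2]
      exact ⟨rfl, rfl⟩)
  exact ⟨_, h1.2, h1.1⟩

lemma XO_lo2 {s A : SLm (2 * r + 1) K} {i : ℕ} {h : i < r} (hi : i + 1 = r)
    (hs : s ∈ GM r σ) (hm : Mon s (ts i h)) (hA : A ∈ XO r σ s) :
    ∃ c, s * A * s⁻¹ = ye σ (ix_sh i h).rev c := by
  have hG : s * A * s⁻¹ ∈ GM r σ := mul_mem (mul_mem hs hA.1.2) (inv_mem hs)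
  refine ⟨_, short_eq (ix_sh i h).rev hG.1 hG.2 (conj_diag hm hA.1.1.2) ?_⟩
  intro a b hab hne
  obtain ⟨x, rfl⟩ := (ts i h).surjective a
  obtain ⟨y, rfl⟩ := (ts i h).surjective b
  have hxy : x ≠ y := fun h2 => hab (by rw [h2])
  obtain ⟨h2, h3⟩ := XO_pos hm hA hxy ((mon_conj_ne hm A x y).1 hne)
  obtain ⟨h4, h5, h6⟩ := inv2 hi h2 h3
  rw [Fin.lt_def] at h3
  refine sp_of' hi ?_ h3 ?_
  · rw [ts_val2 h hi]
    split_ifs <;> omega
  · rw [ts_val2 h hi]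
    split_ifs <;> omega

end

end Vale.Agent.P240.R2.H727.O
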