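import Vale.Agent.P240.R2.H986.EDefs
import Vale.Agent.P240.R2.H401.Lin5
import Vale.Agent.P240.R2.H387.M2a

/-!
`StmtEC`: the count for the even unitary line from the planes (`StmtEL`) and the orders (`StmtEO`).
-/

set_option autoImplicit false
set_option linter.all false

namespace Vale.Agent.P240.R2.H727.EC

open Matrix Vale.Agent.P240.R2.AS Vale.Agent.P240.R2.H38 Vale.Agent.P240.R2.H487
open Vale.Agent.P240.R2.H986.E
open scoped Classical

universe u

noncomputable section

section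
variable {K : Type u} [Field K] [Fintype K] [StarRing K] {n : ℕ}

lemma star_star_vec (x : Fin n → K) : star (star x) = x := star_star x

/-- a line of class `1` is fixed -/
lemma L1.fix {α : K} {P : Ln K n} (h : L1 α P) : Da n α * P.1.map star * star (Da n α) = P.1 := by
  obtain ⟨x, hx, -, hP⟩ := h
  rw [hP]
  have e1 : (vecMulVec x (star x)).map star = vecMulVec (star x) x := by
    ext i j
    simp [vecMulVec_apply, mul_comm]
  have e2 : x ᵥ* star (Da n α) = star x := by
    have h2 := congrArg star hx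
    rw [Matrix.star_mulVec, star_star] at h2
    exact h2
  rw [e1, Matrix.mul_vecMulVec, Matrix.vecMulVec_mul, hx, e2]

lemma mem_F1 {α : K} {w : List (Ln K n)} : w ∈ F1 K n α ↔ w ∈ Fr K n ∧
    ∃ (u v : List (Ln K n)) (P : Ln K n), w = u ++ P :: v ∧
      (∀ Q ∈ u, L1 α Q) ∧ (∀ Q ∈ v, L1 α Q) ∧ Lf α P ∧ ¬ L1 α P := by
  rw [F1, Finset.mem_filter]

lemma mem_FM {α : K} {w : List (Ln K n)} : w ∈ FM K n α ↔ w ∈ Fr K n ∧
    ∃ (v : List (Ln K n)) (P : Ln K n), w = v ++ [P] ∧ (∀ Q ∈ v, L1 α Q) ∧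
      Lf α P ∧ ¬ L1 α P := by
  rw [FM, Finset.mem_filter]

lemma FM_sub {α : K} : FM K n α ⊆ F1 K n α := by
  intro w hw
  obtain ⟨h1, v, P, h2, h3, h4, h5⟩ := mem_FM.1 hw
  exact mem_F1.2 ⟨h1, v, [], P, h2, h3, fun _ h => absurd h (by simp), h4, h5⟩

lemma F1_fix {α : K} {w : List (Ln K n)} (hw : w ∈ F1 K n α) {P : Ln K n} (hP : P ∈ w) :
    Da n α * P.1.map star * star (Da n α) = P.1 := by
  obtain ⟨-, u, v, Q, rfl, h1, h2, h3, -⟩ := mem_F1.1 hw
  rcases List.mem_append.1 hP with h | h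
  · exact L1.fix (h1 P h)
  · rcases List.mem_cons.1 h with rfl | h
    · exact h3
    · exact L1.fix (h2 P h)

lemma F1_perm {α : K} (hp : ∀ w ∈ Fr K n, ∀ w', w.Perm w' → w' ∈ Fr K n)
    {w w' : List (Ln K n)} (hw : w ∈ F1 K n α) (hww : w.Perm w') : w' ∈ F1 K n α := by
  obtain ⟨h0, u, v, Q, rfl, h1, h2, h3, h4⟩ := mem_F1.1 hw
  have hQ : Q ∈ w' := hww.mem_iff.1 (by simp)
  obtain ⟨u', v', rfl⟩ := List.append_of_mem hQ
  have hp2 : (u ++ v).Perm (u' ++ v') := by
    have a1 : (Q :: (u ++ v)).Perm (u ++ Q :: v) := List.perm_middle.symm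
    have a2 : (u' ++ Q :: v').Perm (Q :: (u' ++ v')) := List.perm_middle
    exact ((a1.trans hww).trans a2).cons_inv
  have hall : ∀ P ∈ u' ++ v', L1 α P := by
    intro P hP
    rcases List.mem_append.1 (hp2.mem_iff.2 hP) with h | h
    · exact h1 P h
    · exact h2 P h
  exact mem_F1.2 ⟨hp _ h0 _ hww, u', v', Q, rfl,
    fun P hP => hall P (List.mem_append_left _ hP), fun P hP => hall P (List.mem_append_right _ hP),
    h3, h4⟩

end

/-- **EC**: the count. -/
theorem stmtEC_of (hEL : StmtEL.{u}) (hEO : StmtEO.{u}) : StmtEC.{u} := by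
  intro K _ _ _ q hF hq4 hq7 n hn hev α hα σ hσ
  obtain ⟨hLG, hne⟩ := hEL K q hF hq4 hq7 n (by omega) α hα
  obtain ⟨hO1, hO2⟩ := hEO K q hF n (by omega) α hα
  have hgood := (H387.stmtM2a K q (by omega) hF.2.1 hF.2.2 n).1
  have hσm : ∀ M : Matrix (Fin n) (Fin n) K, M.map σ = M.map star := by
    intro M
    ext i j
    rw [Matrix.map_apply, Matrix.map_apply, hσ]
  refine ⟨F1 K n α, Finset.filter_subset _ _, fun w hw w' hww => F1_perm hgood.perm hw hww,
    fun w hw P hP => ?_, ?_⟩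
  · rw [hσm]
    exact F1_fix hw hP
  · obtain ⟨k, rfl⟩ : ∃ k, n = k + 1 := ⟨n - 1, by omega⟩
    have ht := H401.card_le_t (F := FM K (k + 1) α) (F' := F1 K (k + 1) α) FM_sub
      (fun P => ¬ L1 α P) (n := k) (b := 4) (c := 2) (x := 1 / 2) (by norm_num) (by norm_num)
      (by norm_num) (by norm_num) hLG (by
        intro w x hw
        obtain ⟨-, v, P, h2, h3, h4, h5⟩ := mem_FM.1 hw
        obtain ⟨rfl, h6⟩ := List.append_inj' h2 rfl
        have h7 : x = P := by simpa using h6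
        subst h7
        exact ⟨h5, fun y hy => not_not.2 (h3 y hy)⟩)
    have hcard : 0 < (FM K (k + 1) α).card := Finset.card_pos.2 hne
    have ht2 : (FM K (k + 1) α).card ≤ 2 ^ k * AS.t (F1 K (k + 1) α) := by
      have h1 : ((FM K (k + 1) α).card : ℚ) ≤ 2 ^ k * AS.t (F1 K (k + 1) α) := by
        have h2 : (2 : ℚ) ^ k * ((1 / 2) ^ k * (FM K (k + 1) α).card) ≤
            2 ^ k * AS.t (F1 K (k + 1) α) := mul_le_mul_of_nonneg_left ht (by positivity)
        rw [← mul_assoc, ← mul_pow] at h2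
        norm_num at h2
        exact h2
      exact_mod_cast h1
    have htpos : 0 < AS.t (F1 K (k + 1) α) := by
      rcases Nat.eq_zero_or_pos (AS.t (F1 K (k + 1) α)) with h | h
      · rw [h, Nat.mul_zero] at ht2
        omega
      · exact h
    have hSU : 0 < Nat.card (H38.SU K (k + 1)) := Nat.card_pos
    have hFr : 0 < (Fr K (k + 1)).card := by
      rcases Nat.eq_zero_or_pos (Fr K (k + 1)).card with h | h
      · rw [h, Nat.zero_mul] at hO2
        omega
      · exact h
    set N := Nat.card {h : H38.SU K (k + 1) // ∃ a : K,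
      Da (k + 1) α * (mx h).map σ * star (Da (k + 1) α) = a • mx h} with hN
    have hN' : N ≤ (k + 1).gcd (q + 1) * (2 ^ (k + 1) * (FM K (k + 1) α).card) := by
      have e : N = Nat.card {h : H38.SU K (k + 1) // ∃ a : K,
          Da (k + 1) α * (mx h).map star * star (Da (k + 1) α) = a • mx h} := by
        rw [hN]
        congr 1
        refine congrArg _ ?_
        funext h
        rw [hσm]
      rw [e]
      exact hO1
    have hnum : (2 : ℕ) ^ (k + 1) * 2 ^ k < (q + 1) ^ k := by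
      have h1 : (8 : ℕ) ^ k ≤ (q + 1) ^ k := Nat.pow_le_pow_left (by omega) k
      refine lt_of_lt_of_le ?_ h1
      have e8 : (8 : ℕ) = 2 ^ 3 := by norm_num
      rw [← pow_add, e8, ← pow_mul]
      exact Nat.pow_lt_pow_right (by norm_num) (by omega)
    have hg : (k + 1).gcd (q + 1) ≤ k + 1 := Nat.gcd_le_left _ (by omega)
    rw [← hO2, Nat.add_sub_cancel]
    calc (Fr K (k + 1)).card * N
        ≤ (Fr K (k + 1)).card * ((k + 1) * (2 ^ (k + 1) * (2 ^ k * AS.t (F1 K (k + 1) α)))) :=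
          Nat.mul_le_mul_left _ (hN'.trans (Nat.mul_le_mul hg (Nat.mul_le_mul_left _ ht2)))
      _ = (k + 1) * ((Fr K (k + 1)).card * (2 ^ (k + 1) * 2 ^ k) * AS.t (F1 K (k + 1) α)) := by
          ring
      _ < (k + 1) * ((Fr K (k + 1)).card * (q + 1) ^ k * AS.t (F1 K (k + 1) α)) := by
          have h2 : (Fr K (k + 1)).card * (2 ^ (k + 1) * 2 ^ k) <
              (Fr K (k + 1)).card * (q + 1) ^ k := Nat.mul_lt_mul_of_pos_left hnum hFr
          exact Nat.mul_lt_mul_of_pos_left (Nat.mul_lt_mul_of_pos_right h2 htpos) (by omega)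

end

end Vale.Agent.P240.R2.H727.EC
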