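import Vale.Agent.P240.R2.H727.P5
import Vale.Agent.P240.R2.H432.QI

/-!
`PΩ(Q)` of quadratic forms in even dimension over fields of prime order.
-/

set_option autoImplicit false
set_option linter.all false

namespace Vale.Agent.P240.R2.H727.P

open Subgroup Matrix Vale.Agent.P240.H195
open Vale.Agent.P240.R2.H38.DD hiding BH UH mem_BH' mem_UH'
open Vale.Agent.P240.R2.H38.TT (P2)
open Vale.Agent.P240.R2.H432.Q

universe u

/-- **the groups `PΩ(Q)`**, dimension `2 k + 2 ≥ 6`, with the order of the fixed field -/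
theorem poq_cases' {F : Type u} [Field F] [Finite F] {k : ℕ} (hk : 2 ≤ k)
    (Q : QuadraticForm F (Fin (2 * k + 1 + 1) → F))
    (hQ : ∀ v, (∀ w, QuadraticMap.polar Q v w = 0) → v = 0) :
    Nonempty (POQ Q ≃* POD k F) ∨
    ∃ (K : Type u) (_ : Field K) (_ : Finite K) (σ : K ≃+* K), (∀ x, σ (σ x) = x) ∧
      (∃ x, σ x ≠ x) ∧ (∀ p : ℕ, CharP F p → CharP K p) ∧
      Nat.card {x : K // σ x = x} = Nat.card F ∧ Nonempty (POQ Q ≃* P2 k σ) := by
  rcases H703.normal_form_VI Q hQ with ⟨P, hP⟩ | ⟨c, hc, P, hP⟩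
  · exact Or.inl (poq_pod hk Q P hP)
  · obtain ⟨K, i1, i2, i3, σ, θ, h1, h2, h3, h4, h5, h6, h7⟩ := H703.exists_BC hc
    refine Or.inr ⟨K, i1, i2, σ, h1, ⟨θ, h6⟩, h7, ?_, ?_⟩
    · refine (Nat.card_eq_of_bijective (fun y : F => (⟨algebraMap F K y, h3 y⟩ : {x : K // σ x = x}))
        ⟨fun a b hab => ?_, fun x => ?_⟩).symm
      · exact (algebraMap F K).injective (congrArg Subtype.val hab)
      · obtain ⟨y, hy⟩ := h2 x.1 x.2
        exact ⟨y, Subtype.ext hy⟩
    · refine poq_gm hk (⟨h1, h2, h3, h4, h5, h6⟩ : BC F σ θ c) Q P fun v => ?_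
      have h8 : Q (P.1 *ᵥ v) = _ := hP v
      rw [h8, qm, Finset.sum_filter]
      rfl

/-- **Even dimension at least `6` over a field of odd prime order `ℓ`, `p` odd and prime to
`ℓ (ℓ - 1)`**: plus type, or few automorphisms. -/
theorem poq_fewAut_or {F : Type u} [Field F] [Finite F] {k : ℕ} (hk : 2 ≤ k)
    (Q : QuadraticForm F (Fin (2 * k + 1 + 1) → F))
    (hQ : ∀ v, (∀ w, QuadraticMap.polar Q v w = 0) → v = 0) {ℓ p : ℕ} (hℓ : ℓ.Prime)
    (hF : Nat.card F = ℓ) (hl2 : ℓ ≠ 2) (hp : p.Prime) (hp2 : p ≠ 2) (hpℓ : p ≠ ℓ)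
    (hpl : ¬ p ∣ ℓ - 1) (hs : IsSimpleGroup (POQ Q)) :
    Nonempty (POQ Q ≃* POD k F) ∨ FewAut p (POQ Q) := by
  haveI : Fact ℓ.Prime := ⟨hℓ⟩
  rcases poq_cases' hk Q hQ with h | ⟨K, i1, i2, σ, h1, h2, h3, h4, ⟨e⟩⟩
  · exact Or.inl h
  · right
    have hc : CharP F ℓ := by
      cases nonempty_fintype F
      obtain ⟨q, hq⟩ := CharP.exists F
      have hqp : q.Prime := by
        rcases CharP.char_is_prime_or_zero F q with h5 | h5
        · exact h5
        · subst h5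
          haveI := CharP.charP_to_charZero F
          exact absurd (inferInstance : Infinite F) (by
            rw [not_infinite_iff_finite]; infer_instance)
      haveI : Fact q.Prime := ⟨hqp⟩
      obtain ⟨m, hm, hcard⟩ := FiniteField.card F q
      rw [Nat.card_eq_fintype_card, hcard] at hF
      have h6 : q ∣ ℓ := by
        rw [← hF]
        exact dvd_pow_self q m.ne_zero
      have h7 := (Nat.prime_dvd_prime_iff_eq hqp hℓ).1 h6
      rwa [← h7]
    haveI : CharP K ℓ := h3 ℓ hc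
    haveI : IsSimpleGroup (P2 k σ) := e.symm.isSimpleGroup
    exact FewAut.congr e.symm (p2_fewAut (ℓ := ℓ) (by omega) h1 h2 (h4.trans hF) hl2 hp hp2 hpℓ hpl
      inferInstance)

end Vale.Agent.P240.R2.H727.P
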