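import Vale.Agent.P240.R2.H727.O7

/-!
Orthogonal groups of minus type: root elements are commutators.
-/

set_option autoImplicit false
set_option linter.all false

namespace Vale.Agent.P240.R2.H727.O

open Subgroup Matrix Vale.Agent.P240.H195 Vale.Agent.P240.R2.H487.CG

open scoped commutatorElement

section
variable {K : Type*} [Field K] {r : ℕ} {σ : K ≃+* K}

lemma sl_ext_vec {A B : SLm (2 * r + 1) K}
    (h : ∀ v : Fin (2 * r + 1 + 1) → K, A.1 *ᵥ v = B.1 *ᵥ v) : A = B := by
  refine sl_ext fun i j => ?_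
  have h1 := congrFun (h (fun i => if i = j then 1 else 0)) i
  rw [col_eq, col_eq] at h1
  exact h1

lemma ye_add {p : Fin (2 * r + 1 + 1)} (h : Sh p) (a b : K) :
    ye σ h a * ye σ h b = ye σ h (a + b) := by
  have e1 : Fin.rev p ≠ ma r := h.rev.a
  have e2 : Fin.rev p ≠ mb r := h.rev.b
  have e3 : mb r ≠ ma r := mab.symm
  have e4 : Fin.rev p ≠ p := rev_ne_self p
  refine sl_ext_vec fun v => ?_
  rw [SpecialLinearGroup.coe_mul, ← Matrix.mulVec_mulVec, ye_vec, ye_vec, ye_vec]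
  ext i
  by_cases i1 : i = p
  · subst i1
    simp only [ad_apply, e1, e2, e3, e3.symm, e4, e4.symm, h.a, h.b, h.a.symm,
      h.b.symm, e1.symm, e2.symm, if_true, if_false, add_zero, map_add]
    ring
  · by_cases i3 : i = ma r
    · subst i3
      simp only [ad_apply, e1, e2, e3, e3.symm, e4, e4.symm, h.a, h.b, h.a.symm,
        h.b.symm, e1.symm, e2.symm, if_true, if_false, add_zero, map_add]
      ring
    · by_cases i4 : i = mb r
      · subst i4
        simp only [ad_apply, e1, e2, e3, e3.symm, e4, e4.symm, h.a, h.b, h.a.symm,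
          h.b.symm, e1.symm, e2.symm, if_true, if_false, add_zero, map_add]
        ring
      · simp only [ad_apply, i1, i3, i4, if_false, add_zero]

lemma ye_zero {p : Fin (2 * r + 1 + 1)} (h : Sh p) : ye σ h 0 = 1 := by
  have h1 := ye_add (σ := σ) h 0 0
  rw [add_zero] at h1
  exact mul_eq_left.1 h1

lemma ye_pos {p : Fin (2 * r + 1 + 1)} (h : Sh p) (a : K) {i j : Fin (2 * r + 1 + 1)}
    (hij : i ≠ j) (hne : (ye σ h a).1 i j ≠ 0) : SP p i j := by
  by_contra h8
  have n1 : ¬ (i = ma r ∧ j = Fin.rev p) := fun h7 => h8 (Or.inr (Or.inl ⟨h7.2, Or.inl h7.1⟩))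
  have n2 : ¬ (i = mb r ∧ j = Fin.rev p) := fun h7 => h8 (Or.inr (Or.inl ⟨h7.2, Or.inr h7.1⟩))
  rw [ye_apply, if_neg hij, if_neg n1, if_neg n2] at hne
  apply hne
  by_cases h7 : i = p
  · have n3 : j ≠ ma r := fun h9 => h8 (Or.inl ⟨h7, Or.inl h9⟩)
    have n4 : j ≠ mb r := fun h9 => h8 (Or.inl ⟨h7, Or.inr (Or.inl h9)⟩)
    have n5 : j ≠ Fin.rev p := fun h9 => h8 (Or.inl ⟨h7, Or.inr (Or.inr h9)⟩)
    rw [if_pos h7, if_neg n3, if_neg n4, if_neg n5]; ring
  · rw [if_neg h7]; ring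

lemma ye_diag {p : Fin (2 * r + 1 + 1)} (h : Sh p) (a : K) (i : Fin (2 * r + 1 + 1)) :
    (ye σ h a).1 i i = 1 := by
  have e1 : Fin.rev p ≠ ma r := h.rev.a
  have e2 : Fin.rev p ≠ mb r := h.rev.b
  rw [ye_apply, if_pos rfl, if_neg (fun h1 => e1 (h1.2.symm.trans h1.1)),
    if_neg (fun h1 => e2 (h1.2.symm.trans h1.1))]
  by_cases h1 : i = p
  · subst h1
    rw [if_pos rfl, if_neg h.a, if_neg h.b, if_neg (rev_ne_self i).symm]
    ring
  · rw [if_neg h1]
    ring

/-- the commutator formula for two short root elements -/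
lemma ye_comm {a b : Fin (2 * r + 1 + 1)} (h : Lg a b) (ha : Sh a) (hb : Sh (Fin.rev b))
    (hσ : ∀ x, σ (σ x) = x) (x y : K) :
    ye σ ha x * ye σ hb y = xe h (-(x * σ y + σ x * y)) * (ye σ hb y * ye σ ha x) := by
  have e1 : Fin.rev a ≠ ma r := ha.rev.a
  have e2 : Fin.rev a ≠ mb r := ha.rev.b
  have e3 : mb r ≠ ma r := mab.symm
  have e4 : Fin.rev a ≠ a := rev_ne_self a
  have e5 : Fin.rev b ≠ b := rev_ne_self b
  have e6 : b ≠ a := h.ne.symm
  have e7 : b ≠ Fin.rev a := h.ne'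
  have e8 : a ≠ Fin.rev b := h.symm.ne'
  have e9 : Fin.rev b ≠ Fin.rev a := h.rev.ne
  have e10 : Fin.rev b ≠ ma r := hb.a
  have e11 : Fin.rev b ≠ mb r := hb.b
  have e12 : b ≠ ma r := h.b1
  have e13 : b ≠ mb r := h.b2
  refine sl_ext_vec fun v => ?_
  rw [SpecialLinearGroup.coe_mul, SpecialLinearGroup.coe_mul, SpecialLinearGroup.coe_mul,
    ← Matrix.mulVec_mulVec, ← Matrix.mulVec_mulVec, ← Matrix.mulVec_mulVec, xe_vec, ye_vec, ye_vec,
    ye_vec, ye_vec]
  ext i
  by_cases i1 : i = a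
  · subst i1
    simp only [ad_apply, Fin.rev_rev, e1, e2, e3, e4, e5, e6, e7, e8, e9, e10, e11, e12, e13,
      e1.symm, e2.symm, e3.symm, e4.symm, e5.symm, e6.symm, e7.symm, e8.symm, e9.symm, e10.symm,
      e11.symm, e12.symm, e13.symm, ha.a, ha.b, ha.a.symm, ha.b.symm, if_true, if_false, add_zero]
    ring
  · by_cases i2 : i = Fin.rev b
    · subst i2
      simp only [ad_apply, Fin.rev_rev, e1, e2, e3, e4, e5, e6, e7, e8, e9, e10, e11, e12, e13,
        e1.symm, e2.symm, e3.symm, e4.symm, e5.symm, e6.symm, e7.symm, e8.symm, e9.symm, e10.symm,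
        e11.symm, e12.symm, e13.symm, ha.a, ha.b, ha.a.symm, ha.b.symm, if_true, if_false,
        add_zero]
      ring
    · by_cases i3 : i = ma r
      · subst i3
        simp only [ad_apply, Fin.rev_rev, e1, e2, e3, e4, e5, e6, e7, e8, e9, e10, e11, e12, e13,
          e1.symm, e2.symm, e3.symm, e4.symm, e5.symm, e6.symm, e7.symm, e8.symm, e9.symm,
          e10.symm, e11.symm, e12.symm, e13.symm, ha.a, ha.b, ha.a.symm, ha.b.symm, if_true,
          if_false, add_zero]
        ring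
      · by_cases i4 : i = mb r
        · subst i4
          simp only [ad_apply, Fin.rev_rev, e1, e2, e3, e4, e5, e6, e7, e8, e9, e10, e11, e12,
            e13, e1.symm, e2.symm, e3.symm, e4.symm, e5.symm, e6.symm, e7.symm, e8.symm, e9.symm,
            e10.symm, e11.symm, e12.symm, e13.symm, ha.a, ha.b, ha.a.symm, ha.b.symm, if_true,
            if_false, add_zero]
          ring
        · simp only [ad_apply, i1, i2, i3, i4, if_false, add_zero]

end

section
variable {K : Type*} [Field K] [Finite K] {r : ℕ} {σ : K ≃+* K}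

/-- a diagonal element of the middle torus -/
lemma exists_t (hσ : ∀ x, σ (σ x) = x) {τ : K} (hτ : τ * σ τ = 1) :
    ∃ t ∈ GM r σ, Mon t 1 ∧ t.1 (ma r) (ma r) = τ ∧ ∀ i, Sh i → t.1 i i = 1 := by
  let d : Fin (2 * r + 1 + 1) → K := fun i => if i = ma r then τ else if i = mb r then σ τ else 1
  have dma : d (ma r) = τ := if_pos rfl
  have dmb : d (mb r) = σ τ := by
    change (if _ then _ else if _ then _ else _) = _
    rw [if_neg mab.symm, if_pos rfl]
  have dsh : ∀ i, Sh i → d i = 1 := by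
    intro i hi
    change (if _ then _ else if _ then _ else _) = _
    rw [if_neg hi.a, if_neg hi.b]
  have hdet : (Matrix.diagonal d).det = 1 := by
    rw [Matrix.det_diagonal, Finset.prod_eq_mul (ma r) (mb r) mab, dma, dmb, hτ]
    · intro c _ hc
      exact dsh c ⟨hc.1, hc.2⟩
    · exact fun h => absurd (Finset.mem_univ _) h
    · exact fun h => absurd (Finset.mem_univ _) h
  obtain ⟨t, ht⟩ : ∃ t : SLm (2 * r + 1) K, t.1 = Matrix.diagonal d := ⟨⟨_, hdet⟩, rfl⟩
  have hte : ∀ i j, t.1 i j = if i = j then d i else 0 := fun i j => by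
    rw [ht, Matrix.diagonal_apply]
  have hcases : ∀ i : Fin (2 * r + 1 + 1), i = ma r ∨ i = mb r ∨ Sh i := by
    intro i
    by_cases h1 : i = ma r
    · exact Or.inl h1
    · by_cases h2 : i = mb r
      · exact Or.inr (Or.inl h2)
      · exact Or.inr (Or.inr ⟨h1, h2⟩)
  refine ⟨t, ⟨fun v => ?_, fun i j => ?_⟩, ?_, ?_, ?_⟩
  · rw [Qd, Qd]
    refine Finset.sum_congr rfl fun i _ => ?_
    rw [ht, Matrix.mulVec_diagonal, Matrix.mulVec_diagonal]
    have h1 : d i * d (Fin.rev i) = 1 := by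
      rcases hcases i with rfl | rfl | hi
      · rw [rev_ma, dma, dmb, hτ]
      · rw [rev_mb, dma, dmb, mul_comm, hτ]
      · rw [dsh _ hi, dsh _ hi.rev, one_mul]
    linear_combination (v i * v (Fin.rev i)) * h1
  · rw [hte, hte]
    by_cases hij : i = j
    · subst hij
      rw [if_pos rfl, if_pos rfl]
      rcases hcases i with rfl | rfl | hi
      · rw [PP_ma, dma, dmb]
      · rw [PP_mb, dma, dmb, hσ]
      · rw [PP_ne hi.a hi.b, dsh _ hi, map_one]
    · rw [if_neg hij, if_neg (fun h1 => hij ((PP r).injective h1)), map_zero]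
  · intro i j hij
    rw [hte] at hij
    by_contra hne
    exact hij (if_neg hne)
  · rw [hte, if_pos rfl, dma]
  · intro i hi
    rw [hte, if_pos rfl, dsh i hi]

/-- short root elements are commutators -/
theorem ye_comm_mem (hσ : ∀ x, σ (σ x) = x) (hne : ∃ x, σ x ≠ x) {p : Fin (2 * r + 1 + 1)}
    (h : Sh p) (a : K) : ye σ h a ∈ ⁅GM r σ, GM r σ⁆ := by
  obtain ⟨x, hx⟩ := hne
  have hx0 : x ≠ 0 := by
    rintro rfl
    exact hx (map_zero σ)
  have hσx : σ x ≠ 0 := by
    intro h0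
    exact hx0 (by rw [← hσ x, h0, map_zero])
  set τ := x / σ x with hτdef
  have hτ : τ * σ τ = 1 := by
    rw [hτdef, map_div₀, hσ]
    field_simp
  have hτ0 : τ ≠ 0 := div_ne_zero hx0 hσx
  have hτ1 : τ⁻¹ - 1 ≠ 0 := by
    rw [sub_ne_zero, hτdef, inv_div]
    intro h1
    exact hx ((div_eq_one_iff_eq hx0).1 h1)
  obtain ⟨t, ht, htm, htma, htsh⟩ := exists_t (r := r) hσ hτ
  set c := a / (τ⁻¹ - 1) with hc
  have hconj : t * ye σ h c * t⁻¹ = ye σ h (c * τ⁻¹) := by
    have hG : t * ye σ h c * t⁻¹ ∈ GM r σ := mul_mem (mul_mem ht (ye_gm hσ h c)) (inv_mem ht)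
    have h1 := short_eq h hG.1 hG.2 (fun i => conj_diag htm (ye_diag h c) i) (by
      intro i j hij hne
      refine ye_pos (σ := σ) h c hij ?_
      have h2 := (mon_conj_ne htm (ye σ h c) i j).1
      rw [Equiv.Perm.one_apply, Equiv.Perm.one_apply] at h2
      exact h2 hne)
    rw [h1]
    congr 1
    have h3 := mon_conj htm (ye σ h c) p (ma r)
    rw [Equiv.Perm.one_apply, Equiv.Perm.one_apply, htma, htsh p h, one_mul] at h3
    rw [h3]
    congr 1
    rw [ye_apply, if_neg h.a, if_neg (fun h4 => h.a h4.1), if_neg (fun h4 => h.b h4.1), if_pos rfl,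
      if_pos rfl, if_neg mab, if_neg h.rev.a.symm]
    ring
  have h2 : ye σ h a = ⁅t, ye σ h c⁆ := by
    rw [commutatorElement_def, hconj, eq_mul_inv_iff_mul_eq, ye_add]
    congr 1
    have h3 : c * (τ⁻¹ - 1) = a := div_mul_cancel₀ a hτ1
    linear_combination -h3
  rw [h2]
  exact Subgroup.commutator_mem_commutator ht (ye_gm hσ h c)

/-- long root elements are commutators -/
theorem xe_comm_mem (hσ : ∀ x, σ (σ x) = x) (hne : ∃ x, σ x ≠ x) {a b : Fin (2 * r + 1 + 1)}
    (h : Lg a b) {c : K} (hc : σ c = c) : xe h c ∈ ⁅GM r σ, GM r σ⁆ := by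
  obtain ⟨x, hx⟩ : ∃ x : K, x + σ x ≠ 0 := by
    by_contra hcon
    push Not at hcon
    obtain ⟨y, hy⟩ := hne
    have h1 := hcon 1
    rw [map_one] at h1
    have h2 := hcon y
    apply hy
    have h3 : σ y = -y := by linear_combination h2
    rw [h3]
    linear_combination (-y) * h1
  have hs : σ (x + σ x) = x + σ x := by rw [map_add, hσ, add_comm]
  set α := -(c / (x + σ x)) * x with hα
  have hsα : σ α = -(c / (x + σ x)) * σ x := by
    rw [hα, map_mul, map_neg, map_div₀, hs, hc]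
  have hsum : -(α * σ 1 + σ α * 1) = c := by
    rw [map_one, hsα, hα]
    field_simp
    ring
  have ha : Sh a := ⟨h.a1, h.a2⟩
  have hb : Sh (Fin.rev b) := (Sh.mk h.b1 h.b2).rev
  have h1 := ye_comm h ha hb hσ α 1
  rw [hsum] at h1
  have h2 : xe h c = ⁅ye σ ha α, ye σ hb 1⁆ := by
    rw [commutatorElement_def, h1]
    group
  rw [h2]
  exact Subgroup.commutator_mem_commutator (ye_gm hσ ha _) (ye_gm hσ hb _)

lemma comm_conj {g d : SLm (2 * r + 1) K} (hg : g ∈ GM r σ) (hd : d ∈ ⁅GM r σ, GM r σ⁆) :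
    g * d * g⁻¹ ∈ ⁅GM r σ, GM r σ⁆ := by
  have h1 : d ∈ GM r σ := (Subgroup.commutator_le_self _) hd
  have h2 : ⁅g, d⁆ ∈ ⁅GM r σ, GM r σ⁆ := Subgroup.commutator_mem_commutator hg h1
  have e : g * d * g⁻¹ = ⁅g, d⁆ * d := by rw [commutatorElement_def]; group
  rw [e]
  exact mul_mem h2 hd

lemma XO_comm (hσ : ∀ x, σ (σ x) = x) (hne : ∃ x, σ x ≠ x) {s A : SLm (2 * r + 1) K} {i : ℕ}
    {h : i < r} (hm : Mon s (ts i h)) (hA : A ∈ XO r σ s) : A ∈ ⁅GM r σ, GM r σ⁆ := by
  by_cases hi : i + 1 < r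
  · obtain ⟨h1, h2⟩ := XO_eq1 hi hm hA
    rw [h1]
    exact xe_comm_mem hσ hne _ h2
  · rw [XO_eq2 (by omega) hm hA]
    exact ye_comm_mem hσ hne _ _

lemma ts_dec {w : Equiv.Perm (Fin (2 * r + 1 + 1))} (hw : Gp w) {i : ℕ} (h : i < r)
    (hlt : w (ix i h) < w (iy i h)) : fw (w * ts i h) < fw w := by
  by_cases h1 : i + 1 < r
  · have hne1 : ix i h ≠ iy i h := by rw [Ne, Fin.ext_iff, ix_val, iy_val]; omega
    have hlt' : w (Fin.rev (iy i h)) < w (Fin.rev (ix i h)) := by
      rw [hw.rev, hw.rev]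
      exact Fin.rev_lt_rev.2 hlt
    rw [ts, if_pos h1, ← mul_assoc, fw_swap _ (by
        rw [Ne, Fin.ext_iff, rv_val, rv_val, ix_val, iy_val]; omega), fw_swap _ hne1,
      Equiv.Perm.mul_apply, Equiv.Perm.mul_apply, Equiv.swap_apply_of_ne_of_ne,
      Equiv.swap_apply_of_ne_of_ne]
    · rw [rv_val, rv_val, ix_val, iy_val]
      rw [Fin.lt_def] at hlt hlt'
      have h4 : ((w (ix i h)).val : ℤ) < (w (iy i h)).val := by exact_mod_cast hlt
      have h5 : ((w (Fin.rev (iy i h))).val : ℤ) < (w (Fin.rev (ix i h))).val := by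
        exact_mod_cast hlt'
      have e1 : ((2 * r + 1 - i : ℕ) : ℤ) - ((2 * r + 1 - (i + 1) : ℕ) : ℤ) = 1 := by omega
      have e2 : ((i + 1 : ℕ) : ℤ) - ((i : ℕ) : ℤ) = 1 := by omega
      rw [e1, e2]
      linarith
    · rw [Ne, Fin.ext_iff, rv_val, ix_val]; omega
    · rw [Ne, Fin.ext_iff, rv_val, ix_val, iy_val]; omega
    · rw [Ne, Fin.ext_iff, rv_val, ix_val, iy_val]; omega
    · rw [Ne, Fin.ext_iff, rv_val, iy_val]; omega
  · have hi' : i + 1 = r := by omega
    rw [iy_ma h hi'] at hlt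
    have hne1 : ix i h ≠ Fin.rev (ix i h) := (rev_ne_self _).symm
    have hsh := hw.sh (ix_sh i h)
    have ha := hsh.a
    have hb := hsh.b
    rw [Ne, Fin.ext_iff, ma_val] at ha
    rw [Ne, Fin.ext_iff, mb_val] at hb
    have hmid : ((w (ma r)).val = r ∧ (w (mb r)).val = r + 1) ∨
        ((w (ma r)).val = r + 1 ∧ (w (mb r)).val = r) := by
      rcases hw.mid with ⟨h1, h2⟩ | ⟨h1, h2⟩ <;> rw [h1, h2, ma_val, mb_val]
      · exact Or.inl ⟨rfl, rfl⟩
      · exact Or.inr ⟨rfl, rfl⟩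
    rw [Fin.lt_def] at hlt
    have hW : (w (ix i h)).val < r := by omega
    rw [ts, if_neg (by omega), ← mul_assoc, PP, fw_swap _ mab, fw_swap _ hne1,
      Equiv.Perm.mul_apply, Equiv.Perm.mul_apply, Equiv.swap_apply_of_ne_of_ne,
      Equiv.swap_apply_of_ne_of_ne]
    · have e3 : ((Fin.rev (ix i h) : Fin (2 * r + 1 + 1)).val : ℤ) - ((ix i h :
        Fin (2 * r + 1 + 1)).val : ℤ) = 3 := by rw [rv_val, ix_val]; omega
      have e4 : ((mb r).val : ℤ) - ((ma r).val : ℤ) = 1 := by rw [ma_val, mb_val]; omega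
      rw [e3, e4, hw.rev]
      have h5 : ((Fin.rev (w (ix i h))).val : ℤ) + ((w (ix i h)).val : ℤ) = 2 * r + 1 := by
        rw [rv_val]; have := (w (ix i h)).2; omega
      have h6 : ((w (ix i h)).val : ℤ) + 1 ≤ (r : ℤ) := by omega
      have h7 : ((w (ma r)).val : ℤ) - ((w (mb r)).val : ℤ) ≤ 1 := by omega
      linarith
    · exact (ix_sh i h).b.symm
    · exact (ix_sh i h).rev.b.symm
    · exact (ix_sh i h).a.symm
    · exact (ix_sh i h).rev.a.symm

lemma w0_sq : w0 r * w0 r = 1 := by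
  ext x
  rw [Equiv.Perm.mul_apply, Equiv.Perm.one_apply, w0]
  split_ifs
  · rw [Fin.revPerm_apply, Fin.revPerm_apply, Fin.rev_rev]
  · rw [Equiv.Perm.mul_apply, Equiv.Perm.mul_apply, Fin.revPerm_apply, Fin.revPerm_apply, PP_rev,
      Fin.rev_rev, PP_PP]

lemma anti_eq {w : Equiv.Perm (Fin (2 * r + 1 + 1))} (hw : Gp w)
    (h : ∀ (i : ℕ) (h : i < r), w (iy i h) < w (ix i h)) : w = w0 r := by
  have h1 : w0 r * w = 1 := by
    refine sorted_one (w0_gp.mul hw) (fun i hi hi' => ?_) (fun i hi hi' => ?_)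
    · rw [Equiv.Perm.mul_apply, Equiv.Perm.mul_apply]
      refine w0_lt (h i hi) ?_
      rintro ⟨-, h2⟩
      exact (hw.sh (ix_sh i hi)).b h2
    · have h2 := h i hi
      rw [iy_ma hi hi', Fin.lt_def] at h2
      have hsh := hw.sh (ix_sh i hi)
      have ha := hsh.a
      have hb := hsh.b
      rw [Ne, Fin.ext_iff, ma_val] at ha
      rw [Ne, Fin.ext_iff, mb_val] at hb
      have hmid : (w (ma r)).val = r ∨ (w (ma r)).val = r + 1 := by
        rcases hw.mid with ⟨h1, h2⟩ | ⟨h1, h2⟩ <;> rw [h1]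
        · exact Or.inl rfl
        · exact Or.inr rfl
      have := (w (ix i hi)).2
      rw [Equiv.Perm.mul_apply, w0_sh hsh, Fin.rev_rev, Fin.lt_def, rv_val]
      omega
  have h2 := congrArg (fun v => w0 r * v) h1
  simp only [mul_one] at h2
  rw [← mul_assoc, w0_sq, one_mul] at h2
  exact h2

/-- **Descent**: a subgroup normalized by `GM` that contains the simple root groups contains `U`. -/
theorem UO_le_of (hσ : ∀ x, σ (σ x) = x) {D : Subgroup (SLm (2 * r + 1) K)}
    (hconj : ∀ g ∈ GM r σ, ∀ d ∈ D, g * d * g⁻¹ ∈ D)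
    (hX : ∀ (i : ℕ) (h : i < r) (s : SLm (2 * r + 1) K), Mon s (ts i h) → XO r σ s ≤ D) :
    UO r σ ≤ D := by
  have key : ∀ (k : ℕ) (w : Equiv.Perm (Fin (2 * r + 1 + 1))), Gp w → fw w < k →
      ∀ u ∈ UO r σ, (∀ x y, x < y → u.1 x y ≠ 0 → w x < w y) → u ∈ D := by
    intro k
    induction k with
    | zero =>
      intro w _ hk
      exfalso
      have : 0 ≤ fw w := Finset.sum_nonneg fun x _ =>
        mul_nonneg (Int.natCast_nonneg _) (Int.natCast_nonneg _)
      push_cast at hk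
      omega
    | succ k ih =>
      intro w hw hk u hu hpos
      by_cases hex : ∃ (i : ℕ) (h : i < r), w (ix i h) < w (iy i h)
      · obtain ⟨i, h, hlt⟩ := hex
        obtain ⟨s, hs, hm⟩ := ts_mon (K := K) hσ h
        obtain ⟨v, hv, x, hx, hsv, rfl⟩ := dec_U hσ hs hm hu
        have hxD : x ∈ D := hX i h s hm hx
        obtain ⟨n, hn, hmn⟩ := exists_NO (K := K) hσ hw
        have hxn : n * x * n⁻¹ ∈ UO r σ := conj_uu hn hmn hx.1.2 hx.1.1.2 fun a b hab hne => by
          obtain ⟨h2, h3⟩ := XO_pos hm hx hab hne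
          refine (gp_cmp hw h2 h3 ?_).1 hlt
          rintro ⟨rfl, rfl⟩
          exact hne (mid_zero hx.1)
        have hun : n * (v * x) * n⁻¹ ∈ UO r σ := conj_uu hn hmn hu.2 hu.1.2 fun a b hab hne => by
          refine hpos a b ?_ hne
          by_contra h2
          exact hne (hu.1.1 a b (lt_of_le_of_ne (not_lt.1 h2) (Ne.symm hab)))
        have hvn : n * v * n⁻¹ ∈ UO r σ := by
          have e : n * v * n⁻¹ = (n * (v * x) * n⁻¹) * (n * x * n⁻¹)⁻¹ := by group
          rw [e]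
          exact mul_mem hun (inv_mem hxn)
        have hvpos : ∀ a b, a < b → v.1 a b ≠ 0 → w a < w b := by
          intro a b hab hne
          have h2 := (mon_conj_ne hmn v a b).2 hne
          by_contra h3
          have h4 : w b < w a := lt_of_le_of_ne (not_lt.1 h3) fun h4 => hab.ne (w.injective h4).symm
          exact h2 (hvn.1.1 _ _ h4)
        have h5 : s * v * s⁻¹ ∈ D := by
          have hlt' := ts_dec hw h hlt
          refine ih (w * ts i h) (hw.mul (ts_gp h)) (by push_cast at hk ⊢; linarith) _ hsv ?_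
          intro a b hab hne
          obtain ⟨a, rfl⟩ := (ts i h).surjective a
          obtain ⟨b, rfl⟩ := (ts i h).surjective b
          have h6 := (mon_conj_ne hm v a b).1 hne
          rw [Equiv.Perm.mul_apply, Equiv.Perm.mul_apply, ts_ts, ts_ts]
          have hab' : a ≠ b := by
            rintro rfl
            exact lt_irrefl _ hab
          refine hvpos a b ?_ h6
          by_contra h7
          exact h6 (hv.1.1 a b (lt_of_le_of_ne (not_lt.1 h7) (Ne.symm hab')))
        have h6 : v ∈ D := by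
          have := hconj s⁻¹ (inv_mem hs) _ h5
          have e : s⁻¹ * (s * v * s⁻¹) * s⁻¹⁻¹ = v := by group
          rwa [e] at this
        exact mul_mem h6 hxD
      · push Not at hex
        have hw0 : w = w0 r := anti_eq hw fun i h => lt_of_le_of_ne (hex i h)
          fun h2 => (ix_lt h).ne (w.injective h2).symm
        have hu1 : u = 1 := by
          refine sl_ext fun i j => ?_
          rw [sl_one]
          rcases lt_trichotomy i j with h1 | h1 | h1
          · rw [if_neg h1.ne]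
            by_cases h3 : i = ma r ∧ j = mb r
            · rw [h3.1, h3.2]
              exact mid_zero hu
            · by_contra hne
              have h4 := hpos i j h1 hne
              rw [hw0] at h4
              exact lt_asymm h4 (w0_lt h1 h3)
          · rw [h1, if_pos rfl, hu.1.2]
          · rw [if_neg h1.ne', hu.1.1 i j h1]
        rw [hu1]
        exact one_mem _
  intro u hu
  obtain ⟨k, hk⟩ := Int.eq_ofNat_of_zero_le (a := fw (1 : Equiv.Perm (Fin (2 * r + 1 + 1))))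
    (Finset.sum_nonneg fun x _ => mul_nonneg (Int.natCast_nonneg _) (Int.natCast_nonneg _))
  refine key (k + 1) 1 Gp.one (by rw [hk]; push_cast; omega) u hu fun x y hxy _ => ?_
  exact hxy

/-- **The unitriangular elements are products of commutators.** -/
theorem UO_le_comm (hσ : ∀ x, σ (σ x) = x) (hne : ∃ x, σ x ≠ x) :
    UO r σ ≤ ⁅GM r σ, GM r σ⁆ :=
  UO_le_of hσ (fun g hg d hd => comm_conj hg hd) fun i h s hm x hx => XO_comm hσ hne hm hx

end

end Vale.Agent.P240.R2.H727.O
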