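import Vale.Agent.P240.R2.H727.Q5
import Vale.Agent.P240.R2.H432.Q5p
import Vale.Agent.P240.R2.H432.Q5i
import Vale.Agent.P240.R2.H687.TI
import Vale.Agent.P240.R2.H687.TJ

/-!
**`PΩ_8^+(5)` at the prime `3`**: the row `StmtQ5`, and `EuFree 3` for all groups `PΩ_8^+(q)`,
`q` prime to `6`.
-/

set_option autoImplicit false
set_option linter.all false

namespace Vale.Agent.P240.R2.H727.Q5

open Subgroup Matrix Vale.Agent.P240.H195
open Vale.Agent.P240.R2.H38.DD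
open Vale.Agent.P240.R2.H145.EO hiding SOD
open Vale.Agent.P240.R2.H432.Q (tg)
open Vale.Agent.P240.R2.H687.T (Bs Sd StmtQ5 cl_eq_pm)
open Vale.Agent.P240.R2.H401.D (fd)
open Vale.Agent.P240.R2.H275.F3 (cl)

universe u

theorem q5_inner : StmtQ5.{u} := by
  intro K _ _ h5 d ε hd hsq y hb hε s hs hsS hsimple f hf hfs
  have hK : Nat.card K = 5 := by rw [Nat.card_eq_fintype_card, h5]
  obtain ⟨r, hrc⟩ := CharP.exists K
  have hrp : r.Prime := CharP.char_is_prime K r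
  have hr5 : r = 5 := by
    obtain ⟨k, hk, hcard⟩ := FiniteField.card K r
    rw [h5] at hcard
    exact ((Nat.prime_dvd_prime_iff_eq hrp (by norm_num)).1 (by
      rw [hcard]
      exact dvd_pow_self r k.2.ne'))
  subst hr5
  haveI : Fact (Nat.Prime 5) := ⟨by norm_num⟩
  have h2 : (2 : K) ≠ 0 := hb.h2
  have ha : ∀ i : VI 3, fd 7 d i ≠ 0 := by
    intro i
    unfold Vale.Agent.P240.R2.H401.D.fd
    split_ifs
    · exact hd
    · exact one_ne_zero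
  obtain ⟨P, hP⟩ := Vale.Agent.P240.R2.H432.Q5.exists_P h2 hd hsq
  obtain ⟨e, he⟩ := Vale.Agent.P240.R2.H432.Q5.iso_P h2 (a := fd 7 d) P hP
  -- the element
  obtain ⟨x, hx⟩ := e.surjective (cl _ ⟨s, hsS⟩)
  obtain ⟨g, hg⟩ := QuotientGroup.mk'_surjective (center ↥(EE 3 K)) x
  have hg' : e (pH _ g) = cl _ ⟨s, hsS⟩ := by
    rw [← hx, ← hg]
  obtain ⟨hPg, heg⟩ := he g
  have hSO : P * tg 3 K g.1 * P⁻¹ ∈ Vale.Agent.P240.R2.H145.EO.SOD (fd 7 d) := by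
    rw [Vale.Agent.P240.R2.H145.EO.mem_SOD]
    refine ⟨hPg, ?_⟩
    rw [← heg]
    exact (e _).2
  have hcl : cl _ ⟨P * tg 3 K g.1 * P⁻¹, hSO⟩ = cl _ ⟨s, hsS⟩ := by
    rw [← hg']
    apply Subtype.ext
    exact heg.symm
  refine q5_core (r := 5) h2 (by norm_num) hK (by norm_num) ha hP hb hs hsimple e g
    ((cl_eq_pm h2 hd hsq _ _).1 hcl) hf ?_
  rw [hg']
  exact hfs

open Vale.Agent.P240.R2.H687.T in
/-- **`EuFree 3` for `PΩ_8^+(q)`**, all `q` prime to `6` -/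
theorem euFree_D4 {K : Type u} [Field K] [Finite K] {d : K} (h2 : (2 : K) ≠ 0) (h3K : (3 : K) ≠ 0)
    (hd : d ≠ 0) (hsq : IsSquare d)
    (hs : IsSimpleGroup ↥(commutator (Vale.Agent.P240.R2.H145.EO.PO (fd 7 d)))) :
    Vale.Agent.P240.H195.EuFree 3 ↥(commutator (Vale.Agent.P240.R2.H145.EO.PO (fd 7 d))) :=
  euFree_D4' stmtField q5_inner h2 h3K hd hsq hs

end Vale.Agent.P240.R2.H727.Q5
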