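import Vale.Agent.P240.R2.H727.AutB1b

/-!
`StmtB1`: automorphisms of `PSU_n(q)` that fix the diagonal elements of exponent `p` preserve the
coordinate subgroups `SU_2`.
-/

set_option autoImplicit false

namespace Vale.Agent.P240.R2.H727

open Matrix Vale.Agent.P240.R2.AS Vale.Agent.P240.R2.H775.Aut

universe u

section two

variable {K : Type u} [Field K] [StarRing K] {n : ℕ}

lemma su2_form {B : Matrix (Fin 2) (Fin 2) K} (h : B * star B = 1) (hd : B.det = 1) :
    B 1 1 = star (B 0 0) ∧ B 1 0 = -star (B 0 1) ∧ B 0 0 * star (B 0 0) + B 0 1 * star (B 0 1) = 1 := by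
  have h1 : B⁻¹ = star B := Matrix.inv_eq_right_inv h
  rw [Matrix.inv_def, hd, Ring.inverse_one, one_smul, Matrix.adjugate_fin_two] at h1
  have h00 := congrFun (congrFun h1 0) 0
  have h10 := congrFun (congrFun h1 1) 0
  have h2 := congrFun (congrFun h 0) 0
  simp only [of_apply, cons_val', cons_val_zero, cons_val_one, cons_val_fin_one,
    star_apply] at h00 h10
  rw [Matrix.mul_apply, Fin.sum_univ_two] at h2
  simp only [star_apply, Matrix.one_apply_eq] at h2
  refine ⟨h00, ?_, h2⟩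
  rw [← h10, neg_neg]

omit [StarRing K] in
lemma emb_injective {i j : Fin n} (hij : i ≠ j) {B C : Matrix (Fin 2) (Fin 2) K}
    (h : emb i j B = emb i j C) : B = C := by
  ext a b
  fin_cases a <;> fin_cases b
  · have := congrFun (congrFun h i) i; rwa [emb_00 hij, emb_00 hij] at this
  · have := congrFun (congrFun h i) j; rwa [emb_01 hij, emb_01 hij] at this
  · have := congrFun (congrFun h j) i; rwa [emb_10 hij, emb_10 hij] at this
  · have := congrFun (congrFun h j) j; rwa [emb_11 hij, emb_11 hij] at this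

/-- the embedding `U_2 → U_n` -/
def EU {i j : Fin n} (hij : i ≠ j) : GU K 2 →* GU K n where
  toFun B := ⟨emb i j B.1, by
    rw [Matrix.mem_unitaryGroup_iff, emb_star, ← emb_mul hij, GU_star, emb_one]⟩
  map_one' := Subtype.ext (emb_one i j)
  map_mul' B C := Subtype.ext (emb_mul hij B.1 C.1)

lemma EU_val {i j : Fin n} (hij : i ≠ j) (B : GU K 2) : (EU hij B).1 = emb i j B.1 := rfl

lemma EU_mem_SU {i j : Fin n} (hij : i ≠ j) {B : GU K 2} (hB : B ∈ SU K 2) : EU hij B ∈ SU K n := by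
  rw [mem_SU, EU_val, emb_det hij]
  exact hB

lemma EU_mem_LLs {i j : Fin n} (hij : i ≠ j) {B : GU K 2} (hB : B ∈ SU K 2) :
    EU hij B ∈ LLs i j := by
  obtain ⟨h1, h2, h3⟩ := su2_form (GU_star B) hB
  refine ⟨B.1 0 0, B.1 0 1, h3, ?_⟩
  rw [EU_val, gm_eq]
  congr 1
  ext a b
  fin_cases a <;> fin_cases b
  · rfl
  · rfl
  · exact h2
  · exact h1

lemma exists_of_LLs {i j : Fin n} (hij : i ≠ j) {g : GU K n} (hg : g ∈ LLs i j) :
    ∃ B ∈ SU K 2, EU hij B = g := by
  obtain ⟨x, y, hxy, hg⟩ := hg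
  have hdet : (!![x, y; -star y, star x] : Matrix (Fin 2) (Fin 2) K).det = 1 := by
    rw [Matrix.det_fin_two_of]
    linear_combination hxy
  have hU : !![x, y; -star y, star x] ∈ Matrix.unitaryGroup (Fin 2) K := by
    rw [Matrix.mem_unitaryGroup_iff]
    have h1 : emb i j (!![x, y; -star y, star x] * star !![x, y; -star y, star x]) =
        emb i j (1 : Matrix (Fin 2) (Fin 2) K) := by
      rw [emb_mul hij, ← emb_star, ← gm_eq, ← hg, GU_star, emb_one]
    exact emb_injective hij h1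
  refine ⟨⟨_, hU⟩, hdet, Subtype.ext ?_⟩
  rw [EU_val, hg, gm_eq]

end two

section

variable {K : Type u} [Field K] [Fintype K] [StarRing K] {q n : ℕ}

omit [Fintype K] [StarRing K] in
/-- a matrix of order `r` that vanishes outside the diagonal and the block `{i, j}` -/
lemma block_form {r : ℕ} [Fact r.Prime] [CharP K r] {i j : Fin n} (hij : i ≠ j)
    {g : Matrix (Fin n) (Fin n) K} (hg : g ^ r = 1)
    (h : ∀ k l, k ≠ l → ¬ ((k = i ∨ k = j) ∧ (l = i ∨ l = j)) → g k l = 0) :
    g = emb i j !![g i i, g i j; g j i, g j j] := by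
  have hdiag : ∀ k, k ≠ i → k ≠ j → g k k = 1 := by
    intro k hki hkj
    have h1 : ∀ M : Matrix (Fin n) (Fin n) K, (g * M) k k = g k k * M k k := by
      intro M
      rw [Matrix.mul_apply, Finset.sum_eq_single k]
      · intro l _ hl
        rw [h k l hl.symm (fun hc => hc.1.elim hki hkj), zero_mul]
      · intro hk
        exact absurd (Finset.mem_univ k) hk
    have h2 : ∀ m : ℕ, (g ^ m) k k = (g k k) ^ m := by
      intro m
      induction m with
      | zero => simp
      | succ m ih => rw [pow_succ', h1, ih, pow_succ']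
    have h3 := h2 r
    rw [hg, Matrix.one_apply_eq] at h3
    have h4 : (g k k - 1) ^ r = 0 := by
      rw [sub_pow_char, one_pow, ← h3, sub_self]
    exact sub_eq_zero.1 (pow_eq_zero_iff (Fact.out : r.Prime).ne_zero |>.1 h4)
  refine eq_emb hij g ?_ ?_
  · intro k l hki hkj
    by_cases hkl : k = l
    · subst hkl
      rw [Matrix.one_apply_eq, hdiag k hki hkj]
    · rw [Matrix.one_apply_ne hkl, h k l hkl (fun hc => hc.1.elim hki hkj)]
  · intro k l hli hlj
    by_cases hkl : k = l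
    · subst hkl
      rw [Matrix.one_apply_eq, hdiag k hli hlj]
    · rw [Matrix.one_apply_ne hkl, h k l hkl (fun hc => hc.2.elim hli hlj)]

omit [Fintype K] in
lemma block_mem {r : ℕ} [Fact r.Prime] [CharP K r] {i j : Fin n} (hij : i ≠ j) {g : GU K n}
    (hg : g ^ r = 1)
    (h : ∀ k l, k ≠ l → ¬ ((k = i ∨ k = j) ∧ (l = i ∨ l = j)) → g.1 k l = 0) :
    g ∈ LLs i j := by
  have hg' : g.1 ^ r = 1 := congrArg Subtype.val hg
  have h1 := block_form hij hg' h
  set B : Matrix (Fin 2) (Fin 2) K := !![g.1 i i, g.1 i j; g.1 j i, g.1 j j] with hB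
  have hU : B ∈ Matrix.unitaryGroup (Fin 2) K := by
    rw [Matrix.mem_unitaryGroup_iff]
    have h2 : emb i j (B * star B) = emb i j (1 : Matrix (Fin 2) (Fin 2) K) := by
      rw [emb_mul hij, ← emb_star, ← h1, GU_star, emb_one]
    exact emb_injective hij h2
  have hdet : B.det = 1 := by
    have h2 : B.det ^ r = 1 := by
      rw [← emb_det hij B, ← h1, ← Matrix.det_pow, hg', Matrix.det_one]
    have h4 : (B.det - 1) ^ r = 0 := by
      rw [sub_pow_char, one_pow, h2, sub_self]
    exact sub_eq_zero.1 (pow_eq_zero_iff (Fact.out : r.Prime).ne_zero |>.1 h4)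
  have h3 : EU hij ⟨B, hU⟩ = g := Subtype.ext (by rw [EU_val]; exact h1.symm)
  rw [← h3]
  exact EU_mem_LLs hij hdet

/-- the diagonal vector with `ζ` at `t`, `ζ⁻¹` at `m`, `1` elsewhere -/
def cv {K : Type u} [Field K] (ζ : K) (t m : Fin n) : Fin n → K :=
  Function.update (Function.update 1 t ζ) m ζ⁻¹

omit [Fintype K] [StarRing K] in
lemma cv_t {ζ : K} {t m : Fin n} (htm : t ≠ m) : cv ζ t m t = ζ := by
  simp [cv, Function.update_of_ne htm]

omit [Fintype K] [StarRing K] in
lemma cv_m {ζ : K} {t m : Fin n} : cv ζ t m m = ζ⁻¹ := by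
  simp [cv]

omit [Fintype K] [StarRing K] in
lemma cv_o {ζ : K} {t m k : Fin n} (hkt : k ≠ t) (hkm : k ≠ m) : cv ζ t m k = 1 := by
  simp [cv, Function.update_of_ne hkt, Function.update_of_ne hkm]

omit [Fintype K] [StarRing K] in
lemma cv_pow {ζ : K} {p : ℕ} (hζ : ζ ^ p = 1) (t m k : Fin n) : (cv ζ t m k) ^ p = 1 := by
  by_cases hkm : k = m
  · subst hkm
    rw [cv_m, inv_pow, hζ, inv_one]
  · by_cases hkt : k = t
    · subst hkt
      rw [cv_t hkm, hζ]
    · rw [cv_o hkt hkm, one_pow]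

omit [Fintype K] [StarRing K] in
lemma cv_prod {ζ : K} (hζ : ζ ≠ 0) {t m : Fin n} (htm : t ≠ m) : ∏ k, cv ζ t m k = 1 := by
  rw [← Finset.mul_prod_erase Finset.univ _ (Finset.mem_univ t),
    ← Finset.mul_prod_erase (Finset.univ.erase t) _ (Finset.mem_erase.2 ⟨htm.symm, Finset.mem_univ m⟩),
    cv_t htm, cv_m, Finset.prod_eq_one, mul_one, mul_inv_cancel₀ hζ]
  intro k hk
  rw [Finset.mem_erase, Finset.mem_erase] at hk
  exact cv_o hk.2.1 hk.1

lemma exists_notMem (s : Finset (Fin n)) (hs : s.card < n) : ∃ m : Fin n, m ∉ s := by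
  by_contra hcon
  push Not at hcon
  have : s = Finset.univ := Finset.eq_univ_iff_forall.2 hcon
  rw [this, Finset.card_univ, Fintype.card_fin] at hs
  exact lt_irrefl _ hs

lemma cv_mem_PSU (hq : 2 ≤ q) (hF : Fld K q) (hn : 1 ≤ n) {p : ℕ} (hpq : p ∣ q + 1) {ζ : K}
    (hζ0 : ζ ≠ 0) (hζ : ζ ^ p = 1) {t m : Fin n} (htm : t ≠ m) : dg (cv ζ t m) ∈ PSU K n :=
  dg_mem_PSU hq hF hn (fun k => norm_of_pow hF hpq (cv_pow hζ t m k)) (l := 1) (by simp)
    (by rw [one_pow, one_mul, cv_prod hζ0 htm])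

/-- enough diagonal elements of exponent `p` with equal entries at `i, j` -/
lemma exists_sep (hq : 2 ≤ q) (hF : Fld K q) {p : ℕ} [hpp : Fact p.Prime] (hpq : p ∣ q + 1)
    (hn : 3 ≤ n) (h2 : p = 2 → n ≠ 4) (h3 : p = 3 → n ≠ 3) {i j : Fin n} (hij : i ≠ j)
    {k l : Fin n} (hkl : k ≠ l) (hkl' : ¬ ((k = i ∨ k = j) ∧ (l = i ∨ l = j))) :
    ∃ c : Fin n → K, (∀ m, c m ^ p = 1) ∧ c i = c j ∧ c k ≠ c l ∧ dg c ∈ PSU K n := by
  obtain ⟨ζ, hζp, hζ1, hζs⟩ := H296.exists_zeta hF.card hF.star hpp.out hpq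
  have hζ0 : ζ ≠ 0 := by
    rintro rfl
    rw [zero_mul] at hζs
    exact zero_ne_one hζs
  have hζi1 : ζ⁻¹ ≠ 1 := fun h => hζ1 (inv_eq_one.1 h)
  rcases Nat.lt_or_ge n 4 with hn4 | hn4
  · -- n = 3
    have hn3 : n = 3 := by omega
    have hp3 : p ≠ 3 := fun h => h3 h hn3
    obtain ⟨t, htk, hti, htj⟩ : ∃ t : Fin n, (t = k ∨ t = l) ∧ t ≠ i ∧ t ≠ j := by
      by_cases hk : k = i ∨ k = j
      · have hl : ¬ (l = i ∨ l = j) := fun h => hkl' ⟨hk, h⟩
        push Not at hl
        exact ⟨l, Or.inr rfl, hl⟩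
      · push Not at hk
        exact ⟨k, Or.inl rfl, hk⟩
    -- the other one of k, l is i or j
    have hoth : ∀ m : Fin n, m ≠ t → (Function.update (1 : Fin n → K) t ζ) m = 1 := by
      intro m hm
      rw [Function.update_of_ne hm]
      rfl
    obtain ⟨m, -, hm⟩ := Nat.exists_mul_mod_eq_one_of_coprime
      (show Nat.Coprime 3 p from (Nat.coprime_primes Nat.prime_three hpp.out).2 hp3.symm)
      hpp.out.one_lt
    have hm' : 3 * m = 1 + p * (3 * m / p) := by
      have := Nat.mod_add_div (3 * m) p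
      rw [hm] at this
      omega
    have hpow : ∀ m', (Function.update (1 : Fin n → K) t ζ) m' ^ p = 1 := by
      intro m'
      by_cases h : m' = t
      · subst h; rw [Function.update_self, hζp]
      · rw [hoth m' h, one_pow]
    refine ⟨Function.update 1 t ζ, hpow, ?_, ?_, ?_⟩
    · rw [hoth i hti.symm, hoth j htj.symm]
    · rcases htk with rfl | rfl
      · rw [Function.update_self, hoth l hkl.symm]
        exact hζ1
      · rw [Function.update_self, hoth k hkl]
        exact hζ1.symm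
    · have hl : (ζ⁻¹) ^ m * star ((ζ⁻¹) ^ m) = 1 :=
        norm_of_pow hF hpq (by rw [← pow_mul, mul_comm, pow_mul, inv_pow, hζp, inv_one, one_pow])
      refine dg_mem_PSU hq hF (by omega) (fun k => norm_of_pow hF hpq (hpow k)) hl ?_
      have hprod : ∏ k, (Function.update (1 : Fin n → K) t ζ) k = ζ := by
        rw [Finset.prod_eq_single t]
        · rw [Function.update_self]
        · intro b _ hb
          exact hoth b hb
        · intro h
          exact absurd (Finset.mem_univ t) h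
      rw [hprod, hn3, ← pow_mul, mul_comm m 3, hm', pow_add, pow_one, pow_mul, inv_pow ζ p, hζp,
        inv_one, one_pow, mul_one, inv_mul_cancel₀ hζ0]
  · by_cases hk : k = i ∨ k = j
    · have hl : ¬ (l = i ∨ l = j) := fun h => hkl' ⟨hk, h⟩
      push Not at hl
      obtain ⟨m, hm⟩ := exists_notMem ({i, j, l} : Finset (Fin n))
        (lt_of_le_of_lt Finset.card_le_three hn4)
      simp only [Finset.mem_insert, Finset.mem_singleton, not_or] at hm
      refine ⟨cv ζ l m, cv_pow hζp l m, ?_, ?_, cv_mem_PSU hq hF (by omega) hpq hζ0 hζp (Ne.symm hm.2.2)⟩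
      · rw [cv_o hl.1.symm (Ne.symm hm.1), cv_o hl.2.symm (Ne.symm hm.2.1)]
      · rw [cv_t (Ne.symm hm.2.2)]
        rcases hk with rfl | rfl
        · rw [cv_o hkl (Ne.symm hm.1)]
          exact hζ1.symm
        · rw [cv_o hkl (Ne.symm hm.2.1)]
          exact hζ1.symm
    · push Not at hk
      by_cases hl : l = i ∨ l = j
      · obtain ⟨m, hm⟩ := exists_notMem ({i, j, k} : Finset (Fin n))
          (lt_of_le_of_lt Finset.card_le_three hn4)
        simp only [Finset.mem_insert, Finset.mem_singleton, not_or] at hm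
        refine ⟨cv ζ k m, cv_pow hζp k m, ?_, ?_, cv_mem_PSU hq hF (by omega) hpq hζ0 hζp (Ne.symm hm.2.2)⟩
        · rw [cv_o hk.1.symm (Ne.symm hm.1), cv_o hk.2.symm (Ne.symm hm.2.1)]
        · rw [cv_t (Ne.symm hm.2.2)]
          rcases hl with rfl | rfl
          · rw [cv_o hkl.symm (Ne.symm hm.1)]
            exact hζ1
          · rw [cv_o hkl.symm (Ne.symm hm.2.1)]
            exact hζ1
      · push Not at hl
        by_cases hp2 : p = 2
        · have hn5 : 4 < n := lt_of_le_of_ne hn4 (Ne.symm (h2 hp2))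
          obtain ⟨m, hm⟩ := exists_notMem ({i, j, k, l} : Finset (Fin n))
            (lt_of_le_of_lt Finset.card_le_four hn5)
          simp only [Finset.mem_insert, Finset.mem_singleton, not_or] at hm
          refine ⟨cv ζ k m, cv_pow hζp k m, ?_, ?_,
            cv_mem_PSU hq hF (by omega) hpq hζ0 hζp (Ne.symm hm.2.2.1)⟩
          · rw [cv_o hk.1.symm (Ne.symm hm.1), cv_o hk.2.symm (Ne.symm hm.2.1)]
          · rw [cv_t (Ne.symm hm.2.2.1), cv_o hkl.symm (Ne.symm hm.2.2.2)]
            exact hζ1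
        · refine ⟨cv ζ k l, cv_pow hζp k l, ?_, ?_, cv_mem_PSU hq hF (by omega) hpq hζ0 hζp hkl⟩
          · rw [cv_o hk.1.symm hl.1.symm, cv_o hk.2.symm hl.2.symm]
          · rw [cv_t hkl, cv_m]
            intro h
            have h4 : ζ ^ 2 = 1 := by
              rw [pow_two]
              nth_rewrite 2 [h]
              exact mul_inv_cancel₀ hζ0
            have h5 : Nat.gcd 2 p = 1 := (Nat.coprime_primes Nat.prime_two hpp.out).2 (Ne.symm hp2)
            have h6 := pow_gcd_eq_one.2 ⟨h4, hζp⟩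
            rw [h5, pow_one] at h6
            exact hζ1 h6

/-- an element of `PSU` of order `r` which commutes with the diagonal elements with equal entries at
`i, j` lies in the coordinate subgroup -/
lemma mem_of_comm (hq : 2 ≤ q) (hF : Fld K q) {r : ℕ} [Fact r.Prime] [CharP K r] {p : ℕ}
    [hpp : Fact p.Prime] (hpq : p ∣ q + 1) (hn : 3 ≤ n) (h2 : p = 2 → n ≠ 4) (h3 : p = 3 → n ≠ 3)
    {i j : Fin n} (hij : i ≠ j) (x : PGU K n) (hx : x ^ r = 1)
    (hc : ∀ c : Fin n → K, (∀ m, c m ^ p = 1) → c i = c j → dg c ∈ PSU K n → x * dg c = dg c * x) :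
    ∃ g ∈ LLs i j, x = QuotientGroup.mk g := by
  obtain ⟨g, rfl, hg⟩ := exists_lift hq hF (by omega) x hx
  refine ⟨g, block_mem hij hg ?_, rfl⟩
  intro k l hkl hkl'
  obtain ⟨c, hcp, hcij, hckl, hcm⟩ := exists_sep hq hF hpq hn h2 h3 hij hkl hkl'
  exact entry_zero (comm_exact hq hF (by omega) hpq g hg hcp (hc c hcp hcij hcm)) hckl

/-- `SU_2 → PSU_n` -/
def Eh (K : Type u) [Field K] [StarRing K] {i j : Fin n} (hij : i ≠ j) :
    ↥(SU K 2) →* ↥(PSU K n) where
  toFun B := ⟨QuotientGroup.mk (EU hij B.1), ⟨EU hij B.1, EU_mem_SU hij B.2, rfl⟩⟩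
  map_one' := Subtype.ext (by
    change (QuotientGroup.mk (EU hij 1) : PGU K n) = 1
    rw [map_one]; rfl)
  map_mul' B C := Subtype.ext (by
    change (QuotientGroup.mk (EU hij (B.1 * C.1)) : PGU K n) = _
    rw [map_mul]; rfl)

omit [Fintype K] in
lemma Eh_comm {p : ℕ} (hF : Fld K q) (hpq : p ∣ q + 1) {i j : Fin n} (hij : i ≠ j) (B : GU K 2)
    {c : Fin n → K} (hc : ∀ k, c k ^ p = 1) (hcij : c i = c j) :
    (QuotientGroup.mk (EU hij B) : PGU K n) * dg c = dg c * QuotientGroup.mk (EU hij B) := by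
  rw [dg_eq c (fun k => norm_of_pow hF hpq (hc k)), ← QuotientGroup.mk_mul, ← QuotientGroup.mk_mul]
  congr 1
  apply Subtype.ext
  change emb i j B.1 * Matrix.diagonal c = Matrix.diagonal c * emb i j B.1
  ext k l
  rw [Matrix.mul_diagonal, Matrix.diagonal_mul]
  by_cases hk : k ≠ i ∧ k ≠ j
  · rw [emb_apply_ne _ hk.1 hk.2]
    by_cases hkl : k = l
    · subst hkl; rw [mul_comm]
    · rw [Matrix.one_apply_ne hkl, zero_mul, mul_zero]
  by_cases hl : l ≠ i ∧ l ≠ j
  · rw [emb_apply_ne' _ hl.1 hl.2]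
    by_cases hkl : k = l
    · subst hkl; rw [mul_comm]
    · rw [Matrix.one_apply_ne hkl, zero_mul, mul_zero]
  have hk' : k = i ∨ k = j := by
    by_contra hcon
    push Not at hcon
    exact hk hcon
  have hl' : l = i ∨ l = j := by
    by_contra hcon
    push Not at hcon
    exact hl hcon
  have h1 : c k = c l := by
    rcases hk' with rfl | rfl <;> rcases hl' with rfl | rfl
    · rfl
    · exact hcij
    · exact hcij.symm
    · rfl
  rw [h1, mul_comm]

theorem stmtB1 (hB2b : StmtB2b.{u}) : StmtB1.{u} := by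
  intro K _ _ _ q hq4 hF p hpp hpq n hn h2 h3 f hfix i j hij x g hg hxg
  have hq : 2 ≤ q := by omega
  obtain ⟨r, hr⟩ := CharP.exists K
  have hrp : r.Prime := CharP.char_is_prime K r
  have : Fact r.Prime := ⟨hrp⟩
  -- elements of order r
  have key : ∀ B : ↥(SU K 2), B ^ r = 1 → f (Eh K hij B) ∈ (Eh K hij).range := by
    intro B hB
    have h4 : (f (Eh K hij B)) ^ r = 1 := by rw [← map_pow, ← map_pow, hB, map_one, map_one]
    obtain ⟨g', hg', hx'⟩ := mem_of_comm (r := r) hq hF hpq hn h2 h3 hij (f (Eh K hij B)).1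
      (by simpa using congrArg Subtype.val h4) (by
        intro c hcp hcij hcm
        have h5 : f ⟨dg c, hcm⟩ = ⟨dg c, hcm⟩ := hfix ⟨dg c, hcm⟩ ⟨c, hcp, rfl⟩
        have h6 : Eh K hij B * ⟨dg c, hcm⟩ = ⟨dg c, hcm⟩ * Eh K hij B :=
          Subtype.ext (Eh_comm hF hpq hij B.1 hcp hcij)
        have h7 := congrArg f h6
        rw [map_mul, map_mul, h5] at h7
        exact congrArg Subtype.val h7)
    obtain ⟨C, hC, rfl⟩ := exists_of_LLs hij hg'
    exact ⟨⟨C, hC⟩, Subtype.ext hx'.symm⟩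
  have hall : ∀ B : ↥(SU K 2), f (Eh K hij B) ∈ (Eh K hij).range := by
    intro B
    have h4 := hB2b K q r (by omega) hF hrp hr
      ((((Eh K hij).range.comap f.toMonoidHom).comap (Eh K hij)).map (SU K 2).subtype) (by
        intro g hg hgr
        exact ⟨⟨g, hg⟩, key ⟨g, hg⟩ (Subtype.ext hgr), rfl⟩)
    obtain ⟨B', hB', hBB⟩ := h4 B.2
    have : B' = B := Subtype.ext hBB
    rw [← this]
    exact hB'
  obtain ⟨B, hB, rfl⟩ := exists_of_LLs hij hg
  have hx : x = Eh K hij ⟨B, hB⟩ := Subtype.ext hxg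
  subst hx
  obtain ⟨C, hC⟩ := hall ⟨B, hB⟩
  refine ⟨EU hij C.1, EU_mem_LLs hij C.2, ?_, ?_⟩
  · rw [← hC]; rfl
  · intro h0
    obtain ⟨ζ, hζp, hζ1, hζs⟩ := H296.exists_zeta hF.card hF.star hpp.out hpq
    have hζ0 : ζ ≠ 0 := by
      rintro rfl
      rw [zero_mul] at hζs
      exact zero_ne_one hζs
    obtain ⟨m, hm⟩ := exists_notMem ({i, j} : Finset (Fin n))
      (lt_of_le_of_lt Finset.card_le_two (by omega))
    simp only [Finset.mem_insert, Finset.mem_singleton, not_or] at hm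
    have him : i ≠ m := Ne.symm hm.1
    have hcp := cv_pow hζp i m
    have hcn : ∀ k, cv ζ i m k * star (cv ζ i m k) = 1 := fun k => norm_of_pow hF hpq (hcp k)
    have hcm : dg (cv ζ i m) ∈ PSU K n := cv_mem_PSU hq hF (by omega) hpq hζ0 hζp him
    have h5 : f ⟨dg (cv ζ i m), hcm⟩ = ⟨dg (cv ζ i m), hcm⟩ := hfix ⟨_, hcm⟩ ⟨_, hcp, rfl⟩
    have h0' : B.1 0 1 = 0 := by rwa [EU_val, emb_01 hij] at h0
    have hB10 : B.1 1 0 = 0 := by
      rw [(su2_form (GU_star B) hB).2.1, h0', star_zero, neg_zero]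
    have h6 : Eh K hij ⟨B, hB⟩ * ⟨dg (cv ζ i m), hcm⟩ = ⟨dg (cv ζ i m), hcm⟩ * Eh K hij ⟨B, hB⟩ := by
      apply Subtype.ext
      change (QuotientGroup.mk (EU hij B) : PGU K n) * dg (cv ζ i m) =
        dg (cv ζ i m) * QuotientGroup.mk (EU hij B)
      rw [dg_eq _ hcn, ← QuotientGroup.mk_mul, ← QuotientGroup.mk_mul]
      congr 1
      apply Subtype.ext
      change emb i j B.1 * Matrix.diagonal _ = Matrix.diagonal _ * emb i j B.1
      ext k l
      rw [Matrix.mul_diagonal, Matrix.diagonal_mul]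
      by_cases hkl : k = l
      · subst hkl; rw [mul_comm]
      · have h7 : emb i j B.1 k l = 0 := by
          by_cases hk : k ≠ i ∧ k ≠ j
          · rw [emb_apply_ne _ hk.1 hk.2, Matrix.one_apply_ne hkl]
          by_cases hl : l ≠ i ∧ l ≠ j
          · rw [emb_apply_ne' _ hl.1 hl.2, Matrix.one_apply_ne hkl]
          have hk' : k = i ∨ k = j := by
            by_contra hcon
            push Not at hcon
            exact hk hcon
          have hl' : l = i ∨ l = j := by
            by_contra hcon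
            push Not at hcon
            exact hl hcon
          rcases hk' with rfl | rfl <;> rcases hl' with rfl | rfl
          · exact absurd rfl hkl
          · rw [emb_01 hij, h0']
          · rw [emb_10 hij, hB10]
          · exact absurd rfl hkl
        rw [h7, zero_mul, mul_zero]
    have h7 := congrArg f h6
    rw [map_mul, map_mul, h5, ← hC] at h7
    have h8 : (QuotientGroup.mk (EU hij C.1) : PGU K n) * dg (cv ζ i m) =
        dg (cv ζ i m) * QuotientGroup.mk (EU hij C.1) := congrArg Subtype.val h7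
    rw [dg_eq _ hcn, ← QuotientGroup.mk_mul, ← QuotientGroup.mk_mul,
      mk_eq_iff hq hF (by omega)] at h8
    obtain ⟨κ, hκ⟩ := h8
    have hκ' : Matrix.diagonal (cv ζ i m) * emb i j C.1.1 =
        κ • (emb i j C.1.1 * Matrix.diagonal (cv ζ i m)) := hκ
    have hmm := congrFun (congrFun hκ' m) m
    have hij' := congrFun (congrFun hκ' i) j
    rw [Matrix.smul_apply, Matrix.mul_diagonal, Matrix.diagonal_mul, smul_eq_mul] at hmm hij'
    rw [emb_apply_ne _ hm.1 hm.2, Matrix.one_apply_eq, mul_one, one_mul, cv_m] at hmm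
    have hκ1 : κ = 1 := by
      have hi : ζ⁻¹ ≠ 0 := inv_ne_zero hζ0
      have : ζ⁻¹ * (κ - 1) = 0 := by linear_combination -hmm
      rcases mul_eq_zero.1 this with h9 | h9
      · exact absurd h9 hi
      · exact sub_eq_zero.1 h9
    rw [hκ1, one_mul, cv_t him, cv_o hij.symm (Ne.symm hm.2), mul_one] at hij'
    change emb i j C.1.1 i j = 0
    have : (ζ - 1) * emb i j C.1.1 i j = 0 := by linear_combination hij'
    rcases mul_eq_zero.1 this with h9 | h9
    · exact absurd (sub_eq_zero.1 h9) hζ1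
    · exact h9

end

end Vale.Agent.P240.R2.H727
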