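import Vale.Agent.P240.R2.H775.AutStmts
import Vale.Agent.P240.R2.H296.Cen

/-!
Embedding of `2 × 2` matrices in the coordinates `i, j`; scalars and classes in `PGU`.
-/

set_option autoImplicit false

namespace Vale.Agent.P240.R2.H727

open Matrix Vale.Agent.P240.R2.AS Vale.Agent.P240.R2.H775.Aut

universe u

section emb

variable {K : Type u} [Field K] {n : ℕ}

/-- the matrix with columns `e_i`, `e_j` -/
def Vm (K : Type u) [Field K] {n : ℕ} (i j : Fin n) : Matrix (Fin n) (Fin 2) K :=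
  Matrix.of fun k a => if k = ![i, j] a then 1 else 0

/-- its transpose -/
def Wm (K : Type u) [Field K] {n : ℕ} (i j : Fin n) : Matrix (Fin 2) (Fin n) K :=
  Matrix.of fun a k => if k = ![i, j] a then 1 else 0

/-- the embedding of `2 × 2` matrices -/
def emb (i j : Fin n) (B : Matrix (Fin 2) (Fin 2) K) : Matrix (Fin n) (Fin n) K :=
  1 + Vm K i j * (B - 1) * Wm K i j

lemma Vm_mul {i j : Fin n} (hij : i ≠ j) : Wm K i j * Vm K i j = 1 := by
  ext a b
  rw [Matrix.mul_apply]
  simp only [Vm, Wm, of_apply, ite_mul, one_mul, zero_mul, Finset.sum_ite_eq', Finset.mem_univ, if_true]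
  fin_cases a <;> fin_cases b <;> simp [hij, hij.symm]

lemma emb_one (i j : Fin n) : emb i j (1 : Matrix (Fin 2) (Fin 2) K) = 1 := by
  simp [emb]

lemma emb_mul {i j : Fin n} (hij : i ≠ j) (B C : Matrix (Fin 2) (Fin 2) K) :
    emb i j (B * C) = emb i j B * emb i j C := by
  have h : B * C - 1 = (B - 1) + (C - 1) + (B - 1) * (C - 1) := by noncomm_ring
  have h2 : (Vm K i j * (B - 1) * Wm K i j) * (Vm K i j * (C - 1) * Wm K i j) =
      Vm K i j * ((B - 1) * (C - 1)) * Wm K i j := by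
    calc (Vm K i j * (B - 1) * Wm K i j) * (Vm K i j * (C - 1) * Wm K i j)
        = Vm K i j * (B - 1) * (Wm K i j * Vm K i j) * (C - 1) * Wm K i j := by
          simp only [Matrix.mul_assoc]
      _ = _ := by rw [Vm_mul hij]; simp only [Matrix.mul_one, Matrix.mul_assoc]
  rw [emb, emb, emb, h, add_mul, mul_add, mul_add, h2]
  simp only [Matrix.mul_add, Matrix.add_mul, one_mul, mul_one]
  abel

lemma emb_det {i j : Fin n} (hij : i ≠ j) (B : Matrix (Fin 2) (Fin 2) K) :
    (emb i j B).det = B.det := by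
  rw [emb, Matrix.mul_assoc, Matrix.det_one_add_mul_comm, Matrix.mul_assoc, Vm_mul hij,
    Matrix.mul_one]
  congr 1
  abel

lemma sng (i j : Fin n) (c : K) (k l : Fin n) :
    single i j c k l = (if k = i then 1 else 0) * c * (if l = j then 1 else 0) := by
  rw [Matrix.single_apply]
  by_cases h : i = k
  · by_cases h' : j = l
    · simp [h, h']
    · simp [h, h', Ne.symm h']
  · simp [h, Ne.symm h]

lemma Vm0 (i j k : Fin n) : Vm K i j k 0 = if k = i then 1 else 0 := rfl

lemma Vm1 (i j k : Fin n) : Vm K i j k 1 = if k = j then 1 else 0 := rfl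

lemma Wm0 (i j k : Fin n) : Wm K i j 0 k = if k = i then 1 else 0 := rfl

lemma Wm1 (i j k : Fin n) : Wm K i j 1 k = if k = j then 1 else 0 := rfl

lemma Vm_mul_Wm (i j : Fin n) (C : Matrix (Fin 2) (Fin 2) K) : Vm K i j * C * Wm K i j =
    single i i (C 0 0) + single i j (C 0 1) + single j i (C 1 0) + single j j (C 1 1) := by
  ext k l
  simp only [Matrix.mul_apply, Vm0, Vm1, Wm0, Wm1, Fin.sum_univ_two, Matrix.add_apply, sng]
  ring

lemma emb_eq (i j : Fin n) (B : Matrix (Fin 2) (Fin 2) K) : emb i j B =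
    1 + (single i i (B 0 0 - 1) + single i j (B 0 1) + single j i (B 1 0) +
      single j j (B 1 1 - 1)) := by
  rw [emb, Vm_mul_Wm]
  simp

lemma emb_star [StarRing K] (i j : Fin n) (B : Matrix (Fin 2) (Fin 2) K) :
    star (emb i j B) = emb i j (star B) := by
  rw [emb_eq, emb_eq]
  ext k l
  simp only [star_apply, Matrix.add_apply, sng, star_add, star_mul', star_sub, star_one,
    apply_ite star, star_zero, Matrix.one_apply]
  rw [if_congr (eq_comm (a := l) (b := k)) rfl rfl]
  ring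

lemma emb_apply_ne {i j : Fin n} (B : Matrix (Fin 2) (Fin 2) K) {k l : Fin n} (hki : k ≠ i)
    (hkj : k ≠ j) : emb i j B k l = (1 : Matrix (Fin n) (Fin n) K) k l := by
  rw [emb_eq]
  simp only [Matrix.add_apply, sng, hki, hkj, if_false]
  ring

lemma emb_apply_ne' {i j : Fin n} (B : Matrix (Fin 2) (Fin 2) K) {k l : Fin n} (hli : l ≠ i)
    (hlj : l ≠ j) : emb i j B k l = (1 : Matrix (Fin n) (Fin n) K) k l := by
  rw [emb_eq]
  simp only [Matrix.add_apply, sng, hli, hlj, if_false]
  ring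

lemma emb_00 {i j : Fin n} (hij : i ≠ j) (B : Matrix (Fin 2) (Fin 2) K) :
    emb i j B i i = B 0 0 := by
  rw [emb_eq]
  simp [hij, hij.symm]

lemma emb_01 {i j : Fin n} (hij : i ≠ j) (B : Matrix (Fin 2) (Fin 2) K) :
    emb i j B i j = B 0 1 := by
  rw [emb_eq]
  simp [hij, hij.symm]

lemma emb_10 {i j : Fin n} (hij : i ≠ j) (B : Matrix (Fin 2) (Fin 2) K) :
    emb i j B j i = B 1 0 := by
  rw [emb_eq]
  simp [hij, hij.symm]

lemma emb_11 {i j : Fin n} (hij : i ≠ j) (B : Matrix (Fin 2) (Fin 2) K) :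
    emb i j B j j = B 1 1 := by
  rw [emb_eq]
  simp [hij, hij.symm]

/-- a matrix which is the identity outside the coordinates `i, j` is `emb` of its block -/
lemma eq_emb {i j : Fin n} (hij : i ≠ j) (g : Matrix (Fin n) (Fin n) K)
    (h1 : ∀ k l, k ≠ i → k ≠ j → g k l = (1 : Matrix (Fin n) (Fin n) K) k l)
    (h2 : ∀ k l, l ≠ i → l ≠ j → g k l = (1 : Matrix (Fin n) (Fin n) K) k l) :
    g = emb i j !![g i i, g i j; g j i, g j j] := by
  ext k l
  by_cases hk : k ≠ i ∧ k ≠ j
  · rw [emb_apply_ne _ hk.1 hk.2, h1 k l hk.1 hk.2]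
  by_cases hl : l ≠ i ∧ l ≠ j
  · rw [emb_apply_ne' _ hl.1 hl.2, h2 k l hl.1 hl.2]
  have hk' : k = i ∨ k = j := by
    by_contra hcon
    push Not at hcon
    exact hk hcon
  have hl' : l = i ∨ l = j := by
    by_contra hcon
    push Not at hcon
    exact hl hcon
  rcases hk' with rfl | rfl <;> rcases hl' with rfl | rfl
  · rw [emb_00 hij]; rfl
  · rw [emb_01 hij]; rfl
  · rw [emb_10 hij]; rfl
  · rw [emb_11 hij]; rfl

lemma gm_eq [StarRing K] (i j : Fin n) (x y : K) :
    gm i j x y = emb i j !![x, y; -star y, star x] := by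
  rw [emb_eq, gm]
  ext k l
  simp only [Matrix.add_apply, Matrix.sub_apply, sng, of_apply, cons_val', cons_val_zero,
    cons_val_one, cons_val_fin_one]
  ring

end emb

end Vale.Agent.P240.R2.H727
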