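import Vale.Agent.P240.R2.H727.AutB1a
import Vale.Agent.P240.R2.H727.M4

/-!
Elements of order `r = char K` in `PGU_n(q)` and diagonal elements.
-/

set_option autoImplicit false

namespace Vale.Agent.P240.R2.H727

open Matrix Vale.Agent.P240.R2.AS Vale.Agent.P240.R2.H775.Aut

universe u

section

variable {K : Type u} [Field K] [StarRing K] {n : ℕ}

lemma GU_mul_val (g h : GU K n) : (g * h).1 = g.1 * h.1 := rfl

lemma GU_pow_val (g : GU K n) (m : ℕ) : (g ^ m).1 = g.1 ^ m := rfl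

lemma GU_inv_mul (g : GU K n) : (g⁻¹).1 * g.1 = 1 := by
  have h := congrArg Subtype.val (inv_mul_cancel g)
  exact h

lemma GU_star (g : GU K n) : g.1 * star g.1 = 1 := (Matrix.mem_unitaryGroup_iff).1 g.2

lemma GU_ne_zero (hn : 1 ≤ n) (g : GU K n) : g.1 ≠ 0 := by
  intro h
  have h1 := GU_star g
  rw [h, zero_mul] at h1
  have h2 := congrFun (congrFun h1 ⟨0, hn⟩) ⟨0, hn⟩
  simp at h2

lemma mem_SU {g : GU K n} : g ∈ SU K n ↔ g.1.det = 1 := Iff.rfl

lemma smul_mem_GU {l : K} (hl : l * star l = 1) (g : GU K n) :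
    l • g.1 ∈ Matrix.unitaryGroup (Fin n) K := by
  rw [Matrix.mem_unitaryGroup_iff, star_smul, smul_mul_smul_comm, hl, one_smul, GU_star]

lemma diag_mem {c : Fin n → K} (hc : ∀ k, c k * star (c k) = 1) :
    Matrix.diagonal c ∈ Matrix.unitaryGroup (Fin n) K := by
  rw [Matrix.mem_unitaryGroup_iff, Matrix.star_eq_conjTranspose, Matrix.diagonal_conjTranspose,
    Matrix.diagonal_mul_diagonal, ← Matrix.diagonal_one]
  congr 1
  funext k
  exact hc k

/-- the diagonal unitary matrix -/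
def dU (c : Fin n → K) (hc : ∀ k, c k * star (c k) = 1) : GU K n := ⟨Matrix.diagonal c, diag_mem hc⟩

lemma dg_eq (c : Fin n → K) (hc : ∀ k, c k * star (c k) = 1) :
    dg c = QuotientGroup.mk (dU c hc) := dif_pos (diag_mem hc)

end

section

variable {K : Type u} [Field K] [Fintype K] [StarRing K] {q n : ℕ}

lemma mk_eq_iff (hq : 2 ≤ q) (hF : Fld K q) (hn : 1 ≤ n) (g h : GU K n) :
    (QuotientGroup.mk g : PGU K n) = QuotientGroup.mk h ↔ ∃ c : K, h.1 = c • g.1 := by
  rw [QuotientGroup.eq, center_iff hq hF.card hF.star hn]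
  constructor
  · rintro ⟨c, hc⟩
    refine ⟨c, ?_⟩
    have h2 : h.1 = g.1 * (g⁻¹ * h).1 := by
      rw [← GU_mul_val, mul_inv_cancel_left]
    rw [h2]
    change g.1 * ((g⁻¹ * h : GU K n) : Matrix (Fin n) (Fin n) K) = _
    rw [hc, Matrix.mul_smul, mul_one]
  · rintro ⟨c, hc⟩
    refine ⟨c, ?_⟩
    change (g⁻¹).1 * h.1 = c • 1
    rw [hc, Matrix.mul_smul, GU_inv_mul]

omit [Fintype K] in
lemma norm_of_pow (hF : Fld K q) {p : ℕ} (hpq : p ∣ q + 1) {c : K} (hc : c ^ p = 1) :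
    c * star c = 1 := by
  rw [hF.star, ← pow_succ']
  obtain ⟨t, ht⟩ := hpq
  rw [ht, pow_mul, hc, one_pow]

lemma dg_mem_PSU (hq : 2 ≤ q) (hF : Fld K q) (hn : 1 ≤ n) {c : Fin n → K}
    (hc : ∀ k, c k * star (c k) = 1) {l : K} (hl : l * star l = 1)
    (hdet : l ^ n * ∏ k, c k = 1) : dg c ∈ PSU K n := by
  refine ⟨⟨l • (dU c hc).1, smul_mem_GU hl _⟩, ?_, ?_⟩
  · change (l • Matrix.diagonal c).det = 1
    rw [Matrix.det_smul, Matrix.det_diagonal, Fintype.card_fin, hdet]
  · rw [dg_eq c hc, QuotientGroup.mk'_apply, eq_comm, mk_eq_iff hq hF hn]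
    exact ⟨l, rfl⟩

lemma cast_q (hF : Fld K q) : (q : K) = 0 := by
  have h2 : ((Fintype.card K : ℕ) : K) = 0 := by simp
  rw [← Nat.card_eq_fintype_card, hF.card] at h2
  push_cast at h2
  exact pow_eq_zero_iff (two_ne_zero) |>.1 h2

lemma coprime_r (hF : Fld K q) {r : ℕ} [CharP K r] : Nat.Coprime r (q + 1) := by
  have h1 : r ∣ q := (CharP.cast_eq_zero_iff K r q).1 (cast_q hF)
  exact Nat.Coprime.coprime_dvd_left h1 (by simp)

/-- elements of order `r` lift to elements of order `r` -/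
lemma exists_lift (hq : 2 ≤ q) (hF : Fld K q) (hn : 1 ≤ n) {r : ℕ} [CharP K r] (x : PGU K n)
    (hx : x ^ r = 1) : ∃ g : GU K n, (QuotientGroup.mk g : PGU K n) = x ∧ g ^ r = 1 := by
  obtain ⟨g, rfl⟩ := QuotientGroup.mk_surjective x
  have h1 : g ^ r ∈ Subgroup.center (GU K n) := by
    rw [← QuotientGroup.eq_one_iff]
    exact hx
  obtain ⟨s, hs⟩ := (center_iff hq hF.card hF.star hn _).1 h1
  have hs' : g.1 ^ r = s • 1 := hs
  have hss : s * star s = 1 := by
    have h2 := GU_star (g ^ r)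
    rw [GU_pow_val, hs', star_smul, star_one, smul_mul_smul_comm, mul_one] at h2
    have h3 := congrFun (congrFun h2 ⟨0, hn⟩) ⟨0, hn⟩
    simpa using h3
  obtain ⟨m, -, hm⟩ := Nat.exists_mul_mod_eq_one_of_coprime (coprime_r (K := K) (r := r) hF) (by omega)
  have hm' : r * m = 1 + (q + 1) * (r * m / (q + 1)) := by
    have := Nat.mod_add_div (r * m) (q + 1)
    rw [hm] at this
    omega
  have hs1 : (star s) ^ (q + 1) = 1 := by
    have : s ^ (q + 1) = 1 := by rw [pow_succ', ← hF.star, hss]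
    rw [← star_pow, this, star_one]
  have hl : (star s) ^ m * star ((star s) ^ m) = 1 := by
    rw [star_pow, star_star, ← mul_pow, mul_comm, hss, one_pow]
  have hlr : ((star s) ^ m) ^ r = star s := by
    rw [← pow_mul, mul_comm m r, hm', pow_add, pow_one, pow_mul, hs1, one_pow, mul_one]
  refine ⟨⟨(star s) ^ m • g.1, smul_mem_GU hl g⟩, ?_, ?_⟩
  · rw [eq_comm, mk_eq_iff hq hF hn]
    exact ⟨_, rfl⟩
  · apply Subtype.ext
    change ((star s) ^ m • g.1) ^ r = 1
    rw [smul_pow, hlr, hs', smul_smul, mul_comm, hss, one_smul]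

omit [Fintype K] [StarRing K] in
lemma comm_pow_left {D g : Matrix (Fin n) (Fin n) K} {κ : K} (h : D * g = κ • (g * D)) (m : ℕ) :
    D ^ m * g = κ ^ m • (g * D ^ m) := by
  induction m with
  | zero => simp
  | succ m ih =>
    rw [pow_succ' D, mul_assoc, ih, Matrix.mul_smul, ← mul_assoc, h, Matrix.smul_mul, smul_smul,
      mul_assoc, ← pow_succ]

omit [Fintype K] [StarRing K] in
lemma comm_pow_right {D g : Matrix (Fin n) (Fin n) K} {κ : K} (h : D * g = κ • (g * D)) (m : ℕ) :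
    D * g ^ m = κ ^ m • (g ^ m * D) := by
  induction m with
  | zero => simp
  | succ m ih =>
    rw [pow_succ, ← mul_assoc, ih, Matrix.smul_mul, mul_assoc, h, Matrix.mul_smul, smul_smul,
      ← mul_assoc, ← pow_succ]

/-- a matrix of order `r` which commutes with a diagonal matrix of exponent `p` modulo scalars
commutes with it -/
lemma comm_exact (hq : 2 ≤ q) (hF : Fld K q) (hn : 1 ≤ n) {r : ℕ} [CharP K r] {p : ℕ}
    (hpq : p ∣ q + 1) (g : GU K n) (hg : g ^ r = 1) {c : Fin n → K} (hc : ∀ k, c k ^ p = 1)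
    (h : (QuotientGroup.mk g : PGU K n) * dg c = dg c * QuotientGroup.mk g) :
    g.1 * Matrix.diagonal c = Matrix.diagonal c * g.1 := by
  have hc' : ∀ k, c k * star (c k) = 1 := fun k => norm_of_pow hF hpq (hc k)
  rw [dg_eq c hc', ← QuotientGroup.mk_mul, ← QuotientGroup.mk_mul, mk_eq_iff hq hF hn] at h
  obtain ⟨κ, hκ⟩ := h
  have h1 : Matrix.diagonal c * g.1 = κ • (g.1 * Matrix.diagonal c) := hκ
  have hD : (Matrix.diagonal c) ^ p = 1 := by
    rw [Matrix.diagonal_pow, ← Matrix.diagonal_one]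
    congr 1
    funext k
    exact hc k
  have hκp : κ ^ p = 1 := by
    have h2 := comm_pow_left h1 p
    rw [hD, one_mul, mul_one] at h2
    have h3 : (κ ^ p - 1) • g.1 = 0 := by rw [sub_smul, one_smul, ← h2, sub_self]
    rcases smul_eq_zero.1 h3 with h4 | h4
    · exact sub_eq_zero.1 h4
    · exact absurd h4 (GU_ne_zero hn g)
  have hκr : κ ^ r = 1 := by
    have h2 := comm_pow_right h1 r
    have h5 : g.1 ^ r = 1 := congrArg Subtype.val hg
    rw [h5, one_mul, mul_one] at h2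
    have h3 : (κ ^ r - 1) • (dU c hc').1 = 0 := by
      change (κ ^ r - 1) • Matrix.diagonal c = 0
      rw [sub_smul, one_smul, ← h2, sub_self]
    rcases smul_eq_zero.1 h3 with h4 | h4
    · exact sub_eq_zero.1 h4
    · exact absurd h4 (GU_ne_zero hn _)
  have hcop : Nat.Coprime r p :=
    Nat.Coprime.coprime_dvd_right hpq (coprime_r (K := K) (r := r) hF)
  have hκ1 : κ = 1 := by
    have := pow_gcd_eq_one.2 ⟨hκr, hκp⟩
    rwa [hcop.gcd_eq_one, pow_one] at this
  rw [h1, hκ1, one_smul]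

omit [Fintype K] [StarRing K] in
lemma entry_zero {g : Matrix (Fin n) (Fin n) K} {c : Fin n → K}
    (h : g * Matrix.diagonal c = Matrix.diagonal c * g) {k l : Fin n} (hkl : c k ≠ c l) :
    g k l = 0 := by
  have h1 := congrFun (congrFun h k) l
  rw [Matrix.mul_diagonal, Matrix.diagonal_mul] at h1
  have h2 : (c k - c l) * g k l = 0 := by linear_combination -h1
  rcases mul_eq_zero.1 h2 with h3 | h3
  · exact absurd (sub_eq_zero.1 h3) hkl
  · exact h3

end

end Vale.Agent.P240.R2.H727
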