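import Vale.Agent.P240.R2.H727.EC
import Vale.Agent.P240.R2.H281.EL
import Vale.Agent.P240.R2.H829.EO

/-! `StmtEC` is a theorem. -/

set_option autoImplicit false

namespace Vale.Agent.P240.R2.H727.EC

universe u

/-- **EC**: the count of the even unitary line. -/
theorem stmtEC : H986.E.StmtEC.{u} := stmtEC_of H281EL.stmtEL H829.EO.stmtEO

end Vale.Agent.P240.R2.H727.EC
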