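import Vale.Agent.P240.H195.BNSplit

/-!
Criteria for BN-pairs from root groups, and passage to the generated subgroup.
-/

set_option autoImplicit false
set_option linter.all false

namespace Vale.Agent.P240.R2.H727.O

open Subgroup Vale.Agent.P240.H195

section
variable {L : Type*} [Group L]

/-- **The criterion.** `X s ≤ U` is the root group of `s ∈ S`. -/
theorem bn0_of_root {B N U : Subgroup L} {S : Set L} (X : L → Subgroup L)
    (norm : ∀ n ∈ N, ∀ t ∈ B, t ∈ N → n * t * n⁻¹ ∈ B)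
    (sub : ∀ s ∈ S, s ∈ N)
    (span : N = closure S ⊔ (B ⊓ N))
    (sq : ∀ s ∈ S, s * s ∈ B)
    (leU : U ≤ B)
    (split : ∀ b ∈ B, ∃ u ∈ U, ∃ t ∈ B, t ∈ N ∧ b = u * t)
    (dec : ∀ s ∈ S, ∀ u ∈ U, ∃ v ∈ U, ∃ x ∈ X s, s * v * s⁻¹ ∈ U ∧ u = v * x)
    (one : ∀ s ∈ S, ∀ x ∈ X s, x ≠ 1 → ∃ b ∈ B, ∃ z ∈ X s, s * x = b * (s * z * s⁻¹))
    (pos : ∀ n ∈ N, ∀ s ∈ S, (∀ x ∈ X s, n⁻¹ * x * n ∈ U) ∨
      (∀ x ∈ X s, n⁻¹ * (s * x * s⁻¹) * n ∈ U))
    (thick : ∀ s ∈ S, ∃ b ∈ B, s⁻¹ * b * s ∉ B) : BN0 B N S where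
  norm := norm
  sub := sub
  span := span
  sq := sq
  thick := thick
  mul := by
    intro s hs b hb n hn
    obtain ⟨u, hu, t, ht, htN, rfl⟩ := split b hb
    obtain ⟨v, hv, x, hx, hsv, rfl⟩ := dec s hs u hu
    have htn : n⁻¹ * t * n ∈ B := by
      have := norm n⁻¹ (inv_mem hn) t ht htN
      rwa [inv_inv] at this
    have e : s * (v * x * t) * n = (s * v * s⁻¹) * (s * x * n) * (n⁻¹ * t * n) := by group
    rw [e]
    have key : DC B n (s * x * n) ∨ DC B (s * n) (s * x * n) := by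
      rcases pos n hn s hs with h | h
      · right
        exact ⟨1, one_mem _, n⁻¹ * x * n, leU (h x hx), by group⟩
      · by_cases h1 : x = 1
        · right
          rw [h1, mul_one]
          exact DC.refl _
        · left
          obtain ⟨b, hb, z, hz, hbz⟩ := one s hs x hx h1
          refine ⟨b, hb, n⁻¹ * (s * z * s⁻¹) * n, leU (h z hz), ?_⟩
          rw [hbz]
          group
    rcases key with h | h
    · exact Or.inl ((h.left (leU hsv)).right htn)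
    · exact Or.inr ((h.left (leU hsv)).right htn)

/-- Passage to a subgroup containing `B` and `N`. -/
theorem BN0.subgroupOf {B N : Subgroup L} {S : Set L} (h : BN0 B N S) {E : Subgroup L}
    (hE : B ⊔ N ≤ E) : BN0 (B.subgroupOf E) (N.subgroupOf E) {s : E | (s : L) ∈ S} where
  norm := fun n hn t ht htN => h.norm n.1 hn t.1 ht htN
  sub := fun s hs => h.sub s.1 hs
  span := by
    have hN : N ≤ E := le_sup_right.trans hE
    have hS : S ⊆ (E : Set L) := fun s hs => hN (h.sub s hs)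
    apply le_antisymm
    · rintro ⟨x, hx⟩ (hxN : x ∈ N)
      have h1 : N ≤ ((closure {s : E | (s : L) ∈ S} ⊔ (B.subgroupOf E ⊓ N.subgroupOf E)).map
          E.subtype) := by
        refine (le_of_eq h.span).trans (sup_le ?_ ?_)
        · rw [closure_le]
          intro s hs
          refine ⟨⟨s, hS hs⟩, ?_, rfl⟩
          exact (le_sup_left : _ ≤ closure {s : E | (s : L) ∈ S} ⊔ _) (subset_closure hs)
        · rintro t ⟨ht, htN⟩
          refine ⟨⟨t, hN htN⟩, ?_, rfl⟩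
          exact (le_sup_right : _ ≤ _ ⊔ (B.subgroupOf E ⊓ N.subgroupOf E)) ⟨ht, htN⟩
      obtain ⟨y, hy, hyx⟩ := h1 hxN
      have : y = ⟨x, hx⟩ := Subtype.ext hyx
      rwa [this] at hy
    · refine sup_le ?_ inf_le_right
      rw [closure_le]
      exact fun s hs => h.sub s.1 hs
  sq := fun s hs => h.sq s.1 hs
  mul := by
    intro s hs b hb n hn
    have hB : B ≤ E := le_sup_left.trans hE
    rcases h.mul s.1 hs b.1 hb n.1 hn with ⟨a, ha, c, hc, e⟩ | ⟨a, ha, c, hc, e⟩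
    · exact Or.inl ⟨⟨a, hB ha⟩, ha, ⟨c, hB hc⟩, hc, Subtype.ext e⟩
    · exact Or.inr ⟨⟨a, hB ha⟩, ha, ⟨c, hB hc⟩, hc, Subtype.ext e⟩
  thick := by
    intro s hs
    have hB : B ≤ E := le_sup_left.trans hE
    obtain ⟨b, hb, h1⟩ := h.thick s.1 hs
    exact ⟨⟨b, hB hb⟩, hb, h1⟩

/-- Passage to the subgroup generated by `B` and `N`. -/
theorem BN0.bn {B N : Subgroup L} {S : Set L} (h : BN0 B N S) :
    BN (B.subgroupOf (B ⊔ N)) (N.subgroupOf (B ⊔ N)) {s : ↥(B ⊔ N) | (s : L) ∈ S} where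
  toBN0 := BN0.subgroupOf h le_rfl
  gen := by
    have h1 : (B.subgroupOf (B ⊔ N) ⊔ N.subgroupOf (B ⊔ N)).map (B ⊔ N).subtype = B ⊔ N := by
      rw [Subgroup.map_sup, subgroupOf_map_subtype, subgroupOf_map_subtype,
        inf_eq_left.2 le_sup_left, inf_eq_left.2 le_sup_right]
    refine Subgroup.map_injective (B ⊔ N).subtype_injective ?_
    rw [h1, ← MonoidHom.range_eq_map, Subgroup.range_subtype]

/-- **The split BN-pair of the subgroup generated by `B` and `N`.** -/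
theorem sb_gen {r : ℕ} {B N U : Subgroup L} {S : Set L} (h : BN0 B N S) (le : U ≤ B)
    (pgroup : IsPGroup r U)
    (normal : ∀ b ∈ B, ∀ u ∈ U, b * u * b⁻¹ ∈ U)
    (split : ∀ b ∈ B, ∃ u ∈ U, ∃ t ∈ B, t ∈ N ∧ b = u * t)
    (coprime : ¬ r ∣ Nat.card (B ⊓ N : Subgroup L))
    (strong : ∀ s ∈ S, ∀ x ∈ U, s * x * s⁻¹ ∈ U → ∀ u ∈ U, s * (u * x * u⁻¹) * s⁻¹ ∈ U)
    (opp : ∃ n ∈ N, ∀ x ∈ U, n * x * n⁻¹ ∈ U → x = 1)
    (nonempty : S.Nonempty) :
    SB r (B.subgroupOf (B ⊔ N)) (N.subgroupOf (B ⊔ N)) (U.subgroupOf (B ⊔ N))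
      {s : ↥(B ⊔ N) | (s : L) ∈ S} where
  toBN := BN0.bn h
  le := fun x hx => le hx
  pgroup := by
    rintro ⟨⟨x, hx⟩, (hxU : x ∈ U)⟩
    obtain ⟨k, hk⟩ := pgroup ⟨x, hxU⟩
    refine ⟨k, Subtype.ext (Subtype.ext ?_)⟩
    have := congrArg Subtype.val hk
    simpa using this
  normal := fun b hb u hu => normal b.1 hb u.1 hu
  split := by
    intro b hb
    obtain ⟨u, hu, t, ht, htN, e⟩ := split b.1 hb
    exact ⟨⟨u, (le_sup_left : B ≤ B ⊔ N) (le hu)⟩, hu, ⟨t, (le_sup_left : B ≤ B ⊔ N) ht⟩, ht, htN,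
      Subtype.ext e⟩
  coprime := by
    have e : Nat.card (B.subgroupOf (B ⊔ N) ⊓ N.subgroupOf (B ⊔ N) : Subgroup ↥(B ⊔ N)) =
        Nat.card (B ⊓ N : Subgroup L) := by
      refine Nat.card_congr ⟨fun x => ⟨x.1.1, x.2⟩, fun x =>
        ⟨⟨x.1, (le_sup_left : B ≤ B ⊔ N) x.2.1⟩, x.2⟩, fun x => rfl, fun x => rfl⟩
    rw [e]
    exact coprime
  strong := fun s hs x hx hxs u hu => strong s.1 hs x.1 hx hxs u.1 hu
  opp := by
    obtain ⟨n, hn, hn'⟩ := opp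
    exact ⟨⟨n, (le_sup_right : N ≤ B ⊔ N) hn⟩, hn, fun x hx hx' => Subtype.ext (hn' x.1 hx hx')⟩
  nonempty := by
    obtain ⟨s, hs⟩ := nonempty
    exact ⟨⟨s, (le_sup_right : N ≤ B ⊔ N) (h.sub s hs)⟩, hs⟩

end

end Vale.Agent.P240.R2.H727.O
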