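import Vale.Agent.P240.R2.H487.CG.A3
import Vale.Agent.P240.R2.H727.O1

/-!
Orthogonal groups of minus type in the coordinates of the quadratic extension: definitions and
root elements.
-/

set_option autoImplicit false
set_option linter.all false

namespace Vale.Agent.P240.R2.H727.O

open Subgroup Matrix Vale.Agent.P240.H195 Vale.Agent.P240.R2.H487.CG

section
variable {K : Type*} [Field K] {r : ℕ}

/-- The quadratic form `x_0 x_(2r+1) + x_1 x_(2r) + … + x_r x_(r+1)`. -/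
def Qd (v : Fin (2 * r + 1 + 1) → K) : K := ∑ i with i < Fin.rev i, v i * v (Fin.rev i)

/-- its polar form -/
def Bd (u v : Fin (2 * r + 1 + 1) → K) : K := ∑ i, u i * v (Fin.rev i)

/-- the middle coordinates -/
def ma (r : ℕ) : Fin (2 * r + 1 + 1) := ⟨r, by omega⟩

/-- the middle coordinates -/
def mb (r : ℕ) : Fin (2 * r + 1 + 1) := ⟨r + 1, by omega⟩

/-- The transposition of the two middle coordinates. -/
def PP (r : ℕ) : Equiv.Perm (Fin (2 * r + 1 + 1)) := Equiv.swap (ma r) (mb r)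

lemma ma_val : (ma r).val = r := rfl
lemma mb_val : (mb r).val = r + 1 := rfl

lemma rv_val (i : Fin (2 * r + 1 + 1)) : (Fin.rev i).val = 2 * r + 1 - i.val := by
  rw [Fin.val_rev]; omega

lemma rev_ma : Fin.rev (ma r) = mb r := by
  rw [Fin.ext_iff, rv_val, ma_val, mb_val]; omega

lemma rev_mb : Fin.rev (mb r) = ma r := by
  rw [← rev_ma, Fin.rev_rev]

lemma rev_ne_self (i : Fin (2 * r + 1 + 1)) : Fin.rev i ≠ i := by
  rw [Ne, Fin.ext_iff, rv_val]; have := i.2; omega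

lemma mab : ma r ≠ mb r := by
  rw [Ne, Fin.ext_iff, ma_val, mb_val]; omega

lemma PP_ma : PP r (ma r) = mb r := Equiv.swap_apply_left _ _
lemma PP_mb : PP r (mb r) = ma r := Equiv.swap_apply_right _ _
lemma PP_ne {i : Fin (2 * r + 1 + 1)} (h1 : i ≠ ma r) (h2 : i ≠ mb r) : PP r i = i :=
  Equiv.swap_apply_of_ne_of_ne h1 h2
lemma PP_PP (i : Fin (2 * r + 1 + 1)) : PP r (PP r i) = i := Equiv.swap_apply_self _ _ _

lemma PP_eq_ma {i : Fin (2 * r + 1 + 1)} : PP r i = ma r ↔ i = mb r := by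
  constructor
  · intro h; rw [← PP_PP i, h, PP_ma]
  · rintro rfl; exact PP_mb

lemma PP_eq_mb {i : Fin (2 * r + 1 + 1)} : PP r i = mb r ↔ i = ma r := by
  constructor
  · intro h; rw [← PP_PP i, h, PP_mb]
  · rintro rfl; exact PP_ma

lemma PP_eq {i a : Fin (2 * r + 1 + 1)} (h1 : a ≠ ma r) (h2 : a ≠ mb r) : PP r i = a ↔ i = a := by
  constructor
  · intro h3
    rw [← PP_PP i, h3, PP_ne h1 h2]
  · rintro rfl
    exact PP_ne h1 h2

lemma Qd_add (u v : Fin (2 * r + 1 + 1) → K) : Qd (u + v) = Qd u + Qd v + Bd u v := by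
  have h1 : Bd u v = (∑ i with i < Fin.rev i, u i * v (Fin.rev i)) +
      ∑ i with i < Fin.rev i, v i * u (Fin.rev i) := by
    rw [Bd, ← Finset.sum_filter_add_sum_filter_not Finset.univ
      (fun i : Fin (2 * r + 1 + 1) => i < Fin.rev i)]
    congr 1
    refine Finset.sum_bij' (fun i _ => Fin.rev i) (fun i _ => Fin.rev i) ?_ ?_ ?_ ?_ ?_
    · intro i hi
      rw [Finset.mem_filter] at hi ⊢
      refine ⟨Finset.mem_univ _, ?_⟩
      rw [Fin.rev_rev]
      exact lt_of_le_of_ne (not_lt.1 hi.2) (rev_ne_self i)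
    · intro i hi
      rw [Finset.mem_filter] at hi ⊢
      refine ⟨Finset.mem_univ _, ?_⟩
      rw [Fin.rev_rev]
      exact not_lt.2 hi.2.le
    · intro i _; exact Fin.rev_rev i
    · intro i _; exact Fin.rev_rev i
    · intro i _
      rw [Fin.rev_rev, mul_comm]
  rw [h1, Qd, Qd, Qd, ← Finset.sum_add_distrib, ← Finset.sum_add_distrib, ← Finset.sum_add_distrib]
  refine Finset.sum_congr rfl fun i _ => ?_
  rw [Pi.add_apply, Pi.add_apply]
  ring

/-- adding a multiple of a basis vector -/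
def ad (v : Fin (2 * r + 1 + 1) → K) (a : Fin (2 * r + 1 + 1)) (t : K) :
    Fin (2 * r + 1 + 1) → K := fun i => v i + if i = a then t else 0

lemma ad_apply (v : Fin (2 * r + 1 + 1) → K) (a : Fin (2 * r + 1 + 1)) (t : K) (i) :
    ad v a t i = v i + if i = a then t else 0 := rfl

lemma ad_ne (v : Fin (2 * r + 1 + 1) → K) {a : Fin (2 * r + 1 + 1)} (t : K) {i} (h : i ≠ a) :
    ad v a t i = v i := by rw [ad_apply, if_neg h, add_zero]

lemma Qd_single (a : Fin (2 * r + 1 + 1)) (t : K) :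
    Qd (fun i => if i = a then t else 0 : Fin (2 * r + 1 + 1) → K) = 0 := by
  refine Finset.sum_eq_zero fun i _ => ?_
  change (if i = a then t else 0) * (if Fin.rev i = a then t else 0) = 0
  by_cases h : i = a
  · have : Fin.rev i ≠ a := by rw [← h]; exact rev_ne_self i
    rw [if_neg this, mul_zero]
  · rw [if_neg h, zero_mul]

lemma Bd_single (v : Fin (2 * r + 1 + 1) → K) (a : Fin (2 * r + 1 + 1)) (t : K) :
    Bd v (fun i => if i = a then t else 0) = t * v (Fin.rev a) := by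
  rw [Bd, Finset.sum_eq_single (Fin.rev a)]
  · rw [Fin.rev_rev, if_pos rfl, mul_comm]
  · intro i _ hi
    rw [if_neg, mul_zero]
    intro h
    apply hi
    rw [← h, Fin.rev_rev]
  · intro h
    exact absurd (Finset.mem_univ _) h

lemma Qd_ad (v : Fin (2 * r + 1 + 1) → K) (a : Fin (2 * r + 1 + 1)) (t : K) :
    Qd (ad v a t) = Qd v + t * v (Fin.rev a) := by
  have h : ad v a t = v + (fun i => if i = a then t else 0) := rfl
  rw [h, Qd_add, Qd_single, Bd_single, add_zero]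

lemma tx_vec {a b : Fin (2 * r + 1 + 1)} (h : a ≠ b) (c : K) (v : Fin (2 * r + 1 + 1) → K) :
    (tx h c).1 *ᵥ v = ad v a (c * v b) := by
  ext i
  rw [ad_apply, Matrix.mulVec, dotProduct]
  simp only [tx_apply, add_mul, ite_mul, one_mul, zero_mul, Finset.sum_add_distrib]
  congr 1
  · rw [Finset.sum_ite_eq Finset.univ i, if_pos (Finset.mem_univ i)]
  · by_cases hi : i = a
    · simp only [hi, true_and, if_true]
      rw [Finset.sum_ite_eq' Finset.univ b (fun k => c * v k), if_pos (Finset.mem_univ b)]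
    · simp [hi]

/-- preserving the form -/
def Iso (A : SLm (2 * r + 1) K) : Prop := ∀ v : Fin (2 * r + 1 + 1) → K, Qd (A.1 *ᵥ v) = Qd v

/-- commuting with the semilinear map `x ↦ P σ(x)` -/
def Sem (σ : K ≃+* K) (A : SLm (2 * r + 1) K) : Prop :=
  ∀ i j, A.1 (PP r i) (PP r j) = σ (A.1 i j)

lemma Iso.mul {A B : SLm (2 * r + 1) K} (hA : Iso A) (hB : Iso B) : Iso (A * B) := by
  intro v
  rw [SpecialLinearGroup.coe_mul, ← Matrix.mulVec_mulVec, hA, hB]

lemma Iso.one : Iso (1 : SLm (2 * r + 1) K) := by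
  intro v
  rw [SpecialLinearGroup.coe_one, Matrix.one_mulVec]

lemma Sem.one (σ : K ≃+* K) : Sem σ (1 : SLm (2 * r + 1) K) := by
  intro i j
  rw [sl_one, sl_one]
  by_cases h : i = j
  · rw [if_pos h, if_pos (by rw [h]), map_one]
  · rw [if_neg h, if_neg (fun h1 => h ((PP r).injective h1)), map_zero]

lemma Sem.mul {σ : K ≃+* K} {A B : SLm (2 * r + 1) K} (hA : Sem σ A) (hB : Sem σ B) :
    Sem σ (A * B) := by
  intro i j
  rw [sl_mul, sl_mul, map_sum, ← Equiv.sum_comp (PP r)]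
  refine Finset.sum_congr rfl fun k _ => ?_
  rw [hA, hB, map_mul]

lemma Iso.bd {A : SLm (2 * r + 1) K} (hA : Iso A) (u v : Fin (2 * r + 1 + 1) → K) :
    Bd (A.1 *ᵥ u) (A.1 *ᵥ v) = Bd u v := by
  have h1 := hA (u + v)
  rw [Matrix.mulVec_add, Qd_add, Qd_add, hA, hA] at h1
  exact add_left_cancel h1

lemma col_eq (A : SLm (2 * r + 1) K) (j : Fin (2 * r + 1 + 1)) :
    A.1 *ᵥ (fun i => if i = j then 1 else 0) = fun i => A.1 i j := by
  ext i
  rw [Matrix.mulVec, dotProduct]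
  simp

/-- orthogonality relations -/
lemma Iso.col {A : SLm (2 * r + 1) K} (hA : Iso A) (i j : Fin (2 * r + 1 + 1)) :
    ∑ k, A.1 k i * A.1 (Fin.rev k) j = if i = Fin.rev j then 1 else 0 := by
  have h1 := hA.bd (fun k => if k = i then 1 else 0) (fun k => if k = j then 1 else 0)
  rw [col_eq, col_eq, Bd_single, one_mul] at h1
  rw [Bd] at h1
  rw [h1]
  by_cases h : i = Fin.rev j
  · rw [if_pos h, if_pos h.symm]
  · rw [if_neg h, if_neg (Ne.symm h)]

/-- columns are singular -/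
lemma Iso.qcol {A : SLm (2 * r + 1) K} (hA : Iso A) (j : Fin (2 * r + 1 + 1)) :
    ∑ k with k < Fin.rev k, A.1 k j * A.1 (Fin.rev k) j = 0 := by
  have h1 := hA (fun i => if i = j then 1 else 0)
  rw [col_eq, Qd_single] at h1
  exact h1

lemma Iso.inv_apply {A : SLm (2 * r + 1) K} (hA : Iso A) (i j : Fin (2 * r + 1 + 1)) :
    (A⁻¹).1 i j = A.1 (Fin.rev j) (Fin.rev i) := by
  have h1 : (Matrix.of fun i j => A.1 (Fin.rev j) (Fin.rev i)) * A.1 = 1 := by
    ext i j
    rw [Matrix.mul_apply, Matrix.one_apply, ← Equiv.sum_comp Fin.revPerm]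
    have h2 := hA.col (Fin.rev i) j
    simp only [Matrix.of_apply, Fin.revPerm_apply, Fin.rev_rev]
    rw [h2]
    by_cases h : i = j
    · rw [if_pos h, if_pos (by rw [h])]
    · rw [if_neg h, if_neg (fun h3 => h (Fin.rev_injective h3))]
  have h2 : (A⁻¹).1 = Matrix.of fun i j => A.1 (Fin.rev j) (Fin.rev i) := by
    have h3 : A.1 * (A⁻¹).1 = 1 := by
      rw [← SpecialLinearGroup.coe_mul, mul_inv_cancel, SpecialLinearGroup.coe_one]
    calc (A⁻¹).1 = ((Matrix.of fun i j => A.1 (Fin.rev j) (Fin.rev i)) * A.1) * (A⁻¹).1 := by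
          rw [h1, Matrix.one_mul]
      _ = _ := by rw [Matrix.mul_assoc, h3, Matrix.mul_one]
  rw [h2, Matrix.of_apply]

/-! ### root elements -/

/-- conditions on the indices of a long root -/
structure Lg (a b : Fin (2 * r + 1 + 1)) : Prop where
  ne : a ≠ b
  ne' : b ≠ Fin.rev a
  a1 : a ≠ ma r
  a2 : a ≠ mb r
  b1 : b ≠ ma r
  b2 : b ≠ mb r

lemma rev_eq_ma {a : Fin (2 * r + 1 + 1)} : Fin.rev a = ma r ↔ a = mb r := by
  constructor
  · intro h; rw [← rev_ma, ← h, Fin.rev_rev]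
  · rintro rfl; exact rev_mb

lemma rev_eq_mb {a : Fin (2 * r + 1 + 1)} : Fin.rev a = mb r ↔ a = ma r := by
  constructor
  · intro h; rw [← rev_mb, ← h, Fin.rev_rev]
  · rintro rfl; exact rev_ma

lemma Lg.symm {a b : Fin (2 * r + 1 + 1)} (h : Lg a b) : Lg b a :=
  ⟨h.ne.symm, fun h1 => h.ne' (by rw [h1, Fin.rev_rev]), h.b1, h.b2, h.a1, h.a2⟩

lemma Lg.rev {a b : Fin (2 * r + 1 + 1)} (h : Lg a b) : Lg (Fin.rev b) (Fin.rev a) :=
  ⟨fun h1 => h.ne (Fin.rev_injective h1).symm, fun h1 => h.ne' (by rw [Fin.rev_rev] at h1; exact h1.symm),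
    fun h1 => h.b2 (rev_eq_ma.1 h1), fun h1 => h.b1 (rev_eq_mb.1 h1),
    fun h1 => h.a2 (rev_eq_ma.1 h1), fun h1 => h.a1 (rev_eq_mb.1 h1)⟩

/-- long root elements -/
def xe {a b : Fin (2 * r + 1 + 1)} (h : Lg a b) (c : K) : SLm (2 * r + 1) K :=
  tx h.ne c * tx h.rev.ne (-c)

lemma xe_vec {a b : Fin (2 * r + 1 + 1)} (h : Lg a b) (c : K) (v : Fin (2 * r + 1 + 1) → K) :
    (xe h c).1 *ᵥ v = ad (ad v (Fin.rev b) (-c * v (Fin.rev a))) a (c * v b) := by
  rw [xe, SpecialLinearGroup.coe_mul, ← Matrix.mulVec_mulVec, tx_vec, tx_vec,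
    ad_ne _ _ (rev_ne_self b).symm]

lemma xe_iso {a b : Fin (2 * r + 1 + 1)} (h : Lg a b) (c : K) : Iso (xe h c) := by
  intro v
  rw [xe_vec, Qd_ad, Qd_ad, ad_ne _ _ (fun h1 => h.ne (Fin.rev_injective h1)), Fin.rev_rev]
  ring

lemma xe_apply {a b : Fin (2 * r + 1 + 1)} (h : Lg a b) (c : K) (i j) :
    (xe h c).1 i j = (if i = j then 1 else 0) + (if i = a ∧ j = b then c else 0) +
      (if i = Fin.rev b ∧ j = Fin.rev a then -c else 0) := by
  rw [xe, tx_mul_apply, tx_apply, tx_apply]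
  have h1 : ¬ (b = Fin.rev b ∧ j = Fin.rev a) := fun h2 => rev_ne_self b h2.1.symm
  rw [if_neg h1, add_zero]
  have e : (if i = a then c * (if b = j then (1 : K) else 0) else 0) =
      if i = a ∧ j = b then c else 0 := by
    by_cases hi : i = a <;> by_cases hj : j = b <;> simp [hi, hj, eq_comm]
    · intro h2; exact absurd h2.symm hj
  rw [e]
  ring

lemma xe_sem {σ : K ≃+* K} {a b : Fin (2 * r + 1 + 1)} (h : Lg a b) {c : K} (hc : σ c = c) :
    Sem σ (xe h c) := by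
  intro i j
  simp only [xe_apply, PP_eq h.a1 h.a2, PP_eq h.b1 h.b2, PP_eq h.rev.a1 h.rev.a2,
    PP_eq h.rev.b1 h.rev.b2, (PP r).injective.eq_iff, map_add]
  congr 1
  · congr 1
    · split_ifs
      · rw [map_one]
      · rw [map_zero]
    · split_ifs
      · rw [hc]
      · rw [map_zero]
  · split_ifs
    · rw [map_neg, hc]
    · rw [map_zero]

/-- conditions on the index of a short root -/
structure Sh (p : Fin (2 * r + 1 + 1)) : Prop where
  a : p ≠ ma r
  b : p ≠ mb r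

lemma Sh.rev {p : Fin (2 * r + 1 + 1)} (h : Sh p) : Sh (Fin.rev p) :=
  ⟨fun h1 => h.b (rev_eq_ma.1 h1), fun h1 => h.a (rev_eq_mb.1 h1)⟩

/-- short root elements -/
def ye (σ : K ≃+* K) {p : Fin (2 * r + 1 + 1)} (h : Sh p) (a : K) : SLm (2 * r + 1) K :=
  tx h.a a * (tx h.b (σ a) * (tx (rev_ne_self p).symm (a * σ a) * (tx h.rev.b.symm (-a) *
    tx h.rev.a.symm (-σ a))))

lemma ye_vec (σ : K ≃+* K) {p : Fin (2 * r + 1 + 1)} (h : Sh p) (a : K)
    (v : Fin (2 * r + 1 + 1) → K) :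
    (ye σ h a).1 *ᵥ v = ad (ad (ad v (ma r) (-σ a * v (Fin.rev p))) (mb r) (-a * v (Fin.rev p))) p
      (a * v (ma r) + σ a * v (mb r) - a * σ a * v (Fin.rev p)) := by
  have h1 : ∀ (u : Fin (2 * r + 1 + 1) → K) (s t : K), ad (ad u p s) p t = ad u p (t + s) := by
    intro u s t
    ext i
    rw [ad_apply, ad_apply, ad_apply]
    split_ifs <;> ring
  rw [ye, SpecialLinearGroup.coe_mul, SpecialLinearGroup.coe_mul, SpecialLinearGroup.coe_mul,
    SpecialLinearGroup.coe_mul, ← Matrix.mulVec_mulVec, ← Matrix.mulVec_mulVec,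
    ← Matrix.mulVec_mulVec, ← Matrix.mulVec_mulVec, tx_vec, tx_vec, tx_vec, tx_vec, tx_vec]
  have e1 : Fin.rev p ≠ ma r := h.rev.a
  have e2 : Fin.rev p ≠ mb r := h.rev.b
  have e3 : mb r ≠ ma r := mab.symm
  simp only [h1, ad_apply, e1, e2, e3, e3.symm, h.a.symm, h.b.symm, if_true, if_false, add_zero]
  congr 1
  ring

lemma ye_iso (σ : K ≃+* K) {p : Fin (2 * r + 1 + 1)} (h : Sh p) (a : K) : Iso (ye σ h a) := by
  intro v
  rw [ye_vec, Qd_ad, Qd_ad, Qd_ad]
  have e1 : Fin.rev p ≠ ma r := h.rev.a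
  have e2 : Fin.rev p ≠ mb r := h.rev.b
  have e3 : mb r ≠ ma r := mab.symm
  simp only [rev_ma, rev_mb, ad_apply, e1, e2, e3, e3.symm, if_true, if_false, add_zero]
  ring

lemma ye_apply (σ : K ≃+* K) {p : Fin (2 * r + 1 + 1)} (h : Sh p) (a : K) (i j) :
    (ye σ h a).1 i j = (if i = j then 1 else 0) +
      (if i = ma r ∧ j = Fin.rev p then -σ a else 0) +
      (if i = mb r ∧ j = Fin.rev p then -a else 0) +
      (if i = p then (if j = ma r then a else 0) + (if j = mb r then σ a else 0) -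
        (if j = Fin.rev p then a * σ a else 0) else 0) := by
  have h1 := congrFun (ye_vec σ h a (fun i => if i = j then 1 else 0)) i
  rw [col_eq] at h1
  have h2 : (ye σ h a).1 i j = (fun i => (ye σ h a).1 i j) i := rfl
  rw [h2, h1]
  simp only [ad_apply]
  have e : ∀ (x : Fin (2 * r + 1 + 1)), (x = j) = (j = x) := fun x => propext eq_comm
  simp only [e]
  congr 1
  · congr 1
    · congr 1
      by_cases h3 : i = ma r <;> by_cases h4 : j = Fin.rev p <;> simp [h3, h4]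
    · by_cases h3 : i = mb r <;> by_cases h4 : j = Fin.rev p <;> simp [h3, h4]
  · by_cases h3 : i = p
    · rw [if_pos h3, if_pos h3]
      congr 1
      · congr 1
        · rw [mul_ite, mul_one, mul_zero]
        · rw [mul_ite, mul_one, mul_zero]
      · rw [mul_ite, mul_one, mul_zero]
    · rw [if_neg h3, if_neg h3]

lemma ye_sem {σ : K ≃+* K} (hσ : ∀ x, σ (σ x) = x) {p : Fin (2 * r + 1 + 1)} (h : Sh p) (a : K) :
    Sem σ (ye σ h a) := by
  intro i j
  have e3 : mb r ≠ ma r := mab.symm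
  simp only [ye_apply, PP_eq_ma, PP_eq_mb, PP_eq h.a h.b,
    PP_eq h.rev.a h.rev.b, (PP r).injective.eq_iff, map_add, map_sub, apply_ite σ, map_neg, hσ,
    map_zero, map_one, map_mul]
  split_ifs <;> ring

end

end Vale.Agent.P240.R2.H727.O
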