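import Vale.Agent.P240.R2.H727.O2

/-!
Orthogonal groups of minus type: the permutations.
-/

set_option autoImplicit false
set_option linter.all false

namespace Vale.Agent.P240.R2.H727.O

open Subgroup Matrix Vale.Agent.P240.H195 Vale.Agent.P240.R2.H487.CG

section
variable {r : ℕ}

/-- the admissible permutations -/
structure Gp (w : Equiv.Perm (Fin (2 * r + 1 + 1))) : Prop where
  rev : ∀ x, w (Fin.rev x) = Fin.rev (w x)
  pp : ∀ x, w (PP r x) = PP r (w x)
  sg : Equiv.Perm.sign w = 1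

lemma Gp.one : Gp (1 : Equiv.Perm (Fin (2 * r + 1 + 1))) :=
  ⟨fun _ => rfl, fun _ => rfl, Equiv.Perm.sign_one⟩

lemma Gp.mul {w v : Equiv.Perm (Fin (2 * r + 1 + 1))} (hw : Gp w) (hv : Gp v) : Gp (w * v) :=
  ⟨fun x => by rw [Equiv.Perm.mul_apply, Equiv.Perm.mul_apply, hv.rev, hw.rev],
    fun x => by rw [Equiv.Perm.mul_apply, Equiv.Perm.mul_apply, hv.pp, hw.pp],
    by rw [Equiv.Perm.sign_mul, hw.sg, hv.sg, one_mul]⟩

lemma Gp.inv {w : Equiv.Perm (Fin (2 * r + 1 + 1))} (hw : Gp w) : Gp w⁻¹ := by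
  have h1 : ∀ y, w (w⁻¹ y) = y := fun y => Equiv.apply_symm_apply w y
  refine ⟨fun x => w.injective ?_, fun x => w.injective ?_, ?_⟩
  · rw [h1, hw.rev, h1]
  · rw [h1, hw.pp, h1]
  · rw [Equiv.Perm.sign_inv, hw.sg]

lemma Gp.mid {w : Equiv.Perm (Fin (2 * r + 1 + 1))} (hw : Gp w) :
    (w (ma r) = ma r ∧ w (mb r) = mb r) ∨ (w (ma r) = mb r ∧ w (mb r) = ma r) := by
  have h1 := hw.pp (ma r)
  rw [PP_ma] at h1
  by_cases h2 : w (ma r) = ma r
  · left
    rw [h2, PP_ma] at h1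
    exact ⟨h2, h1⟩
  · by_cases h3 : w (ma r) = mb r
    · right
      rw [h3, PP_mb] at h1
      exact ⟨h3, h1⟩
    · rw [PP_ne h2 h3] at h1
      exact absurd (w.injective h1).symm mab

lemma Gp.sh {w : Equiv.Perm (Fin (2 * r + 1 + 1))} (hw : Gp w) {p : Fin (2 * r + 1 + 1)}
    (h : Sh p) : Sh (w p) := by
  rcases hw.mid with ⟨h1, h2⟩ | ⟨h1, h2⟩
  · refine ⟨fun h3 => h.a (w.injective (h3.trans h1.symm)), fun h3 => h.b (w.injective (h3.trans h2.symm))⟩
  · refine ⟨fun h3 => h.b (w.injective (h3.trans h2.symm)), fun h3 => h.a (w.injective (h3.trans h1.symm))⟩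

/-- the index `i` -/
def ix (i : ℕ) (h : i < r) : Fin (2 * r + 1 + 1) := ⟨i, by omega⟩

/-- the index `i + 1` -/
def iy (i : ℕ) (h : i < r) : Fin (2 * r + 1 + 1) := ⟨i + 1, by omega⟩

lemma ix_val (i : ℕ) (h : i < r) : (ix i h : Fin (2 * r + 1 + 1)).val = i := rfl
lemma iy_val (i : ℕ) (h : i < r) : (iy i h : Fin (2 * r + 1 + 1)).val = i + 1 := rfl

lemma ix_sh (i : ℕ) (h : i < r) : Sh (ix i h : Fin (2 * r + 1 + 1)) :=
  ⟨fun h1 => by rw [Fin.ext_iff, ix_val, ma_val] at h1; omega,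
    fun h1 => by rw [Fin.ext_iff, ix_val, mb_val] at h1; omega⟩

/-- the simple reflections -/
def ts (i : ℕ) (h : i < r) : Equiv.Perm (Fin (2 * r + 1 + 1)) :=
  if i + 1 < r then Equiv.swap (ix i h) (iy i h) * Equiv.swap (Fin.rev (iy i h)) (Fin.rev (ix i h))
  else Equiv.swap (ix i h) (Fin.rev (ix i h)) * PP r

lemma ts_val1 {i : ℕ} (h : i < r) (h1 : i + 1 < r) (x : Fin (2 * r + 1 + 1)) :
    (ts i h x).val = if x.val = i then i + 1 else if x.val = i + 1 then i else
      if x.val = 2 * r - i then 2 * r + 1 - i else if x.val = 2 * r + 1 - i then 2 * r - i else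
      x.val := by
  rw [ts, if_pos h1, Equiv.Perm.mul_apply, Equiv.swap_apply_def, Equiv.swap_apply_def]
  simp only [Fin.ext_iff, rv_val, ix_val, iy_val]
  have := x.2
  split_ifs <;> (try simp only [Fin.ext_iff, rv_val, ix_val, iy_val] at *) <;> omega

lemma ts_val2 {i : ℕ} (h : i < r) (h1 : i + 1 = r) (x : Fin (2 * r + 1 + 1)) :
    (ts i h x).val = if x.val = i then i + 3 else if x.val = i + 1 then i + 2 else
      if x.val = i + 2 then i + 1 else if x.val = i + 3 then i else x.val := by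
  rw [ts, if_neg (by omega), PP, Equiv.Perm.mul_apply, Equiv.swap_apply_def, Equiv.swap_apply_def]
  simp only [Fin.ext_iff, rv_val, ix_val, iy_val, ma_val, mb_val]
  have := x.2
  split_ifs <;> (try simp only [Fin.ext_iff, rv_val, ix_val, iy_val, ma_val, mb_val] at *) <;> omega

lemma PP_val (x : Fin (2 * r + 1 + 1)) :
    (PP r x).val = if x.val = r then r + 1 else if x.val = r + 1 then r else x.val := by
  rw [PP, Equiv.swap_apply_def]
  simp only [Fin.ext_iff, ma_val, mb_val]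
  split_ifs <;> first | rfl | omega

lemma ts_gp1 {i : ℕ} (h : i < r) (h1 : i + 1 < r) (x : Fin (2 * r + 1 + 1)) :
    ts i h (Fin.rev x) = Fin.rev (ts i h x) := by
  have := x.2
  rw [Fin.ext_iff, ts_val1 h h1, rv_val, rv_val, ts_val1 h h1]
  split_ifs <;> omega

lemma ts_gp2 {i : ℕ} (h : i < r) (h1 : i + 1 < r) (x : Fin (2 * r + 1 + 1)) :
    ts i h (PP r x) = PP r (ts i h x) := by
  have ha : ts i h (ma r) = ma r := by
    rw [Fin.ext_iff, ts_val1 h h1, ma_val]
    split_ifs <;> omega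
  have hb : ts i h (mb r) = mb r := by
    rw [Fin.ext_iff, ts_val1 h h1, mb_val]
    split_ifs <;> omega
  by_cases h2 : x = ma r
  · rw [h2, PP_ma, ha, hb, PP_ma]
  · by_cases h3 : x = mb r
    · rw [h3, PP_mb, ha, hb, PP_mb]
    · rw [PP_ne h2 h3, PP_ne]
      · exact fun h4 => h2 ((ts i h).injective (h4.trans ha.symm))
      · exact fun h4 => h3 ((ts i h).injective (h4.trans hb.symm))

lemma ts_gp3 {i : ℕ} (h : i < r) (h1 : i + 1 = r) (x : Fin (2 * r + 1 + 1)) :
    ts i h (Fin.rev x) = Fin.rev (ts i h x) := by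
  have := x.2
  rw [Fin.ext_iff, ts_val2 h h1, rv_val, rv_val, ts_val2 h h1]
  split_ifs <;> omega

lemma ts_gp4 {i : ℕ} (h : i < r) (h1 : i + 1 = r) (x : Fin (2 * r + 1 + 1)) :
    ts i h (PP r x) = PP r (ts i h x) := by
  have := x.2
  rw [Fin.ext_iff, ts_val2 h h1, PP_val, PP_val, ts_val2 h h1]
  split_ifs <;> omega

lemma ts_gp {i : ℕ} (h : i < r) : Gp (ts i h) := by
  by_cases h1 : i + 1 < r
  · refine ⟨ts_gp1 h h1, ts_gp2 h h1, ?_⟩
    rw [ts, if_pos h1, Equiv.Perm.sign_mul, Equiv.Perm.sign_swap, Equiv.Perm.sign_swap]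
    · simp
    · rw [Ne, Fin.ext_iff, rv_val, rv_val, ix_val, iy_val]; omega
    · rw [Ne, Fin.ext_iff, ix_val, iy_val]; omega
  · refine ⟨ts_gp3 h (by omega), ts_gp4 h (by omega), ?_⟩
    rw [ts, if_neg h1, PP, Equiv.Perm.sign_mul, Equiv.Perm.sign_swap, Equiv.Perm.sign_swap]
    · simp
    · exact mab
    · exact (rev_ne_self _).symm

lemma ts_ts {i : ℕ} (h : i < r) (x : Fin (2 * r + 1 + 1)) : ts i h (ts i h x) = x := by
  have := x.2
  by_cases h1 : i + 1 < r
  · rw [Fin.ext_iff, ts_val1 h h1, ts_val1 h h1]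
    split_ifs <;> omega
  · have h1' : i + 1 = r := by omega
    rw [Fin.ext_iff, ts_val2 h h1', ts_val2 h h1']
    split_ifs <;> omega

lemma ts_sq {i : ℕ} (h : i < r) : ts i h * ts i h = 1 := by
  ext x
  rw [Equiv.Perm.mul_apply, ts_ts, Equiv.Perm.one_apply]

lemma ts_inv {i : ℕ} (h : i < r) : (ts i h)⁻¹ = ts i h := by
  rw [inv_eq_iff_mul_eq_one, ts_sq]

/-- the inversions of the first kind -/
lemma inv1 {i : ℕ} {h : i < r} (h1 : i + 1 < r) {x y : Fin (2 * r + 1 + 1)} (hxy : x < y)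
    (ht : ts i h y < ts i h x) : (x = ix i h ∧ y = iy i h) ∨
      (x = Fin.rev (iy i h) ∧ y = Fin.rev (ix i h)) := by
  rw [Fin.lt_def, ts_val1 h h1, ts_val1 h h1] at ht
  rw [Fin.lt_def] at hxy
  simp only [Fin.ext_iff, rv_val, ix_val, iy_val]
  have := x.2
  have := y.2
  split_ifs at ht <;> omega

/-- the inversions of the second kind -/
lemma inv2 {i : ℕ} {h : i < r} (h1 : i + 1 = r) {x y : Fin (2 * r + 1 + 1)} (hxy : x < y)
    (ht : ts i h y < ts i h x) : i ≤ x.val ∧ x.val < y.val ∧ y.val ≤ i + 3 := by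
  rw [Fin.lt_def, ts_val2 h h1, ts_val2 h h1] at ht
  rw [Fin.lt_def] at hxy
  have := x.2
  have := y.2
  split_ifs at ht <;> omega

/-- `ts` inverts the simple pair -/
lemma ts_lt {i : ℕ} (h : i < r) : ts i h (iy i h) < ts i h (ix i h) := by
  by_cases h1 : i + 1 < r
  · rw [Fin.lt_def, ts_val1 h h1, ts_val1 h h1, ix_val, iy_val]
    split_ifs <;> omega
  · have h1' : i + 1 = r := by omega
    rw [Fin.lt_def, ts_val2 h h1', ts_val2 h h1', ix_val, iy_val]
    split_ifs <;> omega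

/-- sorted permutations are trivial -/
lemma sorted_one {w : Equiv.Perm (Fin (2 * r + 1 + 1))} (hw : Gp w)
    (h1 : ∀ (i : ℕ) (h : i < r), i + 1 < r → w (ix i h) < w (iy i h))
    (h2 : ∀ (i : ℕ) (h : i < r), i + 1 = r → w (ix i h) < Fin.rev (w (ix i h))) : w = 1 := by
  have hlow : ∀ (i : ℕ) (h : i < r), i ≤ (w (ix i h)).val := by
    intro i
    induction i with
    | zero => exact fun _ => Nat.zero_le _
    | succ i ih =>
      intro h
      have h3 := h1 i (by omega) h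
      have h4 := ih (by omega)
      rw [Fin.lt_def] at h3
      have e : (iy i (by omega) : Fin (2 * r + 1 + 1)) = ix (i + 1) h := rfl
      rw [e] at h3
      omega
  have hup : ∀ (k i : ℕ) (h : i < r), i + k + 1 = r → (w (ix i h)).val ≤ i := by
    intro k
    induction k with
    | zero =>
      intro i h hi
      have h3 := h2 i h hi
      rw [Fin.lt_def, rv_val] at h3
      have h4 := (hw.sh (ix_sh i h)).a
      rw [Ne, Fin.ext_iff, ma_val] at h4
      have := (w (ix i h)).2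
      omega
    | succ k ih =>
      intro i h hi
      have h3 := h1 i h (by omega)
      have h4 := ih (i + 1) (by omega) (by omega)
      rw [Fin.lt_def] at h3
      have e : (iy i h : Fin (2 * r + 1 + 1)) = ix (i + 1) (by omega) := rfl
      rw [e] at h3
      omega
  have hfix : ∀ x : Fin (2 * r + 1 + 1), x.val < r → w x = x := by
    intro x hx
    have h3 := hlow x.val hx
    have h4 := hup (r - 1 - x.val) x.val hx (by omega)
    have e : (ix x.val hx : Fin (2 * r + 1 + 1)) = x := rfl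
    rw [e] at h3 h4
    rw [Fin.ext_iff]
    omega
  have hfix' : ∀ x : Fin (2 * r + 1 + 1), Sh x → w x = x := by
    intro x hx
    by_cases h3 : x.val < r
    · exact hfix x h3
    · have h4 := hx.a
      have h5 := hx.b
      rw [Ne, Fin.ext_iff, ma_val] at h4
      rw [Ne, Fin.ext_iff, mb_val] at h5
      have h6 : (Fin.rev x).val < r := by rw [rv_val]; have := x.2; omega
      have h7 := hfix _ h6
      rw [hw.rev] at h7
      exact Fin.rev_injective h7
  rcases hw.mid with ⟨h3, h4⟩ | ⟨h3, h4⟩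
  · ext x
    rw [Equiv.Perm.one_apply]
    by_cases h5 : x = ma r
    · rw [h5, h3]
    · by_cases h6 : x = mb r
      · rw [h6, h4]
      · rw [hfix' x ⟨h5, h6⟩]
  · exfalso
    have h5 : w = PP r := by
      ext x
      by_cases h5 : x = ma r
      · rw [h5, h3, PP_ma]
      · by_cases h6 : x = mb r
        · rw [h6, h4, PP_mb]
        · rw [hfix' x ⟨h5, h6⟩, PP_ne h5 h6]
    have h6 := hw.sg
    rw [h5, PP, Equiv.Perm.sign_swap mab] at h6
    exact absurd h6 (by decide)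

lemma ts_inc {w : Equiv.Perm (Fin (2 * r + 1 + 1))} (hw : Gp w) (hne : w ≠ 1) :
    ∃ (i : ℕ) (h : i < r), fw w < fw (w * ts i h) := by
  by_contra hcon
  push Not at hcon
  apply hne
  refine sorted_one hw (fun i h h1 => ?_) (fun i h h1 => ?_)
  · by_contra h2
    have hne1 : ix i h ≠ iy i h := by rw [Ne, Fin.ext_iff, ix_val, iy_val]; omega
    have hlt : w (iy i h) < w (ix i h) :=
      lt_of_le_of_ne (not_lt.1 h2) fun h3 => hne1 (w.injective h3).symm
    have hlt' : w (Fin.rev (ix i h)) < w (Fin.rev (iy i h)) := by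
      rw [hw.rev, hw.rev]
      exact Fin.rev_lt_rev.2 hlt
    have h3 := hcon i h
    rw [ts, if_pos h1, ← mul_assoc, fw_swap _ (by
        rw [Ne, Fin.ext_iff, rv_val, rv_val, ix_val, iy_val]; omega), fw_swap _ hne1,
      Equiv.Perm.mul_apply, Equiv.Perm.mul_apply, Equiv.swap_apply_of_ne_of_ne,
      Equiv.swap_apply_of_ne_of_ne] at h3
    · rw [rv_val, rv_val, ix_val, iy_val] at h3
      rw [Fin.lt_def] at hlt hlt'
      have h4 : ((w (iy i h)).val : ℤ) < (w (ix i h)).val := by exact_mod_cast hlt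
      have h5 : ((w (Fin.rev (ix i h))).val : ℤ) < (w (Fin.rev (iy i h))).val := by
        exact_mod_cast hlt'
      have e1 : ((2 * r + 1 - i : ℕ) : ℤ) - ((2 * r + 1 - (i + 1) : ℕ) : ℤ) = 1 := by omega
      have e2 : ((i + 1 : ℕ) : ℤ) - ((i : ℕ) : ℤ) = 1 := by omega
      rw [e1, e2] at h3
      linarith
    · rw [Ne, Fin.ext_iff, rv_val, ix_val]; omega
    · rw [Ne, Fin.ext_iff, rv_val, ix_val, iy_val]; omega
    · rw [Ne, Fin.ext_iff, rv_val, ix_val, iy_val]; omega
    · rw [Ne, Fin.ext_iff, rv_val, iy_val]; omega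
  · by_contra h2
    have hne1 : ix i h ≠ Fin.rev (ix i h) := (rev_ne_self _).symm
    have h4 : (Fin.rev (w (ix i h))).val ≤ (w (ix i h)).val := Fin.le_def.1 (not_lt.1 h2)
    rw [rv_val] at h4
    have h3 := hcon i h
    have hsh := hw.sh (ix_sh i h)
    have ha := hsh.a
    have hb := hsh.b
    rw [Ne, Fin.ext_iff, ma_val] at ha
    rw [Ne, Fin.ext_iff, mb_val] at hb
    rw [ts, if_neg (by omega), ← mul_assoc, PP, fw_swap _ mab, fw_swap _ hne1,
      Equiv.Perm.mul_apply, Equiv.Perm.mul_apply, Equiv.swap_apply_of_ne_of_ne,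
      Equiv.swap_apply_of_ne_of_ne] at h3
    · have e3 : ((Fin.rev (ix i h) : Fin (2 * r + 1 + 1)).val : ℤ) - ((ix i h :
        Fin (2 * r + 1 + 1)).val : ℤ) = 3 := by rw [rv_val, ix_val]; omega
      have e4 : ((mb r).val : ℤ) - ((ma r).val : ℤ) = 1 := by rw [ma_val, mb_val]; omega
      rw [e3, e4, hw.rev] at h3
      have h5 : ((Fin.rev (w (ix i h))).val : ℤ) + ((w (ix i h)).val : ℤ) = 2 * r + 1 := by
        rw [rv_val]; have := (w (ix i h)).2; omega
      have h6 : (r : ℤ) + 2 ≤ ((w (ix i h)).val : ℤ) := by omega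
      have h7 : ((w (mb r)).val : ℤ) - ((w (ma r)).val : ℤ) ≤ 1 := by
        rcases hw.mid with ⟨h8, h9⟩ | ⟨h8, h9⟩ <;> rw [h8, h9, ma_val, mb_val] <;> omega
      linarith
    · exact (ix_sh i h).b.symm
    · exact (ix_sh i h).rev.b.symm
    · exact (ix_sh i h).a.symm
    · exact (ix_sh i h).rev.a.symm

/-- **induction for admissible permutations** -/
theorem gp_ind {Q : Equiv.Perm (Fin (2 * r + 1 + 1)) → Prop} (h1 : Q 1)
    (hs : ∀ w (i : ℕ) (h : i < r), Gp w → Q (w * ts i h) → Q w) : ∀ w, Gp w → Q w := by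
  have key : ∀ (k : ℕ) (w : Equiv.Perm (Fin (2 * r + 1 + 1))), Gp w →
      (∑ x : Fin (2 * r + 1 + 1), ((2 * r + 1 : ℕ) : ℤ) * (2 * r + 1 : ℕ)) - fw w < k → Q w := by
    intro k
    induction k with
    | zero =>
      intro w _ hw
      have := fw_le w
      push_cast at hw this
      linarith
    | succ k ih =>
      intro w hc hw
      by_cases h : w = 1
      · rw [h]; exact h1
      · obtain ⟨i, hi, hlt⟩ := ts_inc hc h
        refine hs w i hi hc (ih _ (hc.mul (ts_gp hi)) ?_)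
        push_cast at hw ⊢
        linarith
  intro w hw
  obtain ⟨k, hk⟩ := Int.eq_ofNat_of_zero_le
    (a := (∑ x : Fin (2 * r + 1 + 1), ((2 * r + 1 : ℕ) : ℤ) * (2 * r + 1 : ℕ)) - fw w)
    (by have := fw_le w; linarith)
  exact key (k + 1) w hw (by rw [hk]; push_cast; linarith)

/-- the longest element -/
def w0 (r : ℕ) : Equiv.Perm (Fin (2 * r + 1 + 1)) :=
  if Equiv.Perm.sign (Fin.revPerm : Equiv.Perm (Fin (2 * r + 1 + 1))) = 1 then Fin.revPerm
  else Fin.revPerm * PP r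

lemma PP_rev (x : Fin (2 * r + 1 + 1)) : PP r (Fin.rev x) = Fin.rev (PP r x) := by
  by_cases h1 : x = ma r
  · rw [h1, rev_ma, PP_mb, PP_ma, rev_mb]
  · by_cases h2 : x = mb r
    · rw [h2, rev_mb, PP_mb, PP_ma, rev_ma]
    · rw [PP_ne h1 h2, PP_ne (fun h3 => h2 (rev_eq_ma.1 h3)) (fun h3 => h1 (rev_eq_mb.1 h3))]

lemma w0_gp : Gp (w0 r) := by
  by_cases h : Equiv.Perm.sign (Fin.revPerm : Equiv.Perm (Fin (2 * r + 1 + 1))) = 1
  · rw [w0, if_pos h]
    exact ⟨fun x => rfl, fun x => (PP_rev x).symm, h⟩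
  · rw [w0, if_neg h]
    refine ⟨fun x => ?_, fun x => ?_, ?_⟩
    · rw [Equiv.Perm.mul_apply, Equiv.Perm.mul_apply, PP_rev]
      rfl
    · rw [Equiv.Perm.mul_apply, Equiv.Perm.mul_apply, Fin.revPerm_apply, Fin.revPerm_apply, PP_rev]
    · rw [Equiv.Perm.sign_mul, PP, Equiv.Perm.sign_swap mab]
      rcases Int.units_eq_one_or (Equiv.Perm.sign
        (Fin.revPerm : Equiv.Perm (Fin (2 * r + 1 + 1)))) with h1 | h1
      · exact absurd h1 h
      · rw [h1]; simp

lemma w0_sh {x : Fin (2 * r + 1 + 1)} (h : Sh x) : w0 r x = Fin.rev x := by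
  rw [w0]
  split_ifs
  · rfl
  · rw [Equiv.Perm.mul_apply, PP_ne h.a h.b]
    rfl

lemma w0_lt {x y : Fin (2 * r + 1 + 1)} (h : x < y) (hn : ¬ (x = ma r ∧ y = mb r)) :
    w0 r y < w0 r x := by
  have hmid : ∀ z : Fin (2 * r + 1 + 1), ¬ Sh z → (w0 r z).val = r ∨ (w0 r z).val = r + 1 := by
    intro z hz
    have h1 : z = ma r ∨ z = mb r := by
      by_contra h2
      push Not at h2
      exact hz ⟨h2.1, h2.2⟩
    rcases (w0_gp (r := r)).mid with ⟨h2, h3⟩ | ⟨h2, h3⟩ <;> rcases h1 with rfl | rfl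
    · rw [h2]; exact Or.inl rfl
    · rw [h3]; exact Or.inr rfl
    · rw [h2]; exact Or.inr rfl
    · rw [h3]; exact Or.inl rfl
  have hsh : ∀ z : Fin (2 * r + 1 + 1), Sh z → z.val < r ∨ r + 1 < z.val := by
    intro z hz
    have h1 := hz.a
    have h2 := hz.b
    rw [Ne, Fin.ext_iff, ma_val] at h1
    rw [Ne, Fin.ext_iff, mb_val] at h2
    omega
  have hsh' : ∀ z : Fin (2 * r + 1 + 1), ¬ Sh z → z.val = r ∨ z.val = r + 1 := by
    intro z hz
    by_contra h2
    push Not at h2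
    exact hz ⟨fun h3 => h2.1 (by rw [h3, ma_val]), fun h3 => h2.2 (by rw [h3, mb_val])⟩
  rw [Fin.lt_def] at h ⊢
  have hx2 := x.2
  have hy2 := y.2
  by_cases hx : Sh x <;> by_cases hy : Sh y
  · rw [w0_sh hx, w0_sh hy, rv_val, rv_val]
    omega
  · have h1 := hsh x hx
    have h2 := hsh' y hy
    have h3 := hmid y hy
    rw [w0_sh hx, rv_val]
    omega
  · have h1 := hsh y hy
    have h2 := hsh' x hx
    have h3 := hmid x hx
    rw [w0_sh hy, rv_val]
    omega
  · exfalso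
    have h1 := hsh' x hx
    have h2 := hsh' y hy
    apply hn
    rw [Fin.ext_iff, Fin.ext_iff, ma_val, mb_val]
    omega

end

end Vale.Agent.P240.R2.H727.O
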