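import Vale.Agent.P240.R2.H727.O3

/-!
Orthogonal groups of minus type: rank one relations and classification of the root groups.
-/

set_option autoImplicit false
set_option linter.all false

namespace Vale.Agent.P240.R2.H727.O

open Subgroup Matrix Vale.Agent.P240.H195 Vale.Agent.P240.R2.H487.CG

section
variable {K : Type*} [Field K] {r : ℕ}

/-- rank one relation for long roots -/
lemma xe_rank {a b : Fin (2 * r + 1 + 1)} (h : Lg a b) {c : K} (hc : c ≠ 0) :
    Mon (xe h (-c⁻¹) * (xe h.symm c * xe h (-c⁻¹)))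
      (Equiv.swap a b * Equiv.swap (Fin.rev b) (Fin.rev a)) := by
  have h1 := rank_one h.ne hc
  have h2 := rank_one h.rev.ne (neg_ne_zero.2 hc)
  have e1 : -(-c)⁻¹ = -(-c⁻¹) := by rw [inv_neg]
  rw [e1] at h2
  have hab := h.ne
  have n1 : b ≠ Fin.rev b := (rev_ne_self b).symm
  have n2 : Fin.rev a ≠ a := rev_ne_self a
  have n3 : b ≠ Fin.rev a := h.ne'
  have n4 : a ≠ Fin.rev b := h.symm.ne'
  have c1 : ∀ x y : K, Commute (tx h.ne x) (tx h.rev.ne y) := fun x y => tx_comm' _ _ n1 n2 x y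
  have c2 : ∀ x y : K, Commute (tx h.ne.symm x) (tx h.rev.ne y) :=
    fun x y => tx_comm' _ _ n4 n3.symm x y
  have c3 : ∀ x y : K, Commute (tx h.ne x) (tx h.rev.ne.symm y) :=
    fun x y => tx_comm' _ _ n3 n4.symm x y
  have e : xe h (-c⁻¹) * (xe h.symm c * xe h (-c⁻¹)) =
      (tx h.ne (-c⁻¹) * (tx h.ne.symm c * tx h.ne (-c⁻¹))) *
      (tx h.rev.ne (-(-c⁻¹)) * (tx h.rev.ne.symm (-c) * tx h.rev.ne (-(-c⁻¹)))) := by
    have d1 := (c2 c (-(-c⁻¹))).eq
    have d2 := (c1 (-c⁻¹) (-(-c⁻¹))).eq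
    have d3 := (c3 (-c⁻¹) (-c)).eq
    change (tx h.ne (-c⁻¹) * tx h.rev.ne (-(-c⁻¹))) * ((tx h.ne.symm c * tx h.rev.ne.symm (-c)) *
      (tx h.ne (-c⁻¹) * tx h.rev.ne (-(-c⁻¹)))) = _
    calc (tx h.ne (-c⁻¹) * tx h.rev.ne (-(-c⁻¹))) * ((tx h.ne.symm c * tx h.rev.ne.symm (-c)) *
          (tx h.ne (-c⁻¹) * tx h.rev.ne (-(-c⁻¹))))
        = tx h.ne (-c⁻¹) * ((tx h.rev.ne (-(-c⁻¹)) * tx h.ne.symm c) * (tx h.rev.ne.symm (-c) *
          tx h.ne (-c⁻¹))) * tx h.rev.ne (-(-c⁻¹)) := by simp only [mul_assoc]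
      _ = tx h.ne (-c⁻¹) * ((tx h.ne.symm c * tx h.rev.ne (-(-c⁻¹))) * (tx h.ne (-c⁻¹) *
          tx h.rev.ne.symm (-c))) * tx h.rev.ne (-(-c⁻¹)) := by rw [← d1, ← d3]
      _ = tx h.ne (-c⁻¹) * (tx h.ne.symm c * (tx h.rev.ne (-(-c⁻¹)) * tx h.ne (-c⁻¹)) *
          tx h.rev.ne.symm (-c)) * tx h.rev.ne (-(-c⁻¹)) := by simp only [mul_assoc]
      _ = tx h.ne (-c⁻¹) * (tx h.ne.symm c * (tx h.ne (-c⁻¹) * tx h.rev.ne (-(-c⁻¹))) *
          tx h.rev.ne.symm (-c)) * tx h.rev.ne (-(-c⁻¹)) := by rw [← d2]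
      _ = _ := by simp only [mul_assoc]
  rw [e]
  exact mon_mul h1 h2

/-- rank one relation for short roots -/
lemma ye_rank {σ : K ≃+* K} (hσ : ∀ x, σ (σ x) = x) {p : Fin (2 * r + 1 + 1)} (h : Sh p) {a : K}
    (ha : a ≠ 0) :
    Mon (ye σ h (σ a)⁻¹ * (ye σ h.rev a * ye σ h (σ a)⁻¹))
      (Equiv.swap p (Fin.rev p) * PP r) := by
  have hσa : σ a ≠ 0 := by
    intro h0
    exact ha (by rw [← hσ a, h0, map_zero])
  have hb : σ (σ a)⁻¹ = a⁻¹ := by rw [map_inv₀, hσ]
  have hvec : ∀ v : Fin (2 * r + 1 + 1) → K,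
      (ye σ h (σ a)⁻¹ * (ye σ h.rev a * ye σ h (σ a)⁻¹)).1 *ᵥ v = fun i =>
        if i = p then -((σ a)⁻¹ * a⁻¹) * v (Fin.rev p) else if i = Fin.rev p then
          -(a * σ a) * v p else if i = ma r then -(σ a * a⁻¹) * v (mb r) else if i = mb r then
          -(a * (σ a)⁻¹) * v (ma r) else v i := by
    intro v
    rw [SpecialLinearGroup.coe_mul, SpecialLinearGroup.coe_mul, ← Matrix.mulVec_mulVec,
      ← Matrix.mulVec_mulVec, ye_vec, ye_vec, ye_vec, hb]
    have e1 : Fin.rev p ≠ ma r := h.rev.a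
    have e2 : Fin.rev p ≠ mb r := h.rev.b
    have e3 : mb r ≠ ma r := mab.symm
    have e4 : Fin.rev p ≠ p := rev_ne_self p
    ext i
    by_cases i1 : i = p
    · subst i1
      simp only [ad_apply, Fin.rev_rev, e1, e2, e3, e3.symm, e4, e4.symm, h.a, h.b, h.a.symm,
        h.b.symm, e1.symm, e2.symm, if_true, if_false, add_zero]
      field_simp
      ring
    · by_cases i2 : i = Fin.rev p
      · subst i2
        simp only [ad_apply, Fin.rev_rev, e1, e2, e3, e3.symm, e4, e4.symm, h.a, h.b, h.a.symm,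
          h.b.symm, e1.symm, e2.symm, if_true, if_false, add_zero]
        field_simp
        ring
      · by_cases i3 : i = ma r
        · subst i3
          simp only [ad_apply, Fin.rev_rev, e1, e2, e3, e3.symm, e4, e4.symm, h.a, h.b, h.a.symm,
            h.b.symm, e1.symm, e2.symm, if_true, if_false, add_zero]
          field_simp
          ring
        · by_cases i4 : i = mb r
          · subst i4
            simp only [ad_apply, Fin.rev_rev, e1, e2, e3, e3.symm, e4, e4.symm, h.a, h.b,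
              h.a.symm, h.b.symm, e1.symm, e2.symm, if_true, if_false, add_zero]
            field_simp
            ring
          · simp only [ad_apply, i1, i2, i3, i4, if_false, add_zero]
  intro i j hij
  have h1 := congrFun (hvec (fun i => if i = j then 1 else 0)) i
  rw [col_eq] at h1
  simp only at h1
  rw [h1] at hij
  rw [Equiv.Perm.mul_apply]
  by_cases i1 : i = p
  · rw [if_pos i1] at hij
    have h2 : Fin.rev p = j := by
      by_contra h3
      rw [if_neg h3, mul_zero] at hij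
      exact hij rfl
    rw [← h2, PP_ne h.rev.a h.rev.b, Equiv.swap_apply_right, i1]
  · rw [if_neg i1] at hij
    by_cases i2 : i = Fin.rev p
    · rw [if_pos i2] at hij
      have h2 : p = j := by
        by_contra h3
        rw [if_neg h3, mul_zero] at hij
        exact hij rfl
      rw [← h2, PP_ne h.a h.b, Equiv.swap_apply_left, i2]
    · rw [if_neg i2] at hij
      by_cases i3 : i = ma r
      · rw [if_pos i3] at hij
        have h2 : mb r = j := by
          by_contra h3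
          rw [if_neg h3, mul_zero] at hij
          exact hij rfl
        rw [← h2, PP_mb, Equiv.swap_apply_of_ne_of_ne h.a.symm h.rev.a.symm, i3]
      · rw [if_neg i3] at hij
        by_cases i4 : i = mb r
        · rw [if_pos i4] at hij
          have h2 : ma r = j := by
            by_contra h3
            rw [if_neg h3, mul_zero] at hij
            exact hij rfl
          rw [← h2, PP_ma, Equiv.swap_apply_of_ne_of_ne h.b.symm h.rev.b.symm, i4]
        · rw [if_neg i4] at hij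
          have h2 : i = j := by
            by_contra h3
            exact hij (if_neg h3)
          rw [← h2, PP_ne i3 i4, Equiv.swap_apply_of_ne_of_ne i1 i2]

lemma ad_zero_of_supp {u : Fin (2 * r + 1 + 1) → K} {p : Fin (2 * r + 1 + 1)} (h : Sh p)
    (hu : ∀ i, i ≠ p → i ≠ Fin.rev p → i ≠ ma r → i ≠ mb r → u i = 0) :
    u = ad (ad (ad (ad (fun _ => 0) p (u p)) (Fin.rev p) (u (Fin.rev p))) (ma r) (u (ma r)))
      (mb r) (u (mb r)) := by
  have e1 : Fin.rev p ≠ ma r := h.rev.a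
  have e2 : Fin.rev p ≠ mb r := h.rev.b
  have e3 : mb r ≠ ma r := mab.symm
  have e4 : Fin.rev p ≠ p := rev_ne_self p
  ext i
  simp only [ad_apply]
  by_cases i1 : i = p
  · subst i1
    simp [e4.symm, h.a, h.b]
  · by_cases i2 : i = Fin.rev p
    · subst i2
      simp [e4, e1, e2]
    · by_cases i3 : i = ma r
      · subst i3
        simp [e3.symm, i1, i2]
      · by_cases i4 : i = mb r
        · subst i4
          simp [i1, i2, i3]
        · simp [i1, i2, i3, i4, hu i i1 i2 i3 i4]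

lemma Qd_supp {u : Fin (2 * r + 1 + 1) → K} {p : Fin (2 * r + 1 + 1)} (h : Sh p)
    (hu : ∀ i, i ≠ p → i ≠ Fin.rev p → i ≠ ma r → i ≠ mb r → u i = 0) :
    Qd u = u p * u (Fin.rev p) + u (ma r) * u (mb r) := by
  have h0 : Qd (fun _ => 0 : Fin (2 * r + 1 + 1) → K) = 0 :=
    Finset.sum_eq_zero fun i _ => by simp
  have e1 : Fin.rev p ≠ ma r := h.rev.a
  have e2 : Fin.rev p ≠ mb r := h.rev.b
  have e3 : mb r ≠ ma r := mab.symm
  have e4 : Fin.rev p ≠ p := rev_ne_self p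
  rw [ad_zero_of_supp h hu, Qd_ad, Qd_ad, Qd_ad, Qd_ad, h0]
  simp only [ad_apply, Fin.rev_rev, rev_ma, rev_mb, e1, e2, e3, e3.symm, e4, e4.symm, h.a, h.b,
    h.a.symm, h.b.symm, e1.symm, e2.symm, if_true, if_false, add_zero, zero_add]
  ring

/-- columns are singular vectors -/
lemma Iso.qd {A : SLm (2 * r + 1) K} (hA : Iso A) (j : Fin (2 * r + 1 + 1)) :
    Qd (fun i => A.1 i j) = 0 := by
  have h1 := hA (fun i => if i = j then 1 else 0)
  rw [col_eq, Qd_single] at h1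
  exact h1

/-- the positions of a short root element -/
def SP (p : Fin (2 * r + 1 + 1)) (i j : Fin (2 * r + 1 + 1)) : Prop :=
  (i = p ∧ (j = ma r ∨ j = mb r ∨ j = Fin.rev p)) ∨ (j = Fin.rev p ∧ (i = ma r ∨ i = mb r)) ∨
    (i = ma r ∧ j = mb r) ∨ (i = mb r ∧ j = ma r)

/-- **classification for short roots** -/
lemma short_eq {σ : K ≃+* K} {p : Fin (2 * r + 1 + 1)} (h : Sh p) {A : SLm (2 * r + 1) K}
    (hA : Iso A) (hS : Sem σ A) (hd : ∀ i, A.1 i i = 1)
    (hp : ∀ i j, i ≠ j → A.1 i j ≠ 0 → SP p i j) : A = ye σ h (A.1 p (ma r)) := by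
  have e1 : Fin.rev p ≠ ma r := h.rev.a
  have e2 : Fin.rev p ≠ mb r := h.rev.b
  have e3 : mb r ≠ ma r := mab.symm
  have e4 : Fin.rev p ≠ p := rev_ne_self p
  have hz : ∀ i j, i ≠ j → ¬ SP p i j → A.1 i j = 0 := by
    intro i j hij hn
    by_contra h1
    exact hn (hp i j hij h1)
  set a := A.1 p (ma r) with ha
  have h1 : A.1 p (mb r) = σ a := by
    have := hS p (ma r)
    rwa [PP_ma, PP_ne h.a h.b] at this
  have h2 : A.1 (mb r) (ma r) = 0 := by
    have h3 := hA.qd (ma r)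
    rw [Qd_supp h] at h3
    · have h4 : A.1 (Fin.rev p) (ma r) = 0 := by
        refine hz _ _ e1 ?_
        rintro (⟨h5, -⟩ | ⟨h5, -⟩ | ⟨h5, -⟩ | ⟨h5, -⟩)
        · exact e4 h5
        · exact e1 h5.symm
        · exact e1 h5
        · exact e2 h5
      simp only [h4, hd, mul_zero, zero_add, one_mul] at h3
      exact h3
    · intro i i1 i2 i3 i4
      refine hz _ _ i3 ?_
      rintro (⟨h5, -⟩ | ⟨h5, -⟩ | ⟨h5, -⟩ | ⟨h5, -⟩)
      · exact i1 h5
      · exact e1 h5.symm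
      · exact i3 h5
      · exact i4 h5
  have h3 : A.1 (ma r) (mb r) = 0 := by
    have := hS (mb r) (ma r)
    rw [PP_ma, PP_mb, h2, map_zero] at this
    exact this
  have h4 : A.1 (mb r) (Fin.rev p) = -a := by
    have h5 := hA.col (ma r) (Fin.rev p)
    rw [Fin.rev_rev, if_neg h.a.symm, Finset.sum_eq_add p (ma r) h.a] at h5
    · rw [hd, hd, rev_ma, mul_one, one_mul] at h5
      exact (neg_eq_of_add_eq_zero_right h5).symm
    · rintro k - ⟨k1, k2⟩
      by_cases k3 : k = mb r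
      · rw [k3, h2, zero_mul]
      · rw [hz k (ma r) k2, zero_mul]
        rintro (⟨h5, -⟩ | ⟨h5, -⟩ | ⟨h5, -⟩ | ⟨h5, -⟩)
        · exact k1 h5
        · exact e1 h5.symm
        · exact k2 h5
        · exact k3 h5
    · exact fun h6 => absurd (Finset.mem_univ _) h6
    · exact fun h6 => absurd (Finset.mem_univ _) h6
  have h5 : A.1 (ma r) (Fin.rev p) = -σ a := by
    have := hS (mb r) (Fin.rev p)
    rwa [PP_mb, PP_ne e1 e2, h4, map_neg] at this
  have h6 : A.1 p (Fin.rev p) = -(a * σ a) := by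
    have h7 := hA.qd (Fin.rev p)
    rw [Qd_supp h] at h7
    · simp only [h4, h5, hd, mul_one] at h7
      linear_combination h7
    · intro i i1 i2 i3 i4
      refine hz _ _ i2 ?_
      rintro (⟨h5, -⟩ | ⟨-, h5⟩ | ⟨h5, -⟩ | ⟨h5, -⟩)
      · exact i1 h5
      · rcases h5 with h5 | h5
        · exact i3 h5
        · exact i4 h5
      · exact i3 h5
      · exact i4 h5
  refine sl_ext fun i j => ?_
  rw [ye_apply]
  by_cases hij : i = j
  · subst hij
    rw [hd, if_pos rfl]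
    have n1 : ¬ (i = ma r ∧ i = Fin.rev p) := fun h7 => e1 (h7.2.symm.trans h7.1)
    have n2 : ¬ (i = mb r ∧ i = Fin.rev p) := fun h7 => e2 (h7.2.symm.trans h7.1)
    rw [if_neg n1, if_neg n2]
    by_cases h7 : i = p
    · subst h7
      simp [h.a, h.b, e4.symm]
    · rw [if_neg h7]; ring
  · rw [if_neg hij]
    by_cases h8 : SP p i j
    · rcases h8 with ⟨rfl, rfl | rfl | rfl⟩ | ⟨rfl, rfl | rfl⟩ | ⟨rfl, rfl⟩ | ⟨rfl, rfl⟩
      · simp [e1.symm, e2.symm, e3.symm, e4, h.a, h.b]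
        exact ha.symm
      · simp [e1.symm, e2.symm, e3, e4, h.a, h.b, h1]
      · simp [e1, e2, e3, h.a, h.b, h6]
      · simp [e1, e2, e3.symm, h.a.symm, h5]
      · simp [e1, e2, e3, h.b.symm, h4]
      · simp [e1, e2, e2.symm, e3.symm, h.a.symm, h3]
      · simp [e1, e1.symm, e2, e3, h.b.symm, h2]
    · rw [hz i j hij h8]
      have n1 : ¬ (i = ma r ∧ j = Fin.rev p) := fun h7 => h8 (Or.inr (Or.inl ⟨h7.2, Or.inl h7.1⟩))
      have n2 : ¬ (i = mb r ∧ j = Fin.rev p) := fun h7 => h8 (Or.inr (Or.inl ⟨h7.2, Or.inr h7.1⟩))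
      rw [if_neg n1, if_neg n2]
      by_cases h7 : i = p
      · have n3 : j ≠ ma r := fun h9 => h8 (Or.inl ⟨h7, Or.inl h9⟩)
        have n4 : j ≠ mb r := fun h9 => h8 (Or.inl ⟨h7, Or.inr (Or.inl h9)⟩)
        have n5 : j ≠ Fin.rev p := fun h9 => h8 (Or.inl ⟨h7, Or.inr (Or.inr h9)⟩)
        rw [if_pos h7, if_neg n3, if_neg n4, if_neg n5]; ring
      · rw [if_neg h7]; ring

/-- **classification for long roots** -/
lemma long_eq {σ : K ≃+* K} {a b : Fin (2 * r + 1 + 1)} (h : Lg a b) {A : SLm (2 * r + 1) K}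
    (hA : Iso A) (hS : Sem σ A) (hd : ∀ i, A.1 i i = 1)
    (hp : ∀ i j, i ≠ j → A.1 i j ≠ 0 → (i = a ∧ j = b) ∨ (i = Fin.rev b ∧ j = Fin.rev a)) :
    A = xe h (A.1 a b) ∧ σ (A.1 a b) = A.1 a b := by
  have hz : ∀ i j, i ≠ j → ¬ (i = a ∧ j = b) → ¬ (i = Fin.rev b ∧ j = Fin.rev a) →
      A.1 i j = 0 := by
    intro i j hij h1 h2
    by_contra h3
    rcases hp i j hij h3 with h4 | h4
    · exact h1 h4
    · exact h2 h4
  set c := A.1 a b with hc
  have h1 : σ c = c := by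
    have := hS a b
    rw [PP_ne h.a1 h.a2, PP_ne h.b1 h.b2] at this
    exact this.symm
  have h2 : A.1 (Fin.rev b) (Fin.rev a) = -c := by
    have h5 := hA.col b (Fin.rev a)
    rw [Fin.rev_rev, if_neg h.ne.symm, Finset.sum_eq_add a b h.ne] at h5
    · rw [hd, hd, mul_one, one_mul] at h5
      exact (neg_eq_of_add_eq_zero_right h5).symm
    · rintro k - ⟨k1, k2⟩
      rw [hz k b k2 (fun h6 => k1 h6.1) (fun h6 => h.ne' h6.2), zero_mul]
    · exact fun h6 => absurd (Finset.mem_univ _) h6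
    · exact fun h6 => absurd (Finset.mem_univ _) h6
  refine ⟨sl_ext fun i j => ?_, h1⟩
  rw [xe_apply]
  have n1 : ¬ (a = Fin.rev b) := h.symm.ne'
  by_cases hij : i = j
  · subst hij
    rw [hd, if_pos rfl, if_neg (fun h6 => h.ne (h6.1.symm.trans h6.2)),
      if_neg (fun h6 => h.rev.ne (h6.1.symm.trans h6.2)), add_zero, add_zero]
  · rw [if_neg hij]
    by_cases h3 : i = a ∧ j = b
    · rw [if_pos h3, if_neg (fun h6 => n1 (h3.1.symm.trans h6.1)), h3.1, h3.2]
      ring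
    · by_cases h4 : i = Fin.rev b ∧ j = Fin.rev a
      · rw [if_neg h3, if_pos h4, h4.1, h4.2, h2]
        ring
      · rw [if_neg h3, if_neg h4, hz i j hij h3 h4]
        ring

end

end Vale.Agent.P240.R2.H727.O
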