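import Vale.Agent.P240.R2.H727.O5

/-!
Orthogonal groups of minus type: the split BN-pair.
-/

set_option autoImplicit false
set_option linter.all false

namespace Vale.Agent.P240.R2.H727.O

open Subgroup Matrix Vale.Agent.P240.H195 Vale.Agent.P240.R2.H487.CG

section
variable {K : Type*} [Field K] [Finite K] {r : ℕ} {σ : K ≃+* K}

/-- comparison of the images of inversions -/
lemma gp_cmp {w : Equiv.Perm (Fin (2 * r + 1 + 1))} (hw : Gp w) {i : ℕ} {h : i < r}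
    {x y : Fin (2 * r + 1 + 1)} (hxy : x < y) (ht : ts i h y < ts i h x)
    (hn : ¬ (x = ma r ∧ y = mb r)) :
    (w (ix i h) < w (iy i h) → w x < w y) ∧ (w (iy i h) < w (ix i h) → w y < w x) := by
  by_cases hi : i + 1 < r
  · rcases inv1 hi hxy ht with ⟨rfl, rfl⟩ | ⟨rfl, rfl⟩
    · exact ⟨id, id⟩
    · rw [hw.rev, hw.rev, Fin.rev_lt_rev, Fin.rev_lt_rev]
      exact ⟨id, id⟩
  · have hi' : i + 1 = r := by omega
    rw [iy_ma h hi']
    have hsh := hw.sh (ix_sh i h)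
    have ha := hsh.a
    have hb := hsh.b
    rw [Ne, Fin.ext_iff, ma_val] at ha
    rw [Ne, Fin.ext_iff, mb_val] at hb
    have hrv : (w (Fin.rev (ix i h))).val = 2 * r + 1 - (w (ix i h)).val := by
      rw [hw.rev, rv_val]
    have hW := (w (ix i h)).2
    have hmid : ((w (ma r)).val = r ∧ (w (mb r)).val = r + 1) ∨
        ((w (ma r)).val = r + 1 ∧ (w (mb r)).val = r) := by
      rcases hw.mid with ⟨h1, h2⟩ | ⟨h1, h2⟩ <;> rw [h1, h2, ma_val, mb_val]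
      · exact Or.inl ⟨rfl, rfl⟩
      · exact Or.inr ⟨rfl, rfl⟩
    obtain ⟨a1, a2, a3⟩ := inv2 hi' hxy ht
    have vr : (Fin.rev (ix i h) : Fin (2 * r + 1 + 1)).val = i + 3 := by
      rw [rv_val, ix_val]; omega
    have vx : x.val = i ∨ x.val = i + 1 ∨ x.val = i + 2 := by omega
    simp only [Fin.lt_def]
    rcases vx with vx | vx | vx
    · have ex : x = ix i h := Fin.ext vx
      have vy : y.val = i + 1 ∨ y.val = i + 2 ∨ y.val = i + 3 := by omega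
      rcases vy with vy | vy | vy
      · have ey : y = ma r := Fin.ext (by rw [vy, ma_val]; omega)
        rw [ex, ey]
        exact ⟨id, id⟩
      · have ey : y = mb r := Fin.ext (by rw [vy, mb_val]; omega)
        rw [ex, ey]
        constructor <;> intro h1 <;> omega
      · have ey : y = Fin.rev (ix i h) := Fin.ext (by rw [vy, vr])
        rw [ex, ey, hrv]
        constructor <;> intro h1 <;> omega
    · have ex : x = ma r := Fin.ext (by rw [vx, ma_val]; omega)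
      have vy : y.val = i + 2 ∨ y.val = i + 3 := by omega
      rcases vy with vy | vy
      · have ey : y = mb r := Fin.ext (by rw [vy, mb_val]; omega)
        exact absurd ⟨ex, ey⟩ hn
      · have ey : y = Fin.rev (ix i h) := Fin.ext (by rw [vy, vr])
        rw [ex, ey, hrv]
        constructor <;> intro h1 <;> omega
    · have ex : x = mb r := Fin.ext (by rw [vx, mb_val]; omega)
      have ey : y = Fin.rev (ix i h) := Fin.ext (by rw [vr]; omega)
      rw [ex, ey, hrv]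
      constructor <;> intro h1 <;> omega

lemma lo_of_pos {s A : SLm (2 * r + 1) K} {w : Equiv.Perm (Fin (2 * r + 1 + 1))} (hm : Mon s w)
    (hA : ∀ x y, x ≠ y → A.1 x y ≠ 0 → w y < w x) : IsLo (s * A * s⁻¹) := by
  intro a b hab
  obtain ⟨x, rfl⟩ := w.surjective a
  obtain ⟨y, rfl⟩ := w.surjective b
  by_contra hne
  have h1 := (mon_conj_ne hm A x y).1 hne
  have h2 : x ≠ y := by
    rintro rfl
    exact lt_irrefl _ hab
  exact lt_asymm hab (hA x y h2 h1)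

lemma xe_UO {i : ℕ} {h : i < r} (hi : i + 1 < r) {c : K} (hc : σ c = c) :
    xe (ix_lg h hi) c ∈ UO r σ := by
  refine ⟨?_, xe_gm _ hc⟩
  have h1 : (ix i h : Fin (2 * r + 1 + 1)) < iy i h := ix_lt h
  exact mul_mem (S := Subgroup (SLm (2 * r + 1) K)) (s := UU (2 * r + 1) K)
    ⟨tx_up h1 c, tx_diag _ c⟩ ⟨tx_up (Fin.rev_lt_rev.2 h1) _, tx_diag _ _⟩

lemma ix_lt_ma {i : ℕ} (h : i < r) : (ix i h : Fin (2 * r + 1 + 1)) < ma r := by
  rw [Fin.lt_def, ix_val, ma_val]; exact h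

lemma ix_lt_mb {i : ℕ} (h : i < r) : (ix i h : Fin (2 * r + 1 + 1)) < mb r := by
  rw [Fin.lt_def, ix_val, mb_val]; omega

lemma ix_lt_rev {i : ℕ} (h : i < r) : (ix i h : Fin (2 * r + 1 + 1)) < Fin.rev (ix i h) := by
  rw [Fin.lt_def, rv_val, ix_val]; omega

lemma ye_UO (hσ : ∀ x, σ (σ x) = x) {i : ℕ} (h : i < r) (a : K) :
    ye σ (ix_sh i h) a ∈ UO r σ := by
  refine ⟨?_, ye_gm hσ _ _⟩
  have h1 : mb r < Fin.rev (ix i h) := by
    rw [← rev_ma]; exact Fin.rev_lt_rev.2 (ix_lt_ma h)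
  have h2 : ma r < Fin.rev (ix i h) := by
    rw [← rev_mb]; exact Fin.rev_lt_rev.2 (ix_lt_mb h)
  unfold ye
  exact mul_mem (S := Subgroup (SLm (2 * r + 1) K)) (s := UU (2 * r + 1) K)
    ⟨tx_up (ix_lt_ma h) _, tx_diag _ _⟩ (mul_mem ⟨tx_up (ix_lt_mb h) _, tx_diag _ _⟩
      (mul_mem ⟨tx_up (ix_lt_rev h) _, tx_diag _ _⟩ (mul_mem ⟨tx_up h1 _, tx_diag _ _⟩
        ⟨tx_up h2 _, tx_diag _ _⟩)))

lemma xe_XO {s : SLm (2 * r + 1) K} {i : ℕ} {h : i < r} (hm : Mon s (ts i h)) (hi : i + 1 < r)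
    {c : K} (hc : σ c = c) : xe (ix_lg h hi) c ∈ XO r σ s := by
  refine mem_XO.2 ⟨xe_UO hi hc, lo_of_pos hm fun x y hxy hne => ?_⟩
  rw [xe_apply, if_neg hxy, zero_add] at hne
  by_cases h1 : x = ix i h ∧ y = iy i h
  · rw [h1.1, h1.2]
    exact ts_lt h
  · rw [if_neg h1, zero_add] at hne
    by_cases h2 : x = Fin.rev (iy i h) ∧ y = Fin.rev (ix i h)
    · rw [h2.1, h2.2, (ts_gp h).rev, (ts_gp h).rev]
      exact Fin.rev_lt_rev.2 (ts_lt h)
    · exact absurd (if_neg h2) hne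

lemma ye_XO (hσ : ∀ x, σ (σ x) = x) {s : SLm (2 * r + 1) K} {i : ℕ} {h : i < r}
    (hm : Mon s (ts i h)) (hi : i + 1 = r) (a : K) : ye σ (ix_sh i h) a ∈ XO r σ s := by
  refine mem_XO.2 ⟨ye_UO hσ h a, lo_of_pos hm fun x y hxy hne => ?_⟩
  have vr : (Fin.rev (ix i h) : Fin (2 * r + 1 + 1)).val = i + 3 := by
    rw [rv_val, ix_val]; omega
  have tp : (ts i h (ix i h)).val = i + 3 := by rw [ts_val2 h hi, ix_val, if_pos rfl]
  have tr : (ts i h (Fin.rev (ix i h))).val = i := by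
    rw [ts_val2 h hi, vr]; split_ifs <;> omega
  have tma : (ts i h (ma r)).val = i + 2 := by
    rw [ts_val2 h hi, ma_val]; split_ifs <;> omega
  have tmb : (ts i h (mb r)).val = i + 1 := by
    rw [ts_val2 h hi, mb_val]; split_ifs <;> omega
  rw [ye_apply, if_neg hxy, zero_add] at hne
  rw [Fin.lt_def]
  by_cases h1 : x = ma r ∧ y = Fin.rev (ix i h)
  · rw [h1.1, h1.2, tr, tma]; omega
  · rw [if_neg h1, zero_add] at hne
    by_cases h2 : x = mb r ∧ y = Fin.rev (ix i h)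
    · rw [h2.1, h2.2, tr, tmb]; omega
    · rw [if_neg h2, zero_add] at hne
      by_cases h3 : x = ix i h
      · rw [if_pos h3] at hne
        rw [h3, tp]
        by_cases h4 : y = ma r
        · rw [h4, tma]; omega
        · by_cases h5 : y = mb r
          · rw [h5, tmb]; omega
          · by_cases h6 : y = Fin.rev (ix i h)
            · rw [h6, tr]; omega
            · rw [if_neg h4, if_neg h5, if_neg h6] at hne
              exact absurd (by ring) hne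
      · exact absurd (if_neg h3) hne

/-- decomposition of `U` -/
lemma dec_U (hσ : ∀ x, σ (σ x) = x) {s u : SLm (2 * r + 1) K} {i : ℕ} {h : i < r}
    (hs : s ∈ GM r σ) (hm : Mon s (ts i h)) (hu : u ∈ UO r σ) :
    ∃ v ∈ UO r σ, ∃ x ∈ XO r σ s, s * v * s⁻¹ ∈ UO r σ ∧ u = v * x := by
  obtain ⟨x, hx, hxe⟩ : ∃ x ∈ XO r σ s, x.1 (ix i h) (iy i h) = u.1 (ix i h) (iy i h) := by
    by_cases hi : i + 1 < r
    · have hc : σ (u.1 (ix i h) (iy i h)) = u.1 (ix i h) (iy i h) := by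
        have h1 := hu.2.2 (ix i h) (iy i h)
        rw [PP_ne (ix_lg h hi).a1 (ix_lg h hi).a2, PP_ne (ix_lg h hi).b1 (ix_lg h hi).b2] at h1
        exact h1.symm
      refine ⟨_, xe_XO hm hi hc, ?_⟩
      rw [xe_apply, if_neg (ix_lg h hi).ne, if_pos ⟨rfl, rfl⟩, if_neg, zero_add, add_zero]
      exact fun h2 => (ix_lg h hi).symm.ne' h2.1
    · have hi' : i + 1 = r := by omega
      refine ⟨_, ye_XO hσ hm hi' (u.1 (ix i h) (ma r)), ?_⟩
      rw [iy_ma h hi', ye_apply, if_neg (ix_sh i h).a, if_neg (fun h2 => (ix_sh i h).a h2.1),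
        if_neg (fun h2 => (ix_sh i h).b h2.1), if_pos rfl, if_pos rfl, if_neg mab,
        if_neg (ix_sh i h).rev.a.symm]
      ring
  have hv : u * x⁻¹ ∈ UO r σ := mul_mem hu (inv_mem hx.1)
  refine ⟨u * x⁻¹, hv, x, hx, conj_simple hs hm hv ?_, by group⟩
  have h1 := super_mul hu.1 (inv_mem hx.1.1) (jx i h)
  rw [super_inv hx.1.1, jx_cs, jx_sc, hxe, add_neg_cancel] at h1
  exact h1

/-- rank one relation -/
lemma rank_X (hσ : ∀ x, σ (σ x) = x) {s x : SLm (2 * r + 1) K} {i : ℕ} {h : i < r}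
    (hs : s ∈ GM r σ) (hm : Mon s (ts i h)) (hx : x ∈ XO r σ s) (hx1 : x ≠ 1) :
    ∃ u ∈ XO r σ s, Mon (u * ((s * x * s⁻¹) * u)) (ts i h) := by
  have hne : s * x * s⁻¹ ≠ 1 := by
    intro h1
    apply hx1
    have : x = s⁻¹ * (s * x * s⁻¹) * s := by group
    rw [this, h1]; group
  by_cases hi : i + 1 < r
  · obtain ⟨c, hc, he⟩ := XO_lo1 hi hs hm hx
    have hc0 : c ≠ 0 := by
      rintro rfl
      apply hne
      rw [he, xe, neg_zero, tx_zero, tx_zero, one_mul]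
    have h1 : σ (-c⁻¹) = -c⁻¹ := by rw [map_neg, map_inv₀, hc]
    refine ⟨_, xe_XO hm hi h1, ?_⟩
    rw [he, ts, if_pos hi]
    exact xe_rank (ix_lg h hi) hc0
  · have hi' : i + 1 = r := by omega
    obtain ⟨c, he⟩ := XO_lo2 hi' hs hm hx
    have hc0 : c ≠ 0 := by
      rintro rfl
      apply hne
      rw [he, ye, map_zero, neg_zero, zero_mul]
      simp only [tx_zero, mul_one]
    refine ⟨_, ye_XO hσ hm hi' (σ c)⁻¹, ?_⟩
    rw [he, ts, if_neg hi]
    exact ye_rank hσ (ix_sh i h) hc0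

lemma mon_lo {t : SLm (2 * r + 1) K} (ht : Mon t 1) : t ∈ LU (2 * r + 1) K := by
  intro i j hij
  exact mon_eq ht (by rw [Equiv.Perm.one_apply]; exact hij.ne)

lemma one_X (hσ : ∀ x, σ (σ x) = x) {s x : SLm (2 * r + 1) K} {i : ℕ} {h : i < r}
    (hs : s ∈ GM r σ) (hm : Mon s (ts i h)) (hx : x ∈ XO r σ s) (hx1 : x ≠ 1) :
    ∃ b ∈ BO r σ, ∃ z ∈ XO r σ s, s * x = b * (s * z * s⁻¹) := by
  obtain ⟨u, hu, hmu⟩ := rank_X hσ hs hm hx hx1
  set m := u * ((s * x * s⁻¹) * u) with hmdef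
  have hmG : m ∈ GM r σ := mul_mem hu.1.2 (mul_mem (mul_mem (mul_mem hs hx.1.2) (inv_mem hs)) hu.1.2)
  have hms : Mon (m * s) 1 := by
    have := mon_mul hmu hm
    rwa [ts_sq] at this
  have hss : Mon (s * s) 1 := by
    have := mon_mul hm hm
    rwa [ts_sq] at this
  have hss' : Mon (s * s)⁻¹ 1 := by
    have := mon_inv hss
    rwa [inv_one] at this
  have hui := inv_mem hu
  refine ⟨u⁻¹ * (m * s), ⟨mul_mem hui.1.1.1 (mem_T' hms), mul_mem hui.1.2 (mul_mem hmG hs)⟩,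
    (s * s)⁻¹ * u⁻¹ * (s * s)⁻¹⁻¹, mem_XO.2 ⟨?_, ?_⟩, ?_⟩
  · refine conj_uu (inv_mem (mul_mem hs hs)) hss' hui.1.2 hui.1.1.2 fun a b hab hne => ?_
    rw [Equiv.Perm.one_apply, Equiv.Perm.one_apply]
    exact (XO_pos hm hui hab hne).1
  · have e : s * ((s * s)⁻¹ * u⁻¹ * (s * s)⁻¹⁻¹) * s⁻¹ = (s * s)⁻¹ * (s * u⁻¹ * s⁻¹) * (s * s) := by
      group
    rw [e]
    exact mul_mem (mul_mem (mon_lo hss') (mem_LU.2 (mem_XO.1 hui).2)) (mon_lo hss)
  · rw [hmdef]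
    group

lemma pos_X {n s : SLm (2 * r + 1) K} {w : Equiv.Perm (Fin (2 * r + 1 + 1))} {i : ℕ} {h : i < r}
    (hn : n ∈ GM r σ) (hw : Gp w) (hmn : Mon n w) (hs : s ∈ GM r σ) (hm : Mon s (ts i h)) :
    (∀ x ∈ XO r σ s, n⁻¹ * x * n ∈ UO r σ) ∨
      (∀ x ∈ XO r σ s, n⁻¹ * (s * x * s⁻¹) * n ∈ UO r σ) := by
  have hne : w⁻¹ (ix i h) ≠ w⁻¹ (iy i h) := fun h1 => (ix_lt h).ne ((w⁻¹).injective h1)
  rcases lt_or_gt_of_ne hne with hlt | hlt
  · left
    intro x hx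
    have h1 := conj_uu (inv_mem hn) (mon_inv hmn) hx.1.2 hx.1.1.2 (by
      intro a b hab hne
      obtain ⟨h2, h3⟩ := XO_pos hm hx hab hne
      refine (gp_cmp hw.inv h2 h3 ?_).1 hlt
      rintro ⟨rfl, rfl⟩
      exact hne (mid_zero hx.1))
    rwa [inv_inv] at h1
  · right
    intro x hx
    have h1 := conj_uu (mul_mem (inv_mem hn) hs) (mon_mul (mon_inv hmn) hm) hx.1.2 hx.1.1.2 (by
      intro a b hab hne
      obtain ⟨h2, h3⟩ := XO_pos hm hx hab hne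
      rw [Equiv.Perm.mul_apply, Equiv.Perm.mul_apply]
      refine (gp_cmp (h := h) hw.inv h3 (by rw [ts_ts, ts_ts]; exact h2) ?_).2 hlt
      rintro ⟨h4, h5⟩
      have h6 : b = ts i h (ma r) := by rw [← h4, ts_ts]
      have h7 : a = ts i h (mb r) := by rw [← h5, ts_ts]
      rcases (ts_gp h).mid with ⟨h8, h9⟩ | ⟨h8, h9⟩
      · rw [h8] at h6
        rw [h9] at h7
        rw [h6, h7, Fin.lt_def, ma_val, mb_val] at h2
        omega
      · rw [h8] at h6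
        rw [h9] at h7
        rw [h6, h7] at hne
        exact hne (mid_zero hx.1))
    have e : n⁻¹ * s * x * (n⁻¹ * s)⁻¹ = n⁻¹ * (s * x * s⁻¹) * n := by group
    rwa [e] at h1

lemma BO_T {t : SLm (2 * r + 1) K} (ht : t ∈ BO r σ) (htN : t ∈ NO r σ) : Mon t 1 := by
  obtain ⟨-, w, -, hm⟩ := htN
  exact mem_T.1 (mem_inf.2 ⟨ht.1, w, hm⟩)

lemma T_mem {t : SLm (2 * r + 1) K} (ht : t ∈ GM r σ) (hm : Mon t 1) :
    t ∈ BO r σ ⊓ NO r σ := mem_inf.2 ⟨⟨mem_T' hm, ht⟩, ht, 1, Gp.one, hm⟩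

lemma span_N (hσ : ∀ x, σ (σ x) = x) :
    NO r σ = closure (SS' r σ) ⊔ (BO r σ ⊓ NO r σ) := by
  apply le_antisymm
  · rintro n ⟨hn, w, hw, hm⟩
    refine gp_ind (Q := fun w => ∀ n ∈ GM r σ, Mon n w →
      n ∈ closure (SS' r σ) ⊔ (BO r σ ⊓ NO r σ)) ?_ ?_ w hw n hn hm
    · intro n hn hm
      exact mem_sup_right (T_mem hn hm)
    · intro w i h hw ih n hn hm
      obtain ⟨s, hs, hms⟩ := ts_mon hσ h
      have h1 := ih (n * s) (mul_mem hn hs) (mon_mul hm hms)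
      have h2 : s ∈ closure (SS' r σ) ⊔ (BO r σ ⊓ NO r σ) :=
        mem_sup_left (subset_closure ⟨hs, i, h, hms⟩)
      have := mul_mem h1 (inv_mem h2)
      rwa [mul_assoc, mul_inv_cancel, mul_one] at this
  · refine sup_le ((closure_le _).2 ?_) inf_le_right
    rintro s ⟨hs, i, h, hm⟩
    exact ⟨hs, _, ts_gp h, hm⟩

lemma split_B {b : SLm (2 * r + 1) K} (hb : b ∈ BO r σ) :
    ∃ u ∈ UO r σ, ∃ t ∈ BO r σ, t ∈ NO r σ ∧ b = u * t := by
  have hdet : (Matrix.diagonal fun i => b.1 i i).det = 1 := by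
    rw [Matrix.det_diagonal]
    have h1 : b.1.det = ∏ i, b.1 i i :=
      Matrix.det_of_isUpperTriangular fun i j hij => hb.1 i j hij
    rw [← h1]
    exact b.2
  obtain ⟨t, ht⟩ : ∃ t : SLm (2 * r + 1) K, t.1 = Matrix.diagonal fun i => b.1 i i :=
    ⟨⟨_, hdet⟩, rfl⟩
  have hte : ∀ i j, t.1 i j = if i = j then b.1 i i else 0 := fun i j => by
    rw [ht, Matrix.diagonal_apply]
  have hrev : ∀ i, b.1 i i * b.1 (Fin.rev i) (Fin.rev i) = 1 := by
    intro i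
    rw [← Iso.inv_apply hb.2.1, up_inv_diag hb.1, mul_inv_cancel₀ (up_diag_ne hb.1 i)]
  have htG : t ∈ GM r σ := by
    refine ⟨fun v => ?_, fun i j => ?_⟩
    · rw [Qd, Qd]
      refine Finset.sum_congr rfl fun i _ => ?_
      rw [ht, Matrix.mulVec_diagonal, Matrix.mulVec_diagonal]
      linear_combination (v i * v (Fin.rev i)) * hrev i
    · rw [hte, hte]
      by_cases hij : i = j
      · subst hij
        rw [if_pos rfl, if_pos rfl, hb.2.2]
      · rw [if_neg hij, if_neg (fun h1 => hij ((PP r).injective h1)), map_zero]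
  have htM : Mon t 1 := by
    intro i j hij
    rw [hte] at hij
    by_contra hne
    exact hij (if_neg hne)
  have h1 := mem_inf.1 (T_mem htG htM)
  have hti : t⁻¹ ∈ BO r σ := inv_mem h1.1
  refine ⟨b * t⁻¹, ⟨⟨up_mul hb.1 hti.1, fun i => ?_⟩, mul_mem hb.2 hti.2⟩, t, h1.1, h1.2,
    by group⟩
  rw [up_mul_diag hb.1 hti.1, up_inv_diag h1.1.1, hte, if_pos rfl,
    mul_inv_cancel₀ (up_diag_ne hb.1 i)]

/-- **The BN-pair.** -/
theorem gm_BN0 (hσ : ∀ x, σ (σ x) = x) : BN0 (BO r σ) (NO r σ) (SS' r σ) := by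
  refine bn0_of_root (U := UO r σ) (XO r σ) ?_ ?_ (span_N hσ) ?_ (fun x hx => ⟨hx.1.1, hx.2⟩)
    (fun b hb => split_B hb) ?_ ?_ ?_ ?_
  · rintro n ⟨hn, w, hw, hm⟩ t ht htN
    have h1 := mon_mul (mon_mul hm (BO_T ht htN)) (mon_inv hm)
    rw [mul_one, mul_inv_cancel] at h1
    exact (mem_inf.1 (T_mem (mul_mem (mul_mem hn ht.2) (inv_mem hn)) h1)).1
  · rintro s ⟨hs, i, h, hm⟩
    exact ⟨hs, _, ts_gp h, hm⟩
  · rintro s ⟨hs, i, h, hm⟩
    have h1 := mon_mul hm hm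
    rw [ts_sq] at h1
    exact (mem_inf.1 (T_mem (mul_mem hs hs) h1)).1
  · rintro s ⟨hs, i, h, hm⟩ u hu
    exact dec_U hσ hs hm hu
  · rintro s ⟨hs, i, h, hm⟩ x hx hx1
    exact one_X hσ hs hm hx hx1
  · rintro n ⟨hn, w, hw, hmn⟩ s ⟨hs, i, h, hm⟩
    exact pos_X hn hw hmn hs hm
  · rintro s ⟨hs, i, h, hm⟩
    obtain ⟨b, hb, hbe⟩ : ∃ b ∈ UO r σ, b.1 (ix i h) (iy i h) ≠ 0 := by
      by_cases hi : i + 1 < r
      · refine ⟨_, xe_UO (h := h) hi (map_one σ), ?_⟩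
        rw [xe_apply, if_neg (ix_lg h hi).ne, if_pos ⟨rfl, rfl⟩, if_neg, zero_add, add_zero]
        · exact one_ne_zero
        · exact fun h2 => (ix_lg h hi).symm.ne' h2.1
      · have hi' : i + 1 = r := by omega
        refine ⟨_, ye_UO hσ h 1, ?_⟩
        rw [iy_ma h hi', ye_apply, if_neg (ix_sh i h).a, if_neg (fun h2 => (ix_sh i h).a h2.1),
          if_neg (fun h2 => (ix_sh i h).b h2.1), if_pos rfl, if_pos rfl, if_neg mab,
          if_neg (ix_sh i h).rev.a.symm]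
        simp
    refine ⟨b, ⟨hb.1.1, hb.2⟩, fun hcon => ?_⟩
    have hm' : Mon s⁻¹ (ts i h) := by
      have := mon_inv hm
      rwa [ts_inv] at this
    have h1 := (mon_conj_ne hm' b (ix i h) (iy i h)).2 hbe
    rw [inv_inv] at h1
    exact h1 (hcon.1 _ _ (ts_lt h))

/-- the subgroup generated by the upper triangular and the even monomial elements -/
abbrev EO (r : ℕ) (σ : K ≃+* K) : Subgroup (SLm (2 * r + 1) K) := BO r σ ⊔ NO r σ

/-- **The split BN-pair.** -/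
theorem eo_SB {p : ℕ} [hp : Fact p.Prime] [CharP K p] (hr : 0 < r) (hσ : ∀ x, σ (σ x) = x) :
    SB p ((BO r σ).subgroupOf (EO r σ)) ((NO r σ).subgroupOf (EO r σ))
      ((UO r σ).subgroupOf (EO r σ)) {s : ↥(EO r σ) | (s : SLm (2 * r + 1) K) ∈ SS' r σ} := by
  refine sb_gen (gm_BN0 hσ) (fun x hx => ⟨hx.1.1, hx.2⟩) ?_ ?_ (fun b hb => split_B hb) ?_ ?_ ?_ ?_
  · rintro ⟨x, hx⟩
    obtain ⟨k, hk⟩ := uu_pow (p := p) hx.1
    exact ⟨k, Subtype.ext hk⟩
  · intro b hb u hu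
    exact ⟨(sl_SB (p := p) (F := K) (m := 2 * r + 1) (by omega)).normal b hb.1 u hu.1,
      (GM r σ).mul_mem ((GM r σ).mul_mem hb.2 hu.2) ((GM r σ).inv_mem hb.2)⟩
  · intro hdvd
    refine (sl_SB (p := p) (F := K) (m := 2 * r + 1) (by omega)).coprime (hdvd.trans
      (Subgroup.card_dvd_of_le ?_))
    rintro x ⟨hx, hx'⟩
    exact mem_T.2 (BO_T hx hx')
  · rintro s ⟨hs, i, h, hm⟩ x hx hsx u hu
    have h0 := simple_zero hm hsx
    refine conj_simple hs hm (mul_mem (mul_mem hu hx) (inv_mem hu)) ?_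
    have h1 := super_mul (mul_mem hu.1 hx.1) (inv_mem hu.1) (jx i h)
    rw [super_mul hu.1 hx.1, super_inv hu.1, jx_cs, jx_sc, h0] at h1
    have h2 : (u * x * u⁻¹).1 (ix i h) (iy i h) = 0 := by
      rw [h1]; ring
    exact h2
  · obtain ⟨n, hn, hm⟩ := exists_NO hσ (w0_gp (r := r))
    refine ⟨n, ⟨hn, _, w0_gp, hm⟩, fun x hx hnx => sl_ext fun i j => ?_⟩
    rw [sl_one]
    rcases lt_trichotomy i j with h1 | h1 | h1
    · rw [if_neg h1.ne]
      by_cases h3 : i = ma r ∧ j = mb r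
      · rw [h3.1, h3.2]
        exact mid_zero hx
      · by_contra hne
        exact (mon_conj_ne hm x i j).2 hne (hnx.1.1 _ _ (w0_lt h1 h3))
    · rw [h1, if_pos rfl, hx.1.2]
    · rw [if_neg h1.ne', hx.1.1 i j h1]
  · obtain ⟨s, hs, hm⟩ := ts_mon hσ (i := 0) hr
    exact ⟨s, hs, 0, hr, hm⟩

end

end Vale.Agent.P240.R2.H727.O
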