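import Vale.Agent.P240.R2.H727.O6
import Vale.Agent.P240.R2.H38.T2

/-!
Orthogonal groups of minus type: the subgroup `EO` has index at most two.
-/

set_option autoImplicit false
set_option linter.all false

namespace Vale.Agent.P240.R2.H727.O

open Subgroup Matrix Vale.Agent.P240.H195 Vale.Agent.P240.R2.H487.CG

section
variable {K : Type*} [Field K] [Finite K] {r : ℕ} {σ : K ≃+* K}

lemma GM_le_of_upper {A : SLm (2 * r + 1) K} (hA : A ∈ GM r σ) (hd : ∀ i, A.1 i i = 1)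
    (hz : ∀ x y, x ≠ y → A.1 x y ≠ 0 → x < y) : A ∈ EO r σ := by
  have h1 := conj_uu (one_mem _) mon_one hA hd hz
  rw [one_mul, inv_one, mul_one] at h1
  exact mem_sup_left ⟨h1.1.1, h1.2⟩

lemma GM_le_of_lower (hσ : ∀ x, σ (σ x) = x) {A : SLm (2 * r + 1) K} (hA : A ∈ GM r σ)
    (hd : ∀ i, A.1 i i = 1) (hz : ∀ x y, x ≠ y → A.1 x y ≠ 0 → y < x)
    (hm : A.1 (mb r) (ma r) = 0) : A ∈ EO r σ := by
  obtain ⟨n, hn, hmn⟩ := exists_NO (K := K) hσ (w0_gp (r := r))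
  have h1 := conj_uu hn hmn hA hd (by
    intro x y hxy hne
    refine w0_lt (hz x y hxy hne) ?_
    rintro ⟨rfl, rfl⟩
    exact hne hm)
  have h2 : n * A * n⁻¹ ∈ EO r σ := mem_sup_left ⟨h1.1.1, h1.2⟩
  have h3 : n ∈ EO r σ := mem_sup_right ⟨hn, _, w0_gp, hmn⟩
  have e : A = n⁻¹ * (n * A * n⁻¹) * n := by group
  rw [e]
  exact mul_mem (mul_mem (inv_mem h3) h2) h3

lemma xe_EO (hσ : ∀ x, σ (σ x) = x) {a b : Fin (2 * r + 1 + 1)} (h : Lg a b) {c : K}
    (hc : σ c = c) : xe h c ∈ EO r σ := by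
  have hd : ∀ i, (xe h c).1 i i = 1 := by
    intro i
    rw [xe_apply, if_pos rfl, if_neg (fun h1 => h.ne (h1.1.symm.trans h1.2)),
      if_neg (fun h1 => h.rev.ne (h1.1.symm.trans h1.2)), add_zero, add_zero]
  have hp : ∀ x y, x ≠ y → (xe h c).1 x y ≠ 0 → (x = a ∧ y = b) ∨
      (x = Fin.rev b ∧ y = Fin.rev a) := by
    intro x y hxy hne
    by_contra hcon
    push Not at hcon
    rw [xe_apply, if_neg hxy, if_neg (fun h1 => hcon.1 h1.1 h1.2),
      if_neg (fun h1 => hcon.2 h1.1 h1.2), add_zero, add_zero] at hne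
    exact hne rfl
  rcases lt_or_gt_of_ne h.ne with hlt | hlt
  · refine GM_le_of_upper (xe_gm h hc) hd fun x y hxy hne => ?_
    rcases hp x y hxy hne with ⟨rfl, rfl⟩ | ⟨rfl, rfl⟩
    · exact hlt
    · exact Fin.rev_lt_rev.2 hlt
  · refine GM_le_of_lower hσ (xe_gm h hc) hd (fun x y hxy hne => ?_) ?_
    · rcases hp x y hxy hne with ⟨rfl, rfl⟩ | ⟨rfl, rfl⟩
      · exact hlt
      · exact Fin.rev_lt_rev.2 hlt
    · by_contra hne
      rcases hp _ _ mab.symm hne with ⟨h1, h2⟩ | ⟨h1, h2⟩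
      · exact h.a2 h1.symm
      · exact h.b1 (by rw [← Fin.rev_rev b, ← h1, rev_mb])

lemma ye_EO (hσ : ∀ x, σ (σ x) = x) {p : Fin (2 * r + 1 + 1)} (h : Sh p) (a : K) :
    ye σ h a ∈ EO r σ := by
  have e1 : Fin.rev p ≠ ma r := h.rev.a
  have e2 : Fin.rev p ≠ mb r := h.rev.b
  have hd : ∀ i, (ye σ h a).1 i i = 1 := by
    intro i
    rw [ye_apply, if_pos rfl, if_neg (fun h1 => e1 (h1.2.symm.trans h1.1)),
      if_neg (fun h1 => e2 (h1.2.symm.trans h1.1))]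
    by_cases h1 : i = p
    · subst h1
      rw [if_pos rfl, if_neg h.a, if_neg h.b, if_neg (rev_ne_self i).symm]
      ring
    · rw [if_neg h1]
      ring
  have hp : ∀ x y, x ≠ y → (ye σ h a).1 x y ≠ 0 →
      (x = p ∧ (y = ma r ∨ y = mb r ∨ y = Fin.rev p)) ∨
      (y = Fin.rev p ∧ (x = ma r ∨ x = mb r)) := by
    intro x y hxy hne
    by_contra hcon
    push Not at hcon
    have n1 : ¬ (x = ma r ∧ y = Fin.rev p) := fun h7 => (hcon.2 h7.2).1 h7.1
    have n2 : ¬ (x = mb r ∧ y = Fin.rev p) := fun h7 => (hcon.2 h7.2).2 h7.1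
    rw [ye_apply, if_neg hxy, if_neg n1, if_neg n2] at hne
    by_cases h7 : x = p
    · obtain ⟨n3, n4, n5⟩ := hcon.1 h7
      rw [if_pos h7, if_neg n3, if_neg n4, if_neg n5] at hne
      exact hne (by ring)
    · rw [if_neg h7] at hne
      exact hne (by ring)
  have hval : p.val < r ∨ r + 1 < p.val := by
    have h1 := h.a
    have h2 := h.b
    rw [Ne, Fin.ext_iff, ma_val] at h1
    rw [Ne, Fin.ext_iff, mb_val] at h2
    omega
  have hp2 := p.2
  rcases hval with hlt | hlt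
  · refine GM_le_of_upper (ye_gm hσ h a) hd fun x y hxy hne => ?_
    rw [Fin.lt_def]
    rcases hp x y hxy hne with ⟨rfl, rfl | rfl | rfl⟩ | ⟨rfl, rfl | rfl⟩ <;>
      simp only [ma_val, mb_val, rv_val] <;> omega
  · refine GM_le_of_lower hσ (ye_gm hσ h a) hd (fun x y hxy hne => ?_) ?_
    · rw [Fin.lt_def]
      rcases hp x y hxy hne with ⟨rfl, rfl | rfl | rfl⟩ | ⟨rfl, rfl | rfl⟩ <;>
        simp only [ma_val, mb_val, rv_val] <;> omega
    · by_contra hne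
      rcases hp _ _ mab.symm hne with ⟨h1, -⟩ | ⟨h1, -⟩
      · exact h.b h1.symm
      · exact e1 h1.symm

lemma EO_le : EO r σ ≤ GM r σ := sup_le (fun _ h => h.2) (fun _ h => h.1)

lemma ER_le_EO (hσ : ∀ x, σ (σ x) = x) : H38.TT.ER r σ ≤ EO r σ := by
  unfold H38.TT.ER
  rw [closure_le]
  rintro x hx
  rcases hx with ⟨a, b, h, c, hc, rfl⟩ | ⟨p, h, a, rfl⟩
  · exact xe_EO hσ h hc
  · exact ye_EO hσ h a

lemma mem_or (hσ : ∀ x, σ (σ x) = x) {A : SLm (2 * r + 1) K} (hA : A ∈ GM r σ) :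
    A ∈ EO r σ ∨ ∃ e ∈ EO r σ, ∃ n ∈ GM r σ, Mon n (PP r) ∧ A = e * n := by
  obtain ⟨e, he, n, hn, hm | hm, rfl⟩ := H38.TT.elimT hσ hA
  · exact Or.inl (mul_mem (ER_le_EO hσ he) (mem_sup_left (mem_inf.1 (T_mem hn hm)).1))
  · exact Or.inr ⟨e, ER_le_EO hσ he, n, hn, hm, rfl⟩

/-- `EO` has index at most two in `GM` -/
lemma idx_two (hσ : ∀ x, σ (σ x) = x) {A B : SLm (2 * r + 1) K} (hA : A ∈ GM r σ)
    (hB : B ∈ GM r σ) (hA' : A ∉ EO r σ) (hB' : B ∉ EO r σ) : A * B⁻¹ ∈ EO r σ := by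
  obtain ⟨e, he, n, hn, hm, rfl⟩ := (mem_or hσ hA).resolve_left hA'
  obtain ⟨f, hf, n', hn', hm', rfl⟩ := (mem_or hσ hB).resolve_left hB'
  have h1 : Mon (n * n'⁻¹) 1 := by
    have := mon_mul hm (mon_inv hm')
    rwa [mul_inv_cancel] at this
  have e1 : e * n * (f * n')⁻¹ = e * (n * n'⁻¹) * f⁻¹ := by group
  rw [e1]
  exact mul_mem (mul_mem he (mem_sup_left (mem_inf.1
    (T_mem (mul_mem hn (inv_mem hn')) h1)).1)) (inv_mem hf)

open scoped commutatorElement in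
/-- commutators lie in `EO` -/
theorem comm_le (hσ : ∀ x, σ (σ x) = x) : ⁅GM r σ, GM r σ⁆ ≤ EO r σ := by
  rw [Subgroup.commutator_le]
  intro a ha b hb
  rw [commutatorElement_def]
  by_cases h1 : a ∈ EO r σ
  · by_cases h2 : b ∈ EO r σ
    · exact mul_mem (mul_mem (mul_mem h1 h2) (inv_mem h1)) (inv_mem h2)
    · have h3 : b * a⁻¹ ∉ EO r σ := fun h => h2 (by
        have := mul_mem h h1
        rwa [inv_mul_cancel_right] at this)
      have h4 := idx_two hσ (mul_mem hb (inv_mem ha)) hb h3 h2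
      have e : a * b * a⁻¹ * b⁻¹ = a * (b * a⁻¹ * b⁻¹) := by group
      rw [e]
      exact mul_mem h1 h4
  · by_cases h2 : b ∈ EO r σ
    · have h3 : a * b ∉ EO r σ := fun h => h1 (by
        have := mul_mem h (inv_mem h2)
        rwa [mul_inv_cancel_right] at this)
      exact mul_mem (idx_two hσ (mul_mem ha hb) ha h3 h1) (inv_mem h2)
    · have hai : a⁻¹ ∉ EO r σ := fun h => h1 (by
        have := inv_mem h
        rwa [inv_inv] at this)
      have hbi : b⁻¹ ∉ EO r σ := fun h => h2 (by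
        have := inv_mem h
        rwa [inv_inv] at this)
      have h3 := idx_two hσ ha (inv_mem hb) h1 hbi
      rw [inv_inv] at h3
      have h4 := idx_two hσ (inv_mem ha) hb hai h2
      have e : a * b * a⁻¹ * b⁻¹ = (a * b) * (a⁻¹ * b⁻¹) := by group
      rw [e]
      exact mul_mem h3 h4

end

end Vale.Agent.P240.R2.H727.O
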