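import Vale.Agent.P240.R2.H727.O8
import Vale.Agent.P240.R2.H487.SubBN
import Vale.Agent.P240.R2.H296.BNres

/-!
Orthogonal groups of minus type: the split BN-pair of the commutator subgroup.
-/

set_option autoImplicit false
set_option linter.all false

namespace Vale.Agent.P240.R2.H727.O

open Subgroup Matrix Vale.Agent.P240.H195 Vale.Agent.P240.R2.H487.CG

open scoped commutatorElement

section
variable {K : Type*} [Field K] [Finite K] {r : ℕ} {σ : K ≃+* K}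

/-- The commutator subgroup of the group `GM r σ` of isometries, as a subgroup of `SL`. -/
abbrev CM (r : ℕ) (σ : K ≃+* K) : Subgroup (SLm (2 * r + 1) K) := ⁅GM r σ, GM r σ⁆

lemma CM_le_GM : CM r σ ≤ GM r σ := Subgroup.commutator_le_self _

/-- monomial elements of the commutator subgroup -/
abbrev NC (r : ℕ) (σ : K ≃+* K) : Subgroup ↥(CM r σ) := (NO r σ).subgroupOf (CM r σ)

/-- simple reflections of the commutator subgroup -/
def SC (r : ℕ) (σ : K ≃+* K) : Set ↥(CM r σ) :=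
  {s | ∃ (i : ℕ) (h : i < r), Mon s.1 (ts i h)}

lemma CM_normal (hσ : ∀ x, σ (σ x) = x) : ((CM r σ).subgroupOf (EO r σ)).Normal := by
  refine ⟨fun d hd g => ?_⟩
  exact comm_conj (EO_le g.2) hd

/-- the identification of the nested subgroup -/
def eC (r : ℕ) (σ : K ≃+* K) : ↥((CM r σ).subgroupOf (EO r σ)) →* ↥(CM r σ) where
  toFun x := ⟨x.1.1, x.2⟩
  map_one' := rfl
  map_mul' _ _ := rfl

lemma eC_surj (hσ : ∀ x, σ (σ x) = x) : Function.Surjective (eC r σ) := by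
  intro x
  exact ⟨⟨⟨x.1, comm_le hσ x.2⟩, x.2⟩, rfl⟩

lemma eC_ker (H : Subgroup ↥((CM r σ).subgroupOf (EO r σ))) : (eC r σ).ker ≤ H := by
  intro x hx
  have h1 : (eC r σ x).1 = 1 := by rw [MonoidHom.mem_ker.1 hx]; rfl
  have h2 : x = 1 := Subtype.ext (Subtype.ext h1)
  rw [h2]
  exact one_mem _

lemma map_eC (hσ : ∀ x, σ (σ x) = x) {H H' : Subgroup (SLm (2 * r + 1) K)}
    (h1 : ∀ x ∈ CM r σ, x ∈ H ↔ x ∈ H') :
    (((H.subgroupOf (EO r σ)).subgroupOf ((CM r σ).subgroupOf (EO r σ))).map (eC r σ)) =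
      H'.subgroupOf (CM r σ) := by
  ext x
  constructor
  · rintro ⟨y, hy, rfl⟩
    exact (h1 _ y.2).1 hy
  · intro hx
    exact ⟨⟨⟨x.1, comm_le hσ x.2⟩, x.2⟩, (h1 _ x.2).2 hx, rfl⟩

lemma map_SC (hσ : ∀ x, σ (σ x) = x) :
    (eC r σ) '' (H487.CG.subS ((BO r σ).subgroupOf (EO r σ)) ((NO r σ).subgroupOf (EO r σ))
      {s : ↥(EO r σ) | (s : SLm (2 * r + 1) K) ∈ SS' r σ} ((CM r σ).subgroupOf (EO r σ))) =
      SC r σ := by
  ext x
  constructor
  · rintro ⟨s, ⟨hsN, a, ⟨haG, i, h, hm⟩, has⟩, rfl⟩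
    refine ⟨i, h, ?_⟩
    have hsN' : s.1.1 ∈ NO r σ := hsN
    have has' : a.1⁻¹ * s.1.1 ∈ BO r σ := has
    have haN : a.1 ∈ NO r σ := ⟨haG, _, ts_gp h, hm⟩
    have h1 := BO_T has' (mul_mem (inv_mem haN) hsN')
    have h2 := mon_mul hm h1
    rw [mul_one] at h2
    have e : a.1 * (a.1⁻¹ * s.1.1) = s.1.1 := by group
    rw [e] at h2
    exact h2
  · rintro ⟨i, h, hm⟩
    have hG : x.1 ∈ GM r σ := CM_le_GM x.2
    refine ⟨⟨⟨x.1, comm_le hσ x.2⟩, x.2⟩, ⟨⟨hG, _, ts_gp h, hm⟩, ⟨x.1, comm_le hσ x.2⟩,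
      ⟨hG, i, h, hm⟩, ?_⟩, rfl⟩
    rw [inv_mul_cancel]
    first | done | exact one_mem _

lemma map_B (hσ : ∀ x, σ (σ x) = x) :
    ((((BO r σ).subgroupOf (EO r σ)).subgroupOf ((CM r σ).subgroupOf (EO r σ))).map (eC r σ)) =
      (BU (2 * r + 1) K).subgroupOf (CM r σ) := by
  refine map_eC (H := BO r σ) (H' := BU (2 * r + 1) K) hσ fun x hx => ?_
  exact ⟨fun h => (mem_inf.1 h).1, fun h => mem_inf.2 ⟨h, CM_le_GM hx⟩⟩

lemma map_U (hσ : ∀ x, σ (σ x) = x) :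
    ((((UO r σ).subgroupOf (EO r σ)).subgroupOf ((CM r σ).subgroupOf (EO r σ))).map (eC r σ)) =
      (UU (2 * r + 1) K).subgroupOf (CM r σ) := by
  refine map_eC (H := UO r σ) (H' := UU (2 * r + 1) K) hσ fun x hx => ?_
  exact ⟨fun h => (mem_inf.1 h).1, fun h => mem_inf.2 ⟨h, CM_le_GM hx⟩⟩

lemma map_N (hσ : ∀ x, σ (σ x) = x) :
    ((((NO r σ).subgroupOf (EO r σ)).subgroupOf ((CM r σ).subgroupOf (EO r σ))).map (eC r σ)) =
      NC r σ :=
  map_eC (H := NO r σ) (H' := NO r σ) hσ fun x hx => Iff.rfl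

/-- **The split BN-pair of the commutator subgroup.** -/
theorem cm_SB {p : ℕ} [hp : Fact p.Prime] [CharP K p] (hr : 0 < r) (hσ : ∀ x, σ (σ x) = x)
    (hne : ∃ x, σ x ≠ x) :
    SB p ((BU (2 * r + 1) K).subgroupOf (CM r σ)) (NC r σ) ((UU (2 * r + 1) K).subgroupOf (CM r σ))
      (SC r σ) := by
  haveI := CM_normal (r := r) hσ
  have h1 := H487.CG.SB.subgroup (eo_SB (p := p) hr hσ) (H := (CM r σ).subgroupOf (EO r σ))
    (fun x hx => UO_le_comm hσ hne hx)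
  have h2 := H296.BNres.sb_map hp.out h1 (eC_surj hσ) (eC_ker _) (eC_ker _)
  rw [map_SC hσ, map_B hσ, map_N hσ, map_U hσ] at h2
  exact h2

/-- **The split BN-pair of the commutator subgroup with connected diagram.** -/
theorem cm_Split {p : ℕ} [hp : Fact p.Prime] [CharP K p] (hσ : ∀ x, σ (σ x) = x)
    (hne : ∃ x, σ x ≠ x)
    (h0 : SplitBN p ((BO r σ).subgroupOf (EO r σ)) ((NO r σ).subgroupOf (EO r σ))
      ((UO r σ).subgroupOf (EO r σ)) {s : ↥(EO r σ) | (s : SLm (2 * r + 1) K) ∈ SS' r σ}) :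
    SplitBN p ((BU (2 * r + 1) K).subgroupOf (CM r σ)) (NC r σ)
      ((UU (2 * r + 1) K).subgroupOf (CM r σ)) (SC r σ) := by
  haveI := CM_normal (r := r) hσ
  have h1 := H487.CG.SplitBN.subgroup h0 (H := (CM r σ).subgroupOf (EO r σ))
    (fun x hx => UO_le_comm hσ hne hx)
  have h2 := H296.BNres.split_map hp.out h1 (eC_surj hσ) (eC_ker _) (eC_ker _)
  rw [map_SC hσ, map_B hσ, map_N hσ, map_U hσ] at h2
  exact h2

end

end Vale.Agent.P240.R2.H727.O
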