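import Vale.Agent.P240.R2.H997.NoOut

/-!
Simple groups with a split BN-pair: automorphisms of order `p`, up to the torus; additive maps of
quadratic extensions of prime fields.
-/

set_option autoImplicit false
set_option linter.all false

namespace Vale.Agent.P240.R2.H727.P

open Subgroup Vale.Agent.P240.K Vale.Agent.P240.H195 Vale.Agent.P240.R2.H997

universe u

section
variable {L : Type u} [Group L] {B N U : Subgroup L} {S : Set L} {r : ℕ}

/-- elements of `B` and of the opposite chamber -/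
lemma mem_N_of_opp [Finite L] (h : SB r B N U S) (hr : r.Prime) {n₀ : L} (hn₀ : n₀ ∈ N)
    (hopp : ∀ x ∈ U, n₀ * x * n₀⁻¹ ∈ U → x = 1) {b : L} (hb : b ∈ B) (hb' : n₀⁻¹ * b * n₀ ∈ B) :
    b ∈ N := by
  obtain ⟨u, hu, t, htB, htN, rfl⟩ := h.split b hb
  have h1 : n₀⁻¹ * u * n₀ ∈ B := by
    have e : n₀⁻¹ * u * n₀ = (n₀⁻¹ * (u * t) * n₀) * (n₀⁻¹ * t * n₀)⁻¹ := by group
    rw [e]
    exact mul_mem hb' (inv_mem (h.norm' hn₀ htB htN))
  have h2 := h.conj_U' hr hu h1
  have h3 := hopp _ h2 (by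
    have e : n₀ * (n₀⁻¹ * u * n₀) * n₀⁻¹ = u := by group
    rwa [e])
  have h4 : u = 1 := by
    have e : u = n₀ * (n₀⁻¹ * u * n₀) * n₀⁻¹ := by group
    rw [e, h3]
    group
  rw [h4, one_mul]
  exact htN

/-- all automorphisms of order `p` are inner, if the automorphisms of `p`-power order that stabilize
`B` and an opposite chamber act on the opposite root subgroups like an element of the torus -/
theorem noOutT (h : SB r B N U S) [Finite L] (hsimple : IsSimpleGroup L) (hr : r.Prime) {p : ℕ}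
    (hp : p.Prime) (hpr : p ≠ r)
    (h1 : ∀ e : MulAut L, (∃ k, e ^ p ^ k = 1) → am e B = B → ∀ s ∈ S, am e (Par B s) = Par B s)
    (h2 : ∀ n₀ ∈ N, (∀ x ∈ U, n₀ * x * n₀⁻¹ ∈ U → x = 1) → ∀ e : MulAut L, (∃ k, e ^ p ^ k = 1) →
      am e B = B → am e (cj n₀ B) = cj n₀ B → (∀ s ∈ S, am e (Par B s) = Par B s) →
      ∃ t ∈ B, t ∈ N ∧ ∀ s ∈ S, ∀ y ∈ Par B s, n₀⁻¹ * y * n₀ ∈ U → t * e y * t⁻¹ = y)
    {f : MulAut L} (hf : f ^ p = 1) : f ∈ (MulAut.conj (G := L)).range := by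
  obtain ⟨n₀, ⟨hn₀, hlg⟩, hopp⟩ := h.exists_opp hr
  by_contra hfI
  have hnI : (MulAut.conj (G := L)).range.Normal := normal_conj
  obtain ⟨g, hg⟩ := h.exists_conj hr f
  set I := (MulAut.conj (G := L)).range with hI
  have hgI : MulAut.conj g ∈ I := ⟨g, rfl⟩
  obtain ⟨e₀, he₀⟩ : ∃ e₀, e₀ = (MulAut.conj g)⁻¹ * f := ⟨_, rfl⟩
  have he₀B : am e₀ B = B := by
    have e1 : (MulAut.conj g)⁻¹ = MulAut.conj g⁻¹ := (map_inv _ _).symm
    rw [he₀, am_mul, hg, e1, am_conj, ← cj_mul, inv_mul_cancel, cj_one]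
  have he₀I : e₀ ∉ I := by
    intro hc
    apply hfI
    have : f = MulAut.conj g * e₀ := by rw [he₀, mul_inv_cancel_left]
    rw [this]
    exact mul_mem hgI hc
  have he₀p : e₀ ^ p ∈ I := by
    rw [← QuotientGroup.eq_one_iff (N := I)]
    have h3 : ((e₀ : MulAut L) : MulAut L ⧸ I) = (f : MulAut L ⧸ I) := by
      rw [he₀, QuotientGroup.mk_mul, QuotientGroup.mk_inv, (QuotientGroup.eq_one_iff _).2 hgI,
        inv_one, one_mul]
    rw [QuotientGroup.mk_pow, h3, ← QuotientGroup.mk_pow, hf, QuotientGroup.mk_one]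
  -- the `p`-part
  have hord : orderOf e₀ ≠ 0 := (orderOf_pos e₀).ne'
  obtain ⟨a, m, hm, hord'⟩ := Nat.exists_eq_pow_mul_and_not_dvd hord p hp.ne_one
  obtain ⟨e, he⟩ : ∃ e, e = e₀ ^ m := ⟨_, rfl⟩
  have hea : e ^ p ^ a = 1 := by
    rw [he, ← pow_mul, mul_comm, ← hord', pow_orderOf_eq_one]
  have heB : am e B = B := by rw [he]; exact am_pow_eq he₀B m
  have heI : e ∉ I := by
    intro hc
    apply he₀I
    have hcop : Nat.Coprime p m := (Nat.Prime.coprime_iff_not_dvd hp).2 hm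
    have h3 := Nat.gcd_eq_gcd_ab p m
    rw [hcop.gcd_eq_one] at h3
    have h4 : e₀ = (e₀ ^ p) ^ (Nat.gcdA p m) * e ^ (Nat.gcdB p m) := by
      rw [he, ← zpow_natCast, ← zpow_natCast, ← zpow_mul, ← zpow_mul, ← zpow_add, ← h3]
      simp
    rw [h4]
    exact mul_mem (zpow_mem he₀p _) (zpow_mem hc _)
  obtain ⟨C, hC, heC⟩ := exists_opp_fix h hr hp hpr hea heB
  have hlong := h.long_of_opp hr hn₀ hopp
  obtain ⟨u, hu, rfl⟩ := (h.opp_iff hr hlong).1 hC
  have huB := h.le hu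
  have huI : MulAut.conj u ∈ I := ⟨u, rfl⟩
  -- the conjugate that stabilizes the standard opposite chamber
  obtain ⟨e', he'⟩ : ∃ e', e' = (MulAut.conj u)⁻¹ * e * MulAut.conj u := ⟨_, rfl⟩
  have hu1 : (MulAut.conj u)⁻¹ = MulAut.conj u⁻¹ := (map_inv _ _).symm
  have he'I : e' ∉ I := by
    intro hc
    apply heI
    have h3 : e = MulAut.conj u * e' * (MulAut.conj u)⁻¹ := by rw [he']; group
    rw [h3]
    exact hnI.conj_mem _ hc _
  have he'a : e' ^ p ^ a = 1 := by
    have h3 : e' = (MulAut.conj u)⁻¹ * e * (MulAut.conj u)⁻¹⁻¹ := by rw [he', inv_inv]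
    rw [h3, conj_pow, hea, mul_one, mul_inv_cancel]
  have he'B : am e' B = B := by
    rw [he', am_mul, am_mul, am_conj, cj_self huB, heB, hu1, am_conj, cj_self (inv_mem huB)]
  have he'C : am e' (cj n₀ B) = cj n₀ B := by
    rw [he', am_mul, am_mul, am_conj, ← cj_mul, heC, hu1, am_conj, ← cj_mul, inv_mul_cancel_left]
  have hP := h1 e' ⟨a, he'a⟩ he'B
  -- the element of the torus
  obtain ⟨t, htB, htN, ht⟩ := h2 n₀ hn₀ hopp e' ⟨a, he'a⟩ he'B he'C hP
  have htI : MulAut.conj t ∈ I := ⟨t, rfl⟩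
  have htP : ∀ s ∈ S, t ∈ Par B s := fun s _ => le_Par htB
  have htC : n₀⁻¹ * t * n₀ ∈ B := h.norm' hn₀ htB htN
  have h5 : MulAut.conj t * e' = 1 := by
    refine h.eq_one_of_roots hsimple hr ?_ ?_ hn₀ hopp ?_ ?_
    · rw [am_mul, he'B, am_conj, cj_self htB]
    · intro s hs
      rw [am_mul, hP s hs, am_conj, cj_self (htP s hs)]
    · rw [am_mul, he'C, am_conj]
      have e1 : t * n₀ = n₀ * (n₀⁻¹ * t * n₀) := by group
      rw [← cj_mul, e1, cj_mul, cj_self htC]
    · intro s hs y hy hyU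
      rw [MulAut.mul_apply, MulAut.conj_apply]
      exact ht s hs y hy hyU
  apply he'I
  have h6 : e' = (MulAut.conj t)⁻¹ := (inv_eq_of_mul_eq_one_right h5).symm
  rw [h6]
  exact inv_mem htI

end

/-! ### additive maps -/

section
variable {K : Type*} [Field K] {σ : K ≃+* K}

/-- the fixed field of prime order -/
lemma prime_cast {ℓ : ℕ} [Fact ℓ.Prime] [CharP K ℓ] (hq : Nat.card {x : K // σ x = x} = ℓ) {x : K}
    (hx : σ x = x) : ∃ m : ℕ, x = m := by
  have hfin : Finite {x : K // σ x = x} := Nat.finite_of_card_ne_zero (by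
    rw [hq]; exact (Fact.out : ℓ.Prime).ne_zero)
  let φ : ZMod ℓ → {x : K // σ x = x} := fun m => ⟨ZMod.castHom dvd_rfl K m, by
    obtain ⟨m, rfl⟩ := ZMod.natCast_zmod_surjective m
    rw [map_natCast, map_natCast]⟩
  have hφ : Function.Injective φ := by
    intro a b hab
    have h1 := congrArg Subtype.val hab
    exact (ZMod.castHom dvd_rfl K).injective h1
  have hb : Function.Bijective φ := by
    have h2 : Nat.card (ZMod ℓ) = Nat.card {x : K // σ x = x} := by rw [Nat.card_zmod, hq]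
    exact (Nat.bijective_iff_injective_and_card φ).2 ⟨hφ, h2⟩
  obtain ⟨m, hm⟩ := hb.2 ⟨x, hx⟩
  obtain ⟨m, rfl⟩ := ZMod.natCast_zmod_surjective m
  refine ⟨m, ?_⟩
  have h3 := congrArg Subtype.val hm
  change ZMod.castHom dvd_rfl K (m : ZMod ℓ) = x at h3
  rw [map_natCast] at h3
  exact h3.symm

lemma add_nsmul {ε : K → K} (hadd : ∀ x y, ε (x + y) = ε x + ε y) (m : ℕ) (x : K) :
    ε (m * x) = m * ε x := by
  have h0 : ε 0 = 0 := by
    have := hadd 0 0
    rw [add_zero] at this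
    exact (add_eq_left.1 this.symm)
  induction m with
  | zero => rw [Nat.cast_zero, zero_mul, zero_mul, h0]
  | succ m ih => rw [Nat.cast_succ, add_mul, add_mul, hadd, ih, one_mul, one_mul]

lemma decomp (hσ : ∀ x, σ (σ x) = x) {ω : K} (hω : σ ω ≠ ω) (x : K) :
    ∃ u v, σ u = u ∧ σ v = v ∧ x = u + v * ω := by
  have h0 : ω - σ ω ≠ 0 := sub_ne_zero.2 (Ne.symm hω)
  have hv : σ ((x - σ x) / (ω - σ ω)) = (x - σ x) / (ω - σ ω) := by
    rw [map_div₀, map_sub, map_sub, hσ, hσ, ← neg_sub x (σ x), ← neg_sub ω (σ ω), neg_div_neg_eq]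
  refine ⟨x - (x - σ x) / (ω - σ ω) * ω, (x - σ x) / (ω - σ ω), ?_, hv, by ring⟩
  rw [map_sub, map_mul, hv]
  field_simp
  ring

/-- additive maps that commute with a multiplication up to a constant -/
theorem eps_lin {ℓ : ℕ} [Fact ℓ.Prime] [CharP K ℓ] (hq : Nat.card {x : K // σ x = x} = ℓ)
    (hσ : ∀ x, σ (σ x) = x) {ε : K → K} (hadd : ∀ x y, ε (x + y) = ε x + ε y) {m : ℕ}
    (hN : ∀ x, ε^[2 * m + 1] x = x) {ω μ : K} (hω : σ ω ≠ ω)
    (hωμ : ∀ x, ε (ω * x) = μ * ε x) (x : K) : ε x = x * ε 1 := by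
  have h0 : ε 0 = 0 := by
    have := hadd 0 0
    rw [add_zero] at this
    exact (add_eq_left.1 this.symm)
  have hinj : Function.Injective ε := by
    intro a b hab
    have h1 : ε^[2 * m + 1] a = ε^[2 * m + 1] b := by
      rw [Function.iterate_succ_apply, Function.iterate_succ_apply, hab]
    rwa [hN, hN] at h1
  have hε1 : ε 1 ≠ 0 := fun h1 => one_ne_zero (hinj (h1.trans h0.symm))
  have hfix : ∀ u, σ u = u → ∀ y, ε (u * y) = u * ε y := by
    intro u hu y
    obtain ⟨k, rfl⟩ := prime_cast hq hu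
    exact add_nsmul hadd k y
  have hneg : ∀ y, ε (-y) = -ε y := by
    intro y
    have h1 := hadd y (-y)
    rw [add_neg_cancel, h0] at h1
    exact (neg_eq_of_add_eq_zero_right h1.symm).symm
  have htr : σ (ω + σ ω) = ω + σ ω := by rw [map_add, hσ, add_comm]
  have hnm : σ (ω * σ ω) = ω * σ ω := by rw [map_mul, hσ, mul_comm]
  -- the conjugate
  have hσω : ∀ y, ε (σ ω * y) = (ω + σ ω - μ) * ε y := by
    intro y
    have e : σ ω * y = (ω + σ ω) * y + -(ω * y) := by ring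
    rw [e, hadd, hneg, hfix _ htr, hωμ]
    ring
  have hmin : (μ - ω) * (μ - σ ω) = 0 := by
    have h1 := hωμ (σ ω * 1)
    rw [hσω, ← mul_assoc, hfix _ hnm] at h1
    have h2 : (ω * σ ω - μ * (ω + σ ω - μ)) * ε 1 = 0 := by linear_combination h1
    have h3 := (mul_eq_zero.1 h2).resolve_right hε1
    linear_combination h3
  have hμ : μ = ω := by
    rcases mul_eq_zero.1 hmin with h1 | h1
    · exact sub_eq_zero.1 h1
    · exfalso
      have h1' : μ = σ ω := sub_eq_zero.1 h1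
      have hsq : ∀ y, ε (ε (ω * y)) = ω * ε (ε y) := by
        intro y
        rw [hωμ, h1', hσω, h1']
        ring
      have hsq' : ∀ k y, ε^[2 * k] (ω * y) = ω * ε^[2 * k] y := by
        intro k
        induction k with
        | zero => intro y; rfl
        | succ k ih =>
          intro y
          have e : 2 * (k + 1) = 2 * k + 1 + 1 := by ring
          rw [e, Function.iterate_succ_apply, Function.iterate_succ_apply,
            Function.iterate_succ_apply, Function.iterate_succ_apply, hsq, ih]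
      have h2 : ε^[2 * m + 1] (ω * 1) = ω * 1 := hN _
      rw [Function.iterate_succ_apply'] at h2
      rw [hsq', hωμ, show ε (ε^[2 * m] 1) = ε^[2 * m + 1] 1 from
          (Function.iterate_succ_apply' ε (2 * m) 1).symm, hN, h1', mul_one, mul_one] at h2
      exact hω h2
  obtain ⟨u, v, hu, hv, rfl⟩ := decomp hσ hω x
  have h1 := hωμ 1
  rw [mul_one] at h1
  have h2 := hfix u hu 1
  rw [mul_one] at h2
  rw [hadd, hfix v hv, h1, h2, hμ]
  ring

/-- powers in the fixed field of prime order -/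
lemma pow_one_of {ℓ : ℕ} [hℓ : Fact ℓ.Prime] [CharP K ℓ] (hq : Nat.card {x : K // σ x = x} = ℓ)
    {a : K} (ha : σ a = a) {p k : ℕ} (hp : p.Prime) (hpl : ¬ p ∣ ℓ - 1) (h : a ^ p ^ k = 1) :
    a = 1 := by
  obtain ⟨m, rfl⟩ := prime_cast hq ha
  have hm0 : (m : ZMod ℓ) ≠ 0 := by
    intro h0
    have h1 := congrArg (ZMod.castHom dvd_rfl K) h0
    rw [map_natCast, map_zero] at h1
    rw [h1, zero_pow (pow_ne_zero _ hp.ne_zero)] at h
    exact zero_ne_one h
  have h1 : (m : ZMod ℓ) ^ (ℓ - 1) = 1 := ZMod.pow_card_sub_one_eq_one hm0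
  have h2 : (m : ZMod ℓ) ^ p ^ k = 1 := by
    apply (ZMod.castHom dvd_rfl K : ZMod ℓ →+* K).injective
    rw [map_pow, map_natCast, h, map_one]
  have h3 : Nat.Coprime (p ^ k) (ℓ - 1) :=
    Nat.Coprime.pow_left _ ((Nat.Prime.coprime_iff_not_dvd hp).2 hpl)
  have h4 : orderOf (m : ZMod ℓ) = 1 :=
    Nat.eq_one_of_dvd_coprimes h3 (orderOf_dvd_of_pow_eq_one h2) (orderOf_dvd_of_pow_eq_one h1)
  rw [orderOf_eq_one_iff] at h4
  have h5 := congrArg (ZMod.castHom dvd_rfl K) h4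
  rwa [map_natCast, map_one] at h5

/-- an element with square outside the fixed field -/
lemma exists_sq {x : K} (hx : σ x ≠ x) (h2 : (2 : K) ≠ 0) : ∃ c : K, c ≠ 0 ∧ σ (c ^ 2) ≠ c ^ 2 := by
  have key : ∀ c : K, σ c ≠ c → σ c ≠ -c → c ≠ 0 ∧ σ (c ^ 2) ≠ c ^ 2 := by
    intro c h3 h4
    refine ⟨?_, ?_⟩
    · rintro rfl
      exact h3 (map_zero σ)
    · rw [map_pow]
      intro h5
      rcases sq_eq_sq_iff_eq_or_eq_neg.1 h5 with h6 | h6
      · exact h3 h6
      · exact h4 h6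
  by_cases h3 : σ x = -x
  · refine ⟨1 + x, key _ ?_ ?_⟩
    · rw [map_add, map_one, h3]
      intro h4
      apply hx
      rw [h3]
      have h5 : (2 : K) * x = 0 := by linear_combination -h4
      have h6 := (mul_eq_zero.1 h5).resolve_left h2
      rw [h6, neg_zero]
    · rw [map_add, map_one, h3]
      intro h4
      apply h2
      linear_combination h4
  · exact ⟨x, key x hx h3⟩

end

end Vale.Agent.P240.R2.H727.P
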