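import Vale.Agent.P240.R2.H727.P1
import Vale.Agent.P240.R2.H997.ParFix
import Vale.Agent.P240.R2.H38.T5

/-!
Orthogonal groups of minus type over prime fields: automorphisms of odd order prime to the
characteristic act on the opposite root subgroups like elements of the torus.
-/

set_option autoImplicit false
set_option linter.all false

namespace Vale.Agent.P240.R2.H727.P

open Subgroup Matrix Vale.Agent.P240.K Vale.Agent.P240.H195 Vale.Agent.P240.R2.H997

section
variable {K : Type*} [Field K] {σ : K ≃+* K} {L : Type*} [Group L]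

/-- a root subgroup over the prime field -/
theorem root_fix {ℓ : ℕ} [hℓ : Fact ℓ.Prime] [CharP K ℓ] (hq : Nat.card {x : K // σ x = x} = ℓ)
    {p k : ℕ} (hp : p.Prime) (hpl : ¬ p ∣ ℓ - 1) (g : K → L)
    (hadd : ∀ c d, σ c = c → σ d = d → g (c + d) = g c * g d)
    (hinj : ∀ c d, σ c = c → σ d = d → g c = g d → c = d) {e : MulAut L} (he : e ^ p ^ k = 1)
    (hst : ∀ c, σ c = c → ∃ c', σ c' = c' ∧ e (g c) = g c') {c : K} (hc : σ c = c) :
    e (g c) = g c := by
  have h0 : g 0 = 1 := by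
    have := hadd 0 0 (map_zero σ) (map_zero σ)
    rw [add_zero] at this
    exact mul_eq_left.1 this.symm
  have hnat : ∀ (m : ℕ) (c : K), σ c = c → g (m * c) = g c ^ m := by
    intro m c hc
    induction m with
    | zero => rw [Nat.cast_zero, zero_mul, pow_zero, h0]
    | succ m ih =>
      rw [Nat.cast_succ, add_mul, one_mul, hadd _ _ (by rw [map_mul, map_natCast, hc]) hc, ih,
        pow_succ]
  obtain ⟨a, ha, hea⟩ := hst 1 (map_one σ)
  have hmul : ∀ c, σ c = c → e (g c) = g (c * a) := by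
    intro c hc
    obtain ⟨m, rfl⟩ := prime_cast hq hc
    have h1 := hnat m 1 (map_one σ)
    rw [mul_one] at h1
    rw [h1, map_pow, hea, hnat m a ha]
  have hfa : ∀ j : ℕ, σ (a ^ j) = a ^ j := fun j => by rw [map_pow, ha]
  have hpow : ∀ j : ℕ, (e ^ j) (g 1) = g (a ^ j) := by
    intro j
    induction j with
    | zero => rw [pow_zero, pow_zero, MulAut.one_apply]
    | succ j ih => rw [pow_succ', MulAut.mul_apply, ih, hmul _ (hfa j), pow_succ]
  have h1 := hpow (p ^ k)
  rw [he, MulAut.one_apply] at h1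
  have h2 := hinj _ _ (map_one σ) (hfa _) h1
  have h3 := pow_one_of hq ha hp hpl h2.symm
  rw [hmul c hc, h3, mul_one]

/-- a root subgroup over the quadratic extension of the prime field -/
theorem root_mul {ℓ : ℕ} [hℓ : Fact ℓ.Prime] [CharP K ℓ] (hq : Nat.card {x : K // σ x = x} = ℓ)
    (hσ : ∀ x, σ (σ x) = x) {p k : ℕ} (hp : p.Prime) (hp2 : p ≠ 2) (hpl : ¬ p ∣ ℓ - 1) (g : K → L)
    (hadd : ∀ c d, g (c + d) = g c * g d) (hinj : Function.Injective g) {e : MulAut L}
    (he : e ^ p ^ k = 1) (hst : ∀ c, ∃ c', e (g c) = g c') {ω μ : K} (hω : σ ω ≠ ω) {t : L}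
    (ht : ∀ c, t * g c * t⁻¹ = g (ω * c)) (ht' : ∀ c, e t * g c * (e t)⁻¹ = g (μ * c)) :
    ∃ a : K, a * σ a = 1 ∧ a ^ p ^ k = 1 ∧ ∀ c, e (g c) = g (a * c) := by
  choose ε hε using hst
  have hεadd : ∀ x y, ε (x + y) = ε x + ε y := by
    intro x y
    apply hinj
    rw [← hε, hadd, map_mul, hε, hε, hadd]
  have hiter : ∀ (j : ℕ) (c : K), (e ^ j) (g c) = g (ε^[j] c) := by
    intro j
    induction j with
    | zero => intro c; rfl
    | succ j ih =>
      intro c
      rw [pow_succ, MulAut.mul_apply, hε, ih, Function.iterate_succ_apply]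
  have hodd : Odd (p ^ k) := (hp.odd_of_ne_two hp2).pow
  obtain ⟨m, hm⟩ := hodd
  have hN : ∀ x, ε^[2 * m + 1] x = x := by
    intro x
    apply hinj
    rw [← hiter, ← hm, he, MulAut.one_apply]
  have hωμ : ∀ x, ε (ω * x) = μ * ε x := by
    intro x
    apply hinj
    rw [← hε, ← ht, map_mul, map_mul, map_inv, hε, ht']
  have hlin := eps_lin hq hσ hεadd hN hω hωμ
  have hit : ∀ j : ℕ, ε^[j] 1 = ε 1 ^ j := by
    intro j
    induction j with
    | zero => rw [pow_zero]; rfl
    | succ j ih => rw [Function.iterate_succ_apply', ih, hlin, pow_succ]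
  have h1 : ε 1 ^ p ^ k = 1 := by rw [hm, ← hit, hN]
  refine ⟨ε 1, ?_, h1, fun c => ?_⟩
  · refine pow_one_of hq (a := ε 1 * σ (ε 1)) (by rw [map_mul, hσ, mul_comm]) hp hpl (k := k) ?_
    rw [mul_pow, ← map_pow, h1, map_one, mul_one]
  · rw [hε, hlin, mul_comm]

end

/-! ### permutations -/

section
open Vale.Agent.P240.R2.H727.O
variable {r : ℕ}

lemma ts_fx {i : ℕ} (h : i < r) {x : Fin (2 * r + 1 + 1)} (h1 : x.val ≠ i) (h2 : x.val ≠ i + 1)
    (h3 : x.val ≠ 2 * r - i) (h4 : x.val ≠ 2 * r + 1 - i) : ts i h x = x := by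
  apply Fin.ext
  by_cases h5 : i + 1 < r
  · rw [ts_val1 h h5, if_neg h1, if_neg h2, if_neg h3, if_neg h4]
  · rw [ts_val2 h (by omega), if_neg h1, if_neg h2, if_neg (by omega), if_neg (by omega)]

lemma ts_mv {i : ℕ} (h : i < r) : (ts i h (ix i h : Fin (2 * r + 1 + 1))).val ≠ i := by
  by_cases h5 : i + 1 < r
  · rw [ts_val1 h h5, ix_val, if_pos rfl]
    omega
  · rw [ts_val2 h (by omega), ix_val, if_pos rfl]
    omega

lemma ts_inj {i j : ℕ} (hi : i < r) (hj : j < r) (h : ts i hi = ts j hj) : i = j := by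
  have key : ∀ {i j : ℕ} (hi : i < r) (hj : j < r), ts i hi = ts j hj → ¬ i < j := by
    intro i j hi hj h hlt
    apply ts_mv hi
    rw [h, ts_fx hj (x := ix i hi)]
    · exact ix_val i hi
    · rw [ix_val]; omega
    · rw [ix_val]; omega
    · rw [ix_val]; omega
    · rw [ix_val]; omega
  rcases lt_trichotomy i j with h1 | h1 | h1
  · exact absurd h1 (key hi hj h)
  · exact h1
  · exact absurd h1 (key hj hi h.symm)

lemma ts_comm {i j : ℕ} (hi : i < r) (hj : j < r) (h : i + 1 < j) :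
    ts i hi * ts j hj = ts j hj * ts i hi := by
  have hd : Equiv.Perm.Disjoint (ts i hi : Equiv.Perm (Fin (2 * r + 1 + 1))) (ts j hj) := by
    intro x
    by_cases h1 : x.val = i ∨ x.val = i + 1 ∨ x.val = 2 * r - i ∨ x.val = 2 * r + 1 - i
    · right
      refine ts_fx hj ?_ ?_ ?_ ?_ <;> omega
    · left
      push Not at h1
      exact ts_fx hi h1.1 h1.2.1 h1.2.2.1 h1.2.2.2
  exact hd.commute

end

end Vale.Agent.P240.R2.H727.P
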