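import Vale.Agent.P240.R2.H727.P2

/-!
Orthogonal groups of minus type over prime fields: the opposite root subgroups.
-/

set_option autoImplicit false
set_option linter.all false

namespace Vale.Agent.P240.R2.H727.P

open Subgroup Matrix Vale.Agent.P240.H195 Vale.Agent.P240.R2.H487.CG Vale.Agent.P240.R2.H997
open Vale.Agent.P240.K (cj mem_cj)
open Vale.Agent.P240.R2.H38.DD hiding BH UH mem_BH' mem_UH'
open Vale.Agent.P240.R2.H775.RG (Pt LoU pt_of_dc pt_of_up diag_comm lou_mul)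
open Vale.Agent.P240.R2.H775.RD (tx_iso lo_mid gm_lou xr_lou xr_mul tau_form BH UH mem_BH' mem_UH'
  anti' pi_inj)
open Vale.Agent.P240.R2.H775.RT

section
variable {n : ℕ} {F : Type*} [Field F] [Finite F] {σ : F ≃+* F}
  {H : Subgroup (SLm (2 * n + 1) F)} {L : Type*} [Group L] {π : ↥H →* L}

/-- conjugation of short root elements by diagonal elements -/
lemma diag_xs (hg : GoodT n σ H) {t : ↥H} (ht : Mon t.1 1) {a : VI n} (ha : ¬ Mid a) (c : F) :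
    t.1 * xs σ a c * t.1⁻¹ = xs σ a (t.1.1 (c0 n) (c0 n) * (t.1.1 a a)⁻¹ * c) := by
  have hS := hg.le t.2
  obtain ⟨h, h'⟩ := mid_ne ha
  have h1 : c1 n ≠ a := fun h5 => ha (Or.inr h5.symm)
  have e0 := xr_conj hS ht h.symm c
  have e1 := xr_conj hS ht h1 (σ c)
  rw [Equiv.Perm.one_apply, Equiv.Perm.one_apply] at e0 e1
  have f1 : t.1.1 (c1 n) (c1 n) = σ (t.1.1 (c0 n) (c0 n)) := by
    have := hg.fix _ t.2 (c0 n) (c0 n)
    rwa [pp_c0] at this
  have f2 : σ (t.1.1 a a) = t.1.1 a a := by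
    have := hg.fix _ t.2 a a
    rw [pp_fix ha] at this
    exact this.symm
  unfold xs
  have e : t.1 * (xr (c0 n) a c * xr (c1 n) a (σ c)) * t.1⁻¹ =
      (t.1 * xr (c0 n) a c * t.1⁻¹) * (t.1 * xr (c1 n) a (σ c) * t.1⁻¹) := by group
  rw [e, e0, e1, f1]
  congr 2
  · ring
  · rw [map_mul, map_mul, map_inv₀, f2]
    ring

/-- conjugation of long root elements by diagonal elements -/
lemma diag_xr (hg : GoodT n σ H) {t : ↥H} (ht : Mon t.1 1) {a b : VI n} (hab : a ≠ b)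
    (ha : t.1.1 a a = 1) (hb : t.1.1 b b = 1) (c : F) :
    t.1 * xr a b c * t.1⁻¹ = xr a b c := by
  have e0 := xr_conj (hg.le t.2) ht hab c
  rw [Equiv.Perm.one_apply, Equiv.Perm.one_apply, ha, hb] at e0
  rw [e0]
  congr 1
  rw [inv_one]
  ring

lemma long_mem (hg : GoodT n σ H) {i : Fin n} (hi : i.val + 1 < n) {c : F} (hc : σ c = c) :
    xr (ib i) (ia i) c ∈ H := by
  have hma : ¬ Mid (ia i) := fun h => by
    have hav : (ia i).val = i.val := rfl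
    rcases mid_val h with h | h <;> omega
  have hmb : ¬ Mid (ib i) := fun h => by
    have hbv : (ib i).val = i.val + 1 := rfl
    rcases mid_val h with h | h <;> omega
  have hba' : ib i ≠ Fin.rev (ia i) := fun h5 => ia_ne' i (by rw [h5, Fin.rev_rev])
  exact hg.lr (ib i) (ia i) (ia_lt i).ne' hba' hmb hma c hc

/-- the opposite long root groups -/
lemma X_long (hg : GoodT n σ H) (hB : ∀ x, π x ∈ (BH H).map π ↔ x ∈ BH H) {s : ↥H}
    {i : Fin n} (hi : i.val + 1 < n) (hs : Mon s.1 (tau i))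
    (hPar : ∀ {y}, y ∈ Par ((BH H).map π) (π s) → y ∈ (BH H).map π ∨ DC ((BH H).map π) (π s) y)
    {w : ↥H} {τ : Equiv.Perm (VI n)} (hτ : Mon w.1 τ)
    (hanti' : ∀ {a b : VI n}, a < b → ¬ (a = c0 n ∧ b = c1 n) → τ b < τ a)
    {y : L} (hyP : y ∈ Par ((BH H).map π) (π s)) (hyU : (π w)⁻¹ * y * π w ∈ (UH H).map π) :
    ∃ (c : F) (hc : σ c = c), y = π ⟨xr (ib i) (ia i) c, long_mem hg hi hc⟩ := by
  have hma : ¬ Mid (ia i) := fun h => by
    have hav : (ia i).val = i.val := rfl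
    rcases mid_val h with h | h <;> omega
  have hmb : ¬ Mid (ib i) := fun h => by
    have hbv : (ib i).val = i.val + 1 := rfl
    rcases mid_val h with h | h <;> omega
  obtain ⟨A, rfl, hl, hpt⟩ := X_form hg hB hs hPar hτ hanti' hyP hyU
  have h3 := tau_form (hg.le A.2) hl hpt
  have h4 := hg.fix _ A.2 (ib i) (ia i)
  rw [pp_fix hma, pp_fix hmb] at h4
  exact ⟨A.1.1 (ib i) (ia i), h4.symm, congrArg π (Subtype.ext h3)⟩

lemma X_long' (hg : GoodT n σ H) {s : ↥H} {i : Fin n} (hi : i.val + 1 < n) (hs : Mon s.1 (tau i))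
    {w : ↥H} {τ : Equiv.Perm (VI n)} (hτ : Mon w.1 τ)
    (hanti : ∀ {a b : VI n}, a < b → a ≠ Fin.rev b → τ b < τ a) {c : F} (hc : σ c = c) :
    π ⟨xr (ib i) (ia i) c, long_mem hg hi hc⟩ ∈ Par ((BH H).map π) (π s) ∧
      (π w)⁻¹ * π ⟨xr (ib i) (ia i) c, long_mem hg hi hc⟩ * π w ∈ (UH H).map π := by
  refine X_in ?_ (xr_down hg hτ hanti (ia_lt i) (ia_ne' i) c)
  obtain ⟨d, hd⟩ := xr_conj' (hg.le s.2) hs (ia_lt i).ne' c
  rw [tau_iv, tau_a, tau_b] at hd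
  change IsUp (s.1⁻¹ * xr (ib i) (ia i) c * s.1)
  rw [hd]
  exact xr_up (ia_lt i) d

/-- the elements of an opposite long root group are fixed -/
theorem fix_longT {ℓ : ℕ} [hℓ : Fact ℓ.Prime] [CharP F ℓ]
    (hq : Nat.card {x : F // σ x = x} = ℓ) {p k : ℕ} (hp : p.Prime) (hpl : ¬ p ∣ ℓ - 1)
    (hg : GoodT n σ H) (hker : ∀ x : ↥H, π x = 1 → Mon x.1 1)
    (hB : ∀ x, π x ∈ (BH H).map π ↔ x ∈ BH H) {s : ↥H}
    {i : Fin n} (hi : i.val + 1 < n) (hs : Mon s.1 (tau i))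
    (hPar : ∀ {y}, y ∈ Par ((BH H).map π) (π s) → y ∈ (BH H).map π ∨ DC ((BH H).map π) (π s) y)
    {w : ↥H} {τ : Equiv.Perm (VI n)} (hτ : Mon w.1 τ)
    (hanti : ∀ {a b : VI n}, a < b → a ≠ Fin.rev b → τ b < τ a)
    (hanti' : ∀ {a b : VI n}, a < b → ¬ (a = c0 n ∧ b = c1 n) → τ b < τ a)
    {e : MulAut L} (he : e ^ p ^ k = 1)
    (hfX : ∀ y ∈ Par ((BH H).map π) (π s), (π w)⁻¹ * y * π w ∈ (UH H).map π →
      e y ∈ Par ((BH H).map π) (π s) ∧ (π w)⁻¹ * e y * π w ∈ (UH H).map π)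
    {c : F} (hc : σ c = c) :
    e (π ⟨xr (ib i) (ia i) c, long_mem hg hi hc⟩) = π ⟨xr (ib i) (ia i) c, long_mem hg hi hc⟩ := by
  classical
  let g : F → L := fun c => if h : σ c = c then π ⟨xr (ib i) (ia i) c, long_mem hg hi h⟩ else 1
  have hgd : ∀ {c : F} (h : σ c = c), g c = π ⟨xr (ib i) (ia i) c, long_mem hg hi h⟩ :=
    fun h => dif_pos h
  have hab := ia_lt i
  have hba' : ib i ≠ Fin.rev (ia i) := fun h5 => ia_ne' i (by rw [h5, Fin.rev_rev])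
  have key := root_fix (L := L) hq (p := p) (k := k) hp hpl g ?_ ?_ he ?_ hc
  · rwa [hgd hc] at key
  · intro c d hc hd
    have hcd : σ (c + d) = c + d := by rw [map_add, hc, hd]
    rw [hgd hc, hgd hd, hgd hcd, ← map_mul]
    congr 1
    exact Subtype.ext (xr_add hab.ne' hba' c d).symm
  · intro c d hc hd hcd
    rw [hgd hc, hgd hd] at hcd
    have h1 := pi_inj hker (x := ⟨xr (ib i) (ia i) c, long_mem hg hi hc⟩)
      (y := ⟨xr (ib i) (ia i) d, long_mem hg hi hd⟩) (xr_lou hab c) (xr_lou hab d) hcd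
    have h2 := congrArg (fun B : ↥H => B.1.1 (ib i) (ia i)) h1
    have h3 : (xr (ib i) (ia i) c).1 (ib i) (ia i) = (xr (ib i) (ia i) d).1 (ib i) (ia i) := h2
    rw [xr_apply hab.ne', xr_apply hab.ne', if_neg hab.ne',
      if_neg (fun h4 : ib i = Fin.rev (ia i) ∧ ia i = Fin.rev (ib i) => hba' h4.1),
      if_neg (fun h4 : ib i = Fin.rev (ia i) ∧ ia i = Fin.rev (ib i) => hba' h4.1)] at h3
    simpa using h3
  · intro c hc
    have h1 := X_long' (π := π) hg hi hs hτ hanti hc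
    have h2 := hfX _ h1.1 h1.2
    obtain ⟨c', hc', h3⟩ := X_long hg hB hi hs hPar hτ hanti' h2.1 h2.2
    exact ⟨c', hc', by rw [hgd hc, hgd hc', h3]⟩

/-! ### short roots -/

section
variable {i : Fin n}

lemma xs_c0 (hi : i.val + 1 = n) (c : F) : (xs σ (ia i) c).1 (c0 n) (ia i) = c := by
  have hm := last_nm hi
  obtain ⟨h0, h0'⟩ := mid_ne hm
  have hav : (ia i).val = i.val := rfl
  have l1 : ia i < c1 n := by
    rw [Fin.lt_def, hav]
    change i.val < n + 1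
    omega
  have k0 : c0 n ≠ Fin.rev (ia i) := fun h5 => h0' (by rw [h5, Fin.rev_rev])
  unfold xs
  rw [xr_mul h0.symm k0, if_pos rfl, if_neg k0, xr_diag l1.ne', xr_apply l1.ne', if_neg h0.symm,
    if_neg (fun h => c0_ne h.1), if_neg (fun h => k0 h.1)]
  ring

lemma xs_c1 (hi : i.val + 1 = n) (c : F) : (xs σ (ia i) c).1 (c1 n) (ia i) = σ c := by
  have hm := last_nm hi
  obtain ⟨h0, h0'⟩ := mid_ne hm
  have hav : (ia i).val = i.val := rfl
  have l1 : ia i < c1 n := by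
    rw [Fin.lt_def, hav]
    change i.val < n + 1
    omega
  have h1' : ia i ≠ Fin.rev (c1 n) := by rw [rev_c1]; exact h0
  have k0 : c0 n ≠ Fin.rev (ia i) := fun h5 => h0' (by rw [h5, Fin.rev_rev])
  have k1 : c1 n ≠ Fin.rev (ia i) := fun h5 => h1' (by rw [h5, Fin.rev_rev])
  unfold xs
  rw [xr_mul h0.symm k0, if_neg c0_ne.symm, if_neg k1, xr_apply l1.ne', if_neg l1.ne',
    if_pos ⟨rfl, rfl⟩, if_neg (fun h => k1 h.1)]
  ring

lemma xs_pos (hi : i.val + 1 = n) (c : F) {u v : VI n} (huv : v < u)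
    (hne : (xs σ (ia i) c).1 u v ≠ 0) : i.val ≤ v.val ∧ u.val ≤ n + 2 := by
  have hm := last_nm hi
  obtain ⟨h0, h0'⟩ := mid_ne hm
  have hav : (ia i).val = i.val := rfl
  have hrv := rv_val (ia i)
  have l1 : ia i < c1 n := by
    rw [Fin.lt_def, hav]
    change i.val < n + 1
    omega
  have h1' : ia i ≠ Fin.rev (c1 n) := by rw [rev_c1]; exact h0
  have k0 : c0 n ≠ Fin.rev (ia i) := fun h5 => h0' (by rw [h5, Fin.rev_rev])
  have k1 : c1 n ≠ Fin.rev (ia i) := fun h5 => h1' (by rw [h5, Fin.rev_rev])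
  unfold xs at hne
  have e1 : (c0 n).val = n := rfl
  have e2 : (c1 n).val = n + 1 := rfl
  rw [xr_mul h0.symm k0, xr_apply l1.ne', xr_apply l1.ne', xr_apply l1.ne', if_neg huv.ne'] at hne
  by_contra hcon
  apply hne
  have t1 : ¬ (u = c1 n ∧ v = ia i) := by
    rintro ⟨rfl, rfl⟩
    omega
  have t2 : ¬ (u = Fin.rev (ia i) ∧ v = Fin.rev (c1 n)) := by
    rintro ⟨rfl, rfl⟩
    rw [rev_c1] at hcon
    omega
  have t3 : u = c0 n → ia i ≠ v := by
    rintro rfl rfl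
    omega
  have t4 : u = c0 n → ¬ (ia i = Fin.rev (ia i) ∧ v = Fin.rev (c1 n)) := by
    rintro rfl ⟨h, -⟩
    exact rv_ne _ h.symm
  have t5 : u = Fin.rev (ia i) → Fin.rev (c0 n) ≠ v := by
    rintro rfl rfl
    rw [rev_c0] at hcon
    omega
  have t6 : u = Fin.rev (ia i) → ¬ (Fin.rev (c0 n) = c1 n ∧ v = ia i) := by
    rintro rfl ⟨-, rfl⟩
    omega
  have t7 : ¬ (Fin.rev (c0 n) = Fin.rev (ia i) ∧ v = Fin.rev (c1 n)) := by
    rintro ⟨h, -⟩
    exact h0 (Fin.rev_injective h).symm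
  rw [if_neg t1, if_neg t2, if_neg t7]
  by_cases hu : u = c0 n
  · rw [if_pos hu, if_neg (t3 hu), if_neg (fun h : ia i = c1 n ∧ _ => l1.ne h.1), if_neg (t4 hu),
      if_neg (fun h : u = Fin.rev (ia i) => k0 (hu ▸ h))]
    ring
  · rw [if_neg hu]
    by_cases hu' : u = Fin.rev (ia i)
    · rw [if_pos hu', if_neg (t5 hu'), if_neg (t6 hu')]
      ring
    · rw [if_neg hu']
      ring

lemma last_lt0 (hi : i.val + 1 = n) : ia i < c0 n := by
  have hav : (ia i).val = i.val := rfl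
  rw [Fin.lt_def, hav]
  change i.val < n
  omega

lemma last_lt1 (hi : i.val + 1 = n) : ia i < c1 n := by
  have hav : (ia i).val = i.val := rfl
  rw [Fin.lt_def, hav]
  change i.val < n + 1
  omega

/-- the opposite short root group -/
lemma X_short (hg : GoodT n σ H) (hσ : ∀ x, σ (σ x) = x)
    (hB : ∀ x, π x ∈ (BH H).map π ↔ x ∈ BH H) {s : ↥H}
    (hi : i.val + 1 = n) (hs : Mon s.1 (tau i * (pp n * tau i * pp n)))
    (hPar : ∀ {y}, y ∈ Par ((BH H).map π) (π s) → y ∈ (BH H).map π ∨ DC ((BH H).map π) (π s) y)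
    {w : ↥H} {τ : Equiv.Perm (VI n)} (hτ : Mon w.1 τ)
    (hanti' : ∀ {a b : VI n}, a < b → ¬ (a = c0 n ∧ b = c1 n) → τ b < τ a)
    {y : L} (hyP : y ∈ Par ((BH H).map π) (π s)) (hyU : (π w)⁻¹ * y * π w ∈ (UH H).map π) :
    ∃ c : F, y = π ⟨xs σ (ia i) c, xs_mem hg hσ (last_nm hi) c⟩ := by
  obtain ⟨A, rfl, hl, hpt⟩ := X_form hg hB hs hPar hτ hanti' hyP hyU
  refine ⟨A.1.1 (c0 n) (ia i), congrArg π (Subtype.ext ?_)⟩
  refine last_eq hi (hg.le A.2) hl (fun u v huv h => last_pt hi hpt huv h)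
    (hg.le (xs_mem hg hσ (last_nm hi) _)) (xs_lou (last_lt0 hi) _)
    (fun u v huv h => xs_pos hi _ huv h) (xs_c0 hi _).symm ?_
  rw [xs_c1 hi]
  have h4 := hg.fix _ A.2 (c0 n) (ia i)
  rwa [pp_c0, pp_fix (last_nm hi)] at h4

lemma X_short' (hg : GoodT n σ H) (hσ : ∀ x, σ (σ x) = x) {s : ↥H}
    (hi : i.val + 1 = n) (hs : Mon s.1 (tau i * (pp n * tau i * pp n)))
    {w : ↥H} {τ : Equiv.Perm (VI n)} (hτ : Mon w.1 τ)
    (hanti : ∀ {a b : VI n}, a < b → a ≠ Fin.rev b → τ b < τ a) (c : F) :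
    π ⟨xs σ (ia i) c, xs_mem hg hσ (last_nm hi) c⟩ ∈ Par ((BH H).map π) (π s) ∧
      (π w)⁻¹ * π ⟨xs σ (ia i) c, xs_mem hg hσ (last_nm hi) c⟩ * π w ∈ (UH H).map π := by
  have hm := last_nm hi
  obtain ⟨h0, h0'⟩ := mid_ne hm
  have hav : (ia i).val = i.val := rfl
  have hrv := rv_val (ia i)
  have l0 := last_lt0 hi
  have l1 := last_lt1 hi
  have h1' : ia i ≠ Fin.rev (c1 n) := by rw [rev_c1]; exact h0
  refine X_in ?_ ?_
  · change IsUp (s.1⁻¹ * (xr (c0 n) (ia i) c * xr (c1 n) (ia i) (σ c)) * s.1)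
    have e : s.1⁻¹ * (xr (c0 n) (ia i) c * xr (c1 n) (ia i) (σ c)) * s.1 =
        (s.1⁻¹ * xr (c0 n) (ia i) c * s.1) * (s.1⁻¹ * xr (c1 n) (ia i) (σ c) * s.1) := by group
    obtain ⟨d, hd⟩ := xr_conj' (hg.le s.2) hs h0.symm c
    obtain ⟨d', hd'⟩ := xr_conj' (hg.le s.2) hs l1.ne' (σ c)
    rw [e, hd, hd']
    have v0 := last_apply hi (c0 n)
    have v1 := last_apply hi (c1 n)
    have v2 := last_apply hi (Fin.rev (ia i))
    have e0 : (c0 n).val = n := rfl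
    have e1 : (c1 n).val = n + 1 := rfl
    rw [if_neg (by omega), if_pos (by omega)] at v0
    rw [if_neg (by omega), if_neg (by omega), if_pos (by omega)] at v1
    rw [if_neg (by omega), if_neg (by omega), if_neg (by omega), if_pos (by omega)] at v2
    generalize tau i * (pp n * tau i * pp n) = ρ at *
    have r0 : ρ⁻¹ (c0 n) = c1 n := by
      rw [Equiv.Perm.inv_eq_iff_eq]
      exact Fin.ext (by rw [v1]; rfl)
    have r1 : ρ⁻¹ (c1 n) = c0 n := by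
      rw [Equiv.Perm.inv_eq_iff_eq]
      exact Fin.ext (by rw [v0]; rfl)
    have r2 : ρ⁻¹ (ia i) = Fin.rev (ia i) := by
      rw [Equiv.Perm.inv_eq_iff_eq]
      exact Fin.ext (by rw [v2, hav]; omega)
    rw [r0, r1, r2]
    exact up_mul (xr_up (by rw [Fin.lt_def]; omega) d) (xr_up (by rw [Fin.lt_def]; omega) d')
  · change w.1⁻¹ * (xr (c0 n) (ia i) c * xr (c1 n) (ia i) (σ c)) * w.1 ∈ _
    have e : w.1⁻¹ * (xr (c0 n) (ia i) c * xr (c1 n) (ia i) (σ c)) * w.1 =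
        (w.1⁻¹ * xr (c0 n) (ia i) c * w.1) * (w.1⁻¹ * xr (c1 n) (ia i) (σ c) * w.1) := by group
    rw [e]
    exact mul_mem (xr_down hg hτ hanti l0 h0' c) (xr_down hg hτ hanti l1 h1' _)

/-- the action on the opposite short root group -/
theorem mul_shortT {ℓ : ℕ} [hℓ : Fact ℓ.Prime] [CharP F ℓ]
    (hq : Nat.card {x : F // σ x = x} = ℓ) {p k : ℕ} (hp : p.Prime) (hp2 : p ≠ 2)
    (hpl : ¬ p ∣ ℓ - 1) (h2 : (2 : F) ≠ 0) (hne : ∃ x, σ x ≠ x)
    (hg : GoodT n σ H) (hσ : ∀ x, σ (σ x) = x) (hker : ∀ x : ↥H, π x = 1 → Mon x.1 1)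
    (hB : ∀ x, π x ∈ (BH H).map π ↔ x ∈ BH H) {s : ↥H}
    (hi : i.val + 1 = n) (hs : Mon s.1 (tau i * (pp n * tau i * pp n)))
    (hPar : ∀ {y}, y ∈ Par ((BH H).map π) (π s) → y ∈ (BH H).map π ∨ DC ((BH H).map π) (π s) y)
    {w : ↥H} {τ : Equiv.Perm (VI n)} (hτ : Mon w.1 τ)
    (hanti : ∀ {a b : VI n}, a < b → a ≠ Fin.rev b → τ b < τ a)
    (hanti' : ∀ {a b : VI n}, a < b → ¬ (a = c0 n ∧ b = c1 n) → τ b < τ a)
    {e : MulAut L} (he : e ^ p ^ k = 1)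
    (heT : ∀ t : ↥H, Mon t.1 1 → ∃ t' : ↥H, Mon t'.1 1 ∧ e (π t) = π t')
    (hfX : ∀ y ∈ Par ((BH H).map π) (π s), (π w)⁻¹ * y * π w ∈ (UH H).map π →
      e y ∈ Par ((BH H).map π) (π s) ∧ (π w)⁻¹ * e y * π w ∈ (UH H).map π) :
    ∃ a : F, a * σ a = 1 ∧ a ^ p ^ k = 1 ∧ ∀ c : F,
      e (π ⟨xs σ (ia i) c, xs_mem hg hσ (last_nm hi) c⟩) =
        π ⟨xs σ (ia i) (a * c), xs_mem hg hσ (last_nm hi) _⟩ := by
  obtain ⟨x, hx⟩ := hne
  obtain ⟨d, hd0, hd⟩ := exists_sq hx h2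
  have hm := last_nm hi
  obtain ⟨t, htH, htM, ht⟩ := xs_torus hg hσ hm hd0
  obtain ⟨t', htM', het⟩ := heT ⟨t, htH⟩ htM
  refine root_mul (L := L) hq hσ hp hp2 hpl
    (fun c => π ⟨xs σ (ia i) c, xs_mem hg hσ (last_nm hi) c⟩) ?_ ?_ he ?_ hd (t := π ⟨t, htH⟩)
    (μ := t'.1.1 (c0 n) (c0 n) * (t'.1.1 (ia i) (ia i))⁻¹) ?_ ?_
  · intro c d
    rw [← map_mul]
    congr 1
    exact Subtype.ext (xs_add hm c d)
  · intro c d hcd
    have h1 := pi_inj hker (x := ⟨_, xs_mem hg hσ (last_nm hi) c⟩)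
      (y := ⟨_, xs_mem hg hσ (last_nm hi) d⟩) (xs_lou (last_lt0 hi) c) (xs_lou (last_lt0 hi) d) hcd
    have h2 := congrArg (fun B : ↥H => B.1.1 (c0 n) (ia i)) h1
    have h3 : (xs σ (ia i) c).1 (c0 n) (ia i) = (xs σ (ia i) d).1 (c0 n) (ia i) := h2
    rwa [xs_c0 hi, xs_c0 hi] at h3
  · intro c
    have h1 := X_short' (π := π) hg hσ hi hs hτ hanti c
    have h2 := hfX _ h1.1 h1.2
    exact X_short hg hσ hB hi hs hPar hτ hanti' h2.1 h2.2
  · intro c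
    rw [← map_inv, ← map_mul, ← map_mul]
    congr 1
    exact Subtype.ext (ht c)
  · intro c
    rw [het, ← map_inv, ← map_mul, ← map_mul]
    congr 1
    exact Subtype.ext (diag_xs hg htM' hm c)

end

end

end Vale.Agent.P240.R2.H727.P
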