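import Vale.Agent.P240.R2.H727.P3

/-!
Orthogonal groups of minus type over prime fields: all automorphisms of odd order prime to the
characteristic are inner.
-/

set_option autoImplicit false
set_option linter.all false

namespace Vale.Agent.P240.R2.H727.P

open Subgroup Matrix Vale.Agent.P240.H195 Vale.Agent.P240.R2.H487.CG Vale.Agent.P240.R2.H997
open Vale.Agent.P240.K (cj mem_cj)
open Vale.Agent.P240.R2.H38.DD hiding BH UH mem_BH' mem_UH'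
open Vale.Agent.P240.R2.H775.RG (Pt LoU pt_of_dc pt_of_up diag_comm lou_mul)
open Vale.Agent.P240.R2.H775.RD (tx_iso lo_mid gm_lou xr_lou xr_mul tau_form BH UH mem_BH' mem_UH'
  anti' pi_inj)
open Vale.Agent.P240.R2.H775.RT

section
variable {n : ℕ} {F : Type*} [Field F] [Finite F] {σ : F ≃+* F}

lemma sim_ts {s : SLm (2 * n + 1) F} (h : SimT s) : ∃ (i : ℕ) (h : i < n), Mon s (O.ts i h) := by
  obtain ⟨i, ⟨hi, hs⟩ | ⟨hi, hs⟩⟩ := h
  · exact ⟨i.1, i.2, by rw [H38.TT.ts_tau1 i.2 hi]; exact hs⟩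
  · exact ⟨i.1, i.2, by rw [H38.TT.ts_tau2 i.2 hi]; exact hs⟩

lemma key_iff {H : Subgroup (SLm (2 * n + 1) F)} {L : Type*} [Group L] {π : ↥H →* L}
    (hB : ∀ x, π x ∈ (BH H).map π ↔ x ∈ BH H) {x y : ↥H} {v w : Equiv.Perm (VI n)}
    (hx : Mon x.1 v) (hy : Mon y.1 w) : ((π x)⁻¹ * π y ∈ (BH H).map π ↔ v = w) := by
  have h1 : Mon (x⁻¹ * y).1 (v⁻¹ * w) := mon_mul (mon_inv hx) hy
  rw [← map_inv, ← map_mul, hB]
  constructor
  · intro h2
    have h3 := mon_up h1 (mem_BH'.1 h2)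
    exact inv_mul_eq_one.1 h3
  · rintro rfl
    rw [inv_mul_cancel] at h1
    exact mem_BH'.2 (mem_T' h1)

/-- automorphisms of odd order that stabilize `B` stabilize the minimal parabolic subgroups -/
theorem dt_parfix {H : Subgroup (SLm (2 * n + 1) F)} {L : Type*} [Group L] [Finite L] {ℓ : ℕ}
    {π : ↥H →* L} (hB : ∀ x, π x ∈ (BH H).map π ↔ x ∈ BH H) {N : Subgroup ↥H} {S : Set ↥H}
    (h' : SB ℓ ((BH H).map π) (N.map π) ((UH H).map π) (π '' S))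
    (hS : ∀ s ∈ S, SimT s.1) (hex : ∀ (i : ℕ) (h : i < n), ∃ s ∈ S, Mon s.1 (O.ts i h))
    {e : MulAut L} (heB : am e ((BH H).map π) = (BH H).map π) {m : ℕ} (hm : Odd m)
    (he : e ^ m = 1) : ∀ t ∈ π '' S, am e (Par ((BH H).map π) t) = Par ((BH H).map π) t := by
  choose s hsS hsm using hex
  have hmul : ∀ i j : Fin n, Mon (s j.1 j.2 * s i.1 i.2).1 (O.ts j.1 j.2 * O.ts i.1 i.2) :=
    fun i j => mon_mul (hsm _ _) (hsm _ _)
  have key2 : ∀ i j : Fin n, (π (s j.1 j.2) * π (s i.1 i.2))⁻¹ * (π (s i.1 i.2) * π (s j.1 j.2)) ∈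
      (BH H).map π ↔ O.ts j.1 j.2 * O.ts i.1 i.2 = (O.ts i.1 i.2 * O.ts j.1 j.2 :
        Equiv.Perm (VI n)) := by
    intro i j
    rw [← map_mul, ← map_mul]
    exact key_iff hB (hmul i j) (hmul j i)
  have h1 : ∀ t ∈ π '' S, ∃ i : Fin n, (π (s i.1 i.2))⁻¹ * t ∈ (BH H).map π := by
    rintro _ ⟨s', hs', rfl⟩
    obtain ⟨i, hi, hm⟩ := sim_ts (hS s' hs')
    exact ⟨⟨i, hi⟩, (key_iff hB (hsm i hi) hm).2 rfl⟩
  have h2 : ∀ i j : Fin n, (π (s i.1 i.2))⁻¹ * π (s j.1 j.2) ∈ (BH H).map π → i = j := by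
    intro i j hij
    exact Fin.ext (ts_inj i.2 j.2 ((key_iff hB (hsm _ _) (hsm _ _)).1 hij))
  have h3 : ∀ i j : Fin n, i.val + 1 = j.val → (π (s j.1 j.2) * π (s i.1 i.2))⁻¹ *
      (π (s i.1 i.2) * π (s j.1 j.2)) ∉ (BH H).map π := by
    rintro ⟨i, hi⟩ ⟨j, hj⟩ hij hcon
    rw [key2] at hcon
    change i + 1 = j at hij
    subst hij
    exact H38.TT.ts_nc hi hj hcon.symm
  have h4 : ∀ i j : Fin n, i.val + 1 < j.val → (π (s j.1 j.2) * π (s i.1 i.2))⁻¹ *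
      (π (s i.1 i.2) * π (s j.1 j.2)) ∈ (BH H).map π := by
    intro i j hij
    rw [key2]
    exact (ts_comm i.2 j.2 hij).symm
  exact par_fix_of_path h' (fun i : Fin n => π (s i.1 i.2)) (fun i => ⟨_, hsS _ _, rfl⟩) h1 h2 h3 h4
    heB hm he

/-- **all automorphisms of order `p` are inner** -/
theorem dt_inner {H : Subgroup (SLm (2 * n + 1) F)} (hn : 0 < n) {ℓ p : ℕ} [hℓ : Fact ℓ.Prime]
    [CharP F ℓ] (hq : Nat.card {x : F // σ x = x} = ℓ) (hp : p.Prime) (hp2 : p ≠ 2) (hpℓ : p ≠ ℓ)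
    (hpl : ¬ p ∣ ℓ - 1) (h2 : (2 : F) ≠ 0) (hne : ∃ x, σ x ≠ x) (hg : GoodT n σ H)
    (hσ : ∀ x, σ (σ x) = x)
    (hmid : ∀ τ : F, τ * σ τ = 1 → ∃ t ∈ H, Mon t 1 ∧ t.1 (c0 n) (c0 n) = τ ^ 2 ∧
      ∀ i, ¬ Mid i → t.1 i i = 1)
    {N : Subgroup ↥H} {S : Set ↥H} (hS : ∀ s ∈ S, SimT s.1)
    (hex : ∀ (i : ℕ) (h : i < n), ∃ s ∈ S, Mon s.1 (O.ts i h))
    (hN : ∀ n ∈ N, ∃ τ, Mon n.1 τ) (hT : ∀ t : ↥H, Mon t.1 1 → t ∈ N)
    (h : SB ℓ (BH H) N (UH H) S) (hsimple : IsSimpleGroup (↥H ⧸ center ↥H))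
    {f : MulAut (↥H ⧸ center ↥H)} (hf : f ^ p = 1) :
    f ∈ (MulAut.conj (G := ↥H ⧸ center ↥H)).range := by
  have hr := hℓ.out
  have h' := Vale.Agent.P240.R2.H487.CG.SB.centre_quot h hr
  have hker : ∀ k, QuotientGroup.mk' (center ↥H) k = 1 → k ∈ BH H ∧ k ∈ N := by
    intro k hk
    have h1 : k ∈ center ↥H := (QuotientGroup.eq_one_iff k).1 hk
    exact center_le_T h hr fun g => (mem_center_iff.1 h1 g).symm
  have hsurj : Function.Surjective (QuotientGroup.mk' (center ↥H)) :=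
    QuotientGroup.mk'_surjective _
  generalize QuotientGroup.mk' (center ↥H) = π at *
  have hB : ∀ x, π x ∈ (BH H).map π ↔ x ∈ BH H := fun x => map_mem_iff fun k hk => (hker k hk).1
  have hN' : ∀ x, π x ∈ N.map π ↔ x ∈ N := fun x => map_mem_iff fun k hk => (hker k hk).2
  have hT1 : ∀ {x : ↥H}, x ∈ BH H → x ∈ N → Mon x.1 1 := by
    intro x hx hxN
    obtain ⟨τ, hτ⟩ := hN x hxN
    have := mon_up hτ (mem_BH'.1 hx)
    rwa [this] at hτ
  have hker' : ∀ x : ↥H, π x = 1 → Mon x.1 1 := fun x hx => hT1 (hker x hx).1 (hker x hx).2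
  refine noOutT h' hsimple hr hp hpℓ ?_ ?_ hf
  · rintro e ⟨k, hk⟩ heB
    exact dt_parfix hB h' hS hex heB ((hp.odd_of_ne_two hp2).pow (n := k)) hk
  · rintro _ ⟨w, hw, rfl⟩ hopp e ⟨k, hk⟩ heB heC heP
    obtain ⟨τ, hτ⟩ := hN w hw
    have hanti : ∀ {a b : VI n}, a < b → a ≠ Fin.rev b → τ b < τ a :=
      fun h1 h2 => antiT hg hker' hτ hopp h1 h2
    have hanti' : ∀ {a b : VI n}, a < b → ¬ (a = c0 n ∧ b = c1 n) → τ b < τ a :=
      fun h1 h2 => anti' hanti h1 h2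
    have hwN : π w ∈ N.map π := ⟨w, hw, rfl⟩
    have hfX : ∀ s ∈ S, ∀ y ∈ Par ((BH H).map π) (π s), (π w)⁻¹ * y * π w ∈ (UH H).map π →
        e y ∈ Par ((BH H).map π) (π s) ∧ (π w)⁻¹ * e y * π w ∈ (UH H).map π := by
      intro s hs y hy hyU
      constructor
      · have h1 := apply_mem_am (f := e) hy
        rwa [heP _ ⟨s, hs, rfl⟩] at h1
      · have h1 := apply_mem_am (f := e) (mem_cj.2 hyU)
        rw [am_cj_U h' hr heC] at h1
        exact mem_cj.1 h1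
    have heT : ∀ t : ↥H, Mon t.1 1 → ∃ t' : ↥H, Mon t'.1 1 ∧ e (π t) = π t' := by
      intro t ht
      have htB : π t ∈ (BH H).map π := ⟨t, mem_BH'.2 (mem_T' ht), rfl⟩
      have htN : π t ∈ N.map π := ⟨t, hT t ht, rfl⟩
      have h1 := apply_mem_am (f := e) htB
      rw [heB] at h1
      have h3 := apply_mem_am (f := e) (mem_cj.2 (h'.norm' hwN htB htN))
      rw [heC] at h3
      have h4 := mem_N_of_opp h' hr hwN hopp h1 (mem_cj.1 h3)
      obtain ⟨t', ht', hte⟩ := h1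
      rw [← hte] at h4
      exact ⟨t', hT1 ht' ((hN' _).1 h4), hte.symm⟩
    -- the last simple reflection
    have hlast : n - 1 < n := by omega
    obtain ⟨s₀, hs₀, hm₀⟩ := hex (n - 1) hlast
    have hi₀ : (⟨n - 1, hlast⟩ : Fin n).val + 1 = n := by
      change n - 1 + 1 = n
      omega
    rw [H38.TT.ts_tau2 hlast hi₀] at hm₀
    obtain ⟨a, ha1, hak, hact⟩ := mul_shortT (i := ⟨n - 1, hlast⟩) hq hp hp2 hpl h2 hne hg hσ hker'
      hB hi₀ hm₀ (fun {y} hy => (h'.mem_Par ⟨s₀, hs₀, rfl⟩).1 hy) hτ hanti hanti' hk heT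
      (hfX s₀ hs₀)
    obtain ⟨m, hm⟩ : Odd (p ^ k) := (hp.odd_of_ne_two hp2).pow
    obtain ⟨t, htH, htM, htc, hti⟩ := hmid (a ^ m) (by rw [map_pow, ← mul_pow, ha1, one_pow])
    refine ⟨π ⟨t, htH⟩, ⟨_, mem_BH'.2 (mem_T' htM), rfl⟩, ⟨_, hT _ htM, rfl⟩, ?_⟩
    rintro _ ⟨s, hs, rfl⟩ y hyP hyU
    obtain ⟨i, ⟨hi, hsi⟩ | ⟨hi, hsi⟩⟩ := hS s hs
    · obtain ⟨c, hc, rfl⟩ := X_long hg hB hi hsi (fun {y} hy => (h'.mem_Par ⟨s, hs, rfl⟩).1 hy)
        hτ hanti' hyP hyU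
      rw [fix_longT hq hp hpl hg hker' hB hi hsi (fun {y} hy => (h'.mem_Par ⟨s, hs, rfl⟩).1 hy)
        hτ hanti hanti' hk (hfX s hs) hc, ← map_inv, ← map_mul, ← map_mul]
      congr 1
      have hma : ¬ Mid (ia i) := fun h => by
        have hav : (ia i).val = i.val := rfl
        rcases mid_val h with h | h <;> omega
      have hmb : ¬ Mid (ib i) := fun h => by
        have hbv : (ib i).val = i.val + 1 := rfl
        rcases mid_val h with h | h <;> omega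
      exact Subtype.ext (diag_xr hg (t := ⟨t, htH⟩) htM (ia_lt i).ne' (hti _ hmb) (hti _ hma) c)
    · obtain ⟨c, rfl⟩ := X_short hg hσ hB hi hsi (fun {y} hy => (h'.mem_Par ⟨s, hs, rfl⟩).1 hy)
        hτ hanti' hyP hyU
      have hii : i = ⟨n - 1, hlast⟩ := Fin.ext (by change i.val = n - 1; omega)
      subst hii
      rw [hact c, ← map_inv, ← map_mul, ← map_mul]
      congr 1
      have h3 := diag_xs hg (t := ⟨t, htH⟩) htM (last_nm hi) (a * c)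
      have h4 : t.1 (c0 n) (c0 n) * (t.1 (ia ⟨n - 1, hlast⟩) (ia ⟨n - 1, hlast⟩))⁻¹ * (a * c) = c := by
        rw [htc, hti _ (last_nm hi), inv_one, mul_one, ← pow_mul, mul_comm m 2, ← mul_assoc,
          ← pow_succ, ← hm, hak, one_mul]
      refine Subtype.ext (h3.trans ?_)
      exact congrArg (xs σ _) h4

end

end Vale.Agent.P240.R2.H727.P
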