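import Vale.Agent.P240.R2.H727.P4
import Vale.Agent.P240.R2.H38.T7
import Vale.Agent.P240.H195.Few

/-!
The groups `PΩ⁻` in even dimension over prime fields: all automorphisms of odd order `p` are inner,
if `p` is prime to `ℓ (ℓ - 1)`.
-/

set_option autoImplicit false
set_option linter.all false

namespace Vale.Agent.P240.R2.H727.P

open Subgroup Matrix Vale.Agent.P240.H195 Vale.Agent.P240.R2.H487.CG Vale.Agent.P240.R2.H997
open Vale.Agent.P240.R2.H38.DD hiding BH UH mem_BH' mem_UH'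
open Vale.Agent.P240.R2.H775.RD (BH UH mem_BH' mem_UH')
open Vale.Agent.P240.R2.H775.RT (Mid SimT GoodT)
open Vale.Agent.P240.R2.H38.TT
open scoped commutatorElement

universe u

section
variable {K : Type u} [Field K] [Finite K] {r : ℕ} {σ : K ≃+* K}

/-- products of diagonal elements -/
lemma diag_mul {m : ℕ} {A B : SLm m K} (hA : Mon A 1) (i : Fin (m + 1)) :
    (A * B).1 i i = A.1 i i * B.1 i i := by
  rw [sl_mul, Finset.sum_eq_single i]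
  · intro k _ hk
    rw [mon_eq hA (i := i) (j := k) (by rw [Equiv.Perm.one_apply]; exact hk.symm), zero_mul]
  · exact fun h => absurd (Finset.mem_univ _) h

/-- the middle torus and the commutator subgroup -/
lemma exists_mid (hr : 0 < r) (hσ : ∀ x, σ (σ x) = x) {τ : K} (hτ : τ * σ τ = 1) :
    ∃ t ∈ ⁅O.GM r σ, O.GM r σ⁆, Mon t 1 ∧ t.1 (c0 r) (c0 r) = τ ^ 2 ∧
      ∀ i, ¬ Mid i → t.1 i i = 1 := by
  obtain ⟨t, ht, htM, htc, hti⟩ := O.exists_t (r := r) hσ hτ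
  have hsh := O.ix_sh 0 hr
  obtain ⟨W, hW, hWm⟩ : ∃ W ∈ O.GM r σ, Mon W (Equiv.swap (O.ix 0 hr) (Fin.rev (O.ix 0 hr)) *
      O.PP r) := ⟨_, mul_mem (O.ye_gm hσ _ _) (mul_mem (O.ye_gm hσ _ _) (O.ye_gm hσ _ _)),
        O.ye_rank hσ hsh (one_ne_zero (α := K))⟩
  have hw1 : (Equiv.swap (O.ix 0 hr) (Fin.rev (O.ix 0 hr)) * O.PP r) (O.mb r) = O.ma r := by
    rw [Equiv.Perm.mul_apply, O.PP_mb,
      Equiv.swap_apply_of_ne_of_ne hsh.a.symm hsh.rev.a.symm]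
  have hw2 : (Equiv.swap (O.ix 0 hr) (Fin.rev (O.ix 0 hr)) * O.PP r) (O.ma r) = O.mb r := by
    rw [Equiv.Perm.mul_apply, O.PP_ma,
      Equiv.swap_apply_of_ne_of_ne hsh.b.symm hsh.rev.b.symm]
  have hinv : ∀ i, (t⁻¹).1 i i = t.1 (Fin.rev i) (Fin.rev i) := fun i =>
    O.Iso.inv_apply ht.1 i i
  have hD : Mon (W * t⁻¹ * W⁻¹) 1 := by
    have h1 := mon_mul (mon_mul hWm (mon_inv htM)) (mon_inv hWm)
    rwa [inv_one, mul_one, mul_inv_cancel] at h1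
  generalize Equiv.swap (O.ix 0 hr) (Fin.rev (O.ix 0 hr)) * O.PP r = w at *
  refine ⟨⁅t, W⁆, Subgroup.commutator_mem_commutator ht hW, ?_, ?_, ?_⟩
  · have e : ⁅t, W⁆ = t * (W * t⁻¹ * W⁻¹) := by rw [commutatorElement_def]; group
    rw [e]
    have := mon_mul htM hD
    rwa [one_mul] at this
  · have e : ⁅t, W⁆ = t * (W * t⁻¹ * W⁻¹) := by rw [commutatorElement_def]; group
    have e0 : c0 r = O.ma r := rfl
    have h1 := mon_conj hWm (t⁻¹) (O.mb r) (O.mb r)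
    rw [hw1, hinv, O.rev_mb, htc] at h1
    rw [e, diag_mul htM, e0, htc, h1, mul_comm (W.1 (O.ma r) (O.mb r)), mul_assoc,
      mul_inv_cancel₀, mul_one, sq]
    have h2 := mon_ne hWm (O.mb r)
    rwa [hw1] at h2
  · intro i hi
    have hiS : O.Sh i := ⟨fun h => hi (Or.inl h), fun h => hi (Or.inr h)⟩
    obtain ⟨x, rfl⟩ := w.surjective i
    have hxS : O.Sh x := ⟨fun h => hiS.b (by rw [h, hw2]), fun h => hiS.a (by rw [h, hw1])⟩
    have e : ⁅t, W⁆ = t * (W * t⁻¹ * W⁻¹) := by rw [commutatorElement_def]; group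
    have h1 := mon_conj hWm (t⁻¹) x x
    rw [hinv, hti _ hxS.rev, mul_one, mul_inv_cancel₀ (mon_ne hWm x)] at h1
    rw [e, diag_mul htM, hti _ hiS, h1, one_mul]

/-- the split BN-pair, with representatives of all simple reflections -/
theorem ad_sb {H : Subgroup (SLm (2 * r + 1) K)} (hA : Ad σ H) {p : ℕ} [hp : Fact p.Prime]
    [CharP K p] (hr : 0 < r) (hσ : ∀ x, σ (σ x) = x) :
    ∃ (N : Subgroup ↥H) (S : Set ↥H), (∀ s ∈ S, SimT s.1) ∧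
      (∀ (i : ℕ) (h : i < r), ∃ s ∈ S, Mon s.1 (O.ts i h)) ∧
      (∀ n ∈ N, ∃ τ, Mon n.1 τ) ∧ (∀ t : ↥H, Mon t.1 1 → t ∈ N) ∧
      SB p (BH H) N (UH H) S := by
  haveI := hA.normal
  have h1 := Vale.Agent.P240.R2.H487.CG.SB.subgroup (eo_Split (p := p) hr hσ).toSB
    (H := H.subgroupOf (O.EO r σ)) (fun x hx => hA.U hx)
  have h2 := h1.tr (subgroupOfEquivOfLe hA.leE)
  refine ⟨tr (subgroupOfEquivOfLe hA.leE) (((O.NO r σ).subgroupOf (O.EO r σ)).subgroupOf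
      (H.subgroupOf (O.EO r σ))), (subgroupOfEquivOfLe hA.leE).symm ⁻¹'
      (Vale.Agent.P240.R2.H487.CG.subS ((O.BO r σ).subgroupOf (O.EO r σ))
        ((O.NO r σ).subgroupOf (O.EO r σ)) {s : ↥(O.EO r σ) | s.1 ∈ O.SS' r σ}
        (H.subgroupOf (O.EO r σ))), ?_, ?_, ?_, ?_, ?_⟩
  rotate_left 4
  · have eB : tr (subgroupOfEquivOfLe hA.leE) (((O.BO r σ).subgroupOf (O.EO r σ)).subgroupOf
        (H.subgroupOf (O.EO r σ))) = BH H := by
      ext x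
      exact ⟨fun hx => hx.1, fun hx => mem_inf.2 ⟨hx, hA.le x.2⟩⟩
    have eU : tr (subgroupOfEquivOfLe hA.leE) (((O.UO r σ).subgroupOf (O.EO r σ)).subgroupOf
        (H.subgroupOf (O.EO r σ))) = UH H := by
      ext x
      exact ⟨fun hx => hx.1, fun hx => mem_inf.2 ⟨hx, hA.le x.2⟩⟩
    rw [eB, eU] at h2
    exact h2
  · rintro s ⟨hsN, a, ⟨haG, i, hi, ham⟩, has⟩
    have hs' : s.1 ∈ O.NO r σ := hsN
    have has' : a.1⁻¹ * s.1 ∈ O.BO r σ := has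
    have haN : a.1 ∈ O.NO r σ := (O.mem_NO σ).2 ⟨haG, _, O.ts_gp hi, ham⟩
    have h3 : Mon (a.1⁻¹ * s.1) 1 := O.BO_T has' (mul_mem (inv_mem haN) hs')
    have h4 : Mon (a.1 * (a.1⁻¹ * s.1)) (O.ts i hi * 1) := mon_mul ham h3
    rw [mul_inv_cancel_left, mul_one] at h4
    by_cases h5 : i + 1 < r
    · exact ⟨⟨i, hi⟩, Or.inl ⟨h5, by rw [← ts_tau1 hi h5]; exact h4⟩⟩
    · have h6 : i + 1 = r := by omega
      exact ⟨⟨i, hi⟩, Or.inr ⟨h6, by rw [← ts_tau2 hi h6]; exact h4⟩⟩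
  · intro i hi
    obtain ⟨a, haS, ham⟩ := exists_ts (σ := σ) hσ hi
    obtain ⟨t, htB, htN, hat⟩ := Vale.Agent.P240.R2.H487.CG.sub_rep_simple
      (eo_Split (p := p) hr hσ).toSB (H := H.subgroupOf (O.EO r σ)) (fun x hx => hA.U hx)
      (s := a) haS
    have htB' : t.1 ∈ O.BO r σ := htB
    have htN' : t.1 ∈ O.NO r σ := htN
    have haN : a.1 ∈ O.NO r σ := (O.mem_NO σ).2 ⟨haS.1, _, O.ts_gp hi, ham⟩
    have hat' : a.1 * t.1 ∈ H := hat
    refine ⟨⟨a.1 * t.1, hat'⟩, ⟨?_, a, haS, ?_⟩, ?_⟩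
    · change a.1 * t.1 ∈ O.NO r σ
      exact mul_mem haN htN'
    · change a.1⁻¹ * (a.1 * t.1) ∈ O.BO r σ
      rw [inv_mul_cancel_left]
      exact htB'
    · have h3 := mon_mul ham (O.BO_T htB' htN')
      rwa [mul_one] at h3
  · rintro n hn
    have hn' : n.1 ∈ O.NO r σ := hn
    obtain ⟨-, w, -, hm⟩ := (O.mem_NO σ).1 hn'
    exact ⟨w, hm⟩
  · intro t ht
    change t.1 ∈ O.NO r σ
    exact (O.mem_NO σ).2 ⟨hA.le t.2, 1, O.Gp.one, ht⟩

/-- **The groups `PΩ⁻` in even dimension over fields of prime order: all automorphisms of odd prime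
order `p`, prime to `ℓ (ℓ - 1)`, are inner.** -/
theorem p2_fewAut {ℓ p : ℕ} [hℓ : Fact ℓ.Prime] [CharP K ℓ] (hr : 0 < r)
    (hσ : ∀ x, σ (σ x) = x) (hne : ∃ x, σ x ≠ x) (hq : Nat.card {x : K // σ x = x} = ℓ)
    (hl2 : ℓ ≠ 2) (hp : p.Prime) (hp2 : p ≠ 2) (hpℓ : p ≠ ℓ) (hpl : ¬ p ∣ ℓ - 1)
    (hs : IsSimpleGroup (P2 r σ)) : FewAut p (P2 r σ) := by
  have hA := ad_comm (r := r) hσ hne
  obtain ⟨N, S, hS, hex, hN, hT, hSB⟩ := ad_sb hA (p := ℓ) hr hσ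
  have e' := centreIso (comm2 (r := r) (σ := σ))
  have h3 : IsSimpleGroup (↥⁅O.GM r σ, O.GM r σ⁆ ⧸ center ↥⁅O.GM r σ, O.GM r σ⁆) :=
    e'.isSimpleGroup
  have h2 : (2 : K) ≠ 0 := by
    intro h0
    have h4 : ((2 : ℕ) : K) = 0 := by exact_mod_cast h0
    rw [CharP.cast_eq_zero_iff K ℓ 2] at h4
    exact hl2 ((Nat.prime_dvd_prime_iff_eq hℓ.out Nat.prime_two).1 h4)
  refine FewAut.congr e' (fewAut_of_inner fun f hf => ?_)
  exact dt_inner hr hq hp hp2 hpℓ hpl h2 hne hA.good hσ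
    (fun τ hτ => exists_mid hr hσ hτ) hS hex hN hT hSB h3 hf

end

end Vale.Agent.P240.R2.H727.P
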