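import Vale.Agent.P240.R2.H727.Q5c
import Vale.Agent.P240.R2.H687.TG

/-!
The groups `PΩ_8^+(q)` over fields of prime order: automorphisms of order `3`.
-/

set_option autoImplicit false
set_option linter.all false

namespace Vale.Agent.P240.R2.H727.Q5

open Subgroup Matrix Vale.Agent.P240.H195
open Vale.Agent.P240.R2.H38.DD
open Vale.Agent.P240.R2.H145.EO hiding SOD
open Vale.Agent.P240.R2.H432.Q (OD0 tg rho rho_mem rho_det exists_tg det_cases tg_coe pM pM_apply)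
open Vale.Agent.P240.R2.H687.T (Bs Sd)

universe u

section
variable {K : Type u} [Field K] [Finite K]

/-- transport of automorphisms -/
lemma inner_of_equiv {G L : Type*} [Group G] [Group L] (e : G ≃* L) {f : MulAut L}
    (h : ((e.trans f).trans e.symm : MulAut G) ∈ (MulAut.conj (G := G)).range) :
    f ∈ (MulAut.conj (G := L)).range := by
  obtain ⟨g, hg⟩ := h
  refine ⟨e g, ?_⟩
  ext x
  have h1 : (MulAut.conj g) (e.symm x) = e.symm (f (e (e.symm x))) := by rw [hg]; rfl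
  rw [e.apply_symm_apply] at h1
  have h2 := congrArg e h1
  rw [e.apply_symm_apply, MulAut.conj_apply, map_mul, map_mul, map_inv, e.apply_symm_apply] at h2
  rw [MulAut.conj_apply]
  exact h2

/-- **the core** -/
theorem q5_core {r : ℕ} [hr : Fact r.Prime] [CharP K r] (h2 : (2 : K) ≠ 0) (hr3 : 3 ≠ r)
    (hK : Nat.card K = r) (h31 : ¬ 3 ∣ r - 1) {a : VI 3 → K} (ha : ∀ i, a i ≠ 0) {P : GL (VI 3) K}
    (hP : ∀ v, B a (ac P v) (ac P v) = Qd 3 K v)
    {ε : K} {y : Fin 8 → Fin 8 → K} (hb : Bs a ε y) {l : ℕ} {s : GL (Fin 8) K} (hs : Sd a y l s)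
    {L : Type u} [Group L] (hsimple : IsSimpleGroup L)
    (e : (↥(EE 3 K) ⧸ center ↥(EE 3 K)) ≃* L) (g : ↥(EE 3 K))
    (hg : P * tg 3 K g.1 * P⁻¹ = s ∨ P * tg 3 K g.1 * P⁻¹ = -s)
    {f : MulAut L} (hf : f ^ 3 = 1) (hfg : f (e (pH _ g)) = e (pH _ g)) :
    f ∈ (MulAut.conj (G := L)).range := by
  have hsim : IsSimpleGroup (↥(EE 3 K) ⧸ center ↥(EE 3 K)) := e.isSimpleGroup
  -- the action of `g`
  obtain ⟨c, hc, hgs⟩ : ∃ c : K, (c = 1 ∨ c = -1) ∧ ∀ v, ac (tg 3 K g.1) (ac P⁻¹ v) =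
      c • ac P⁻¹ (ac s v) := by
    have e1 : ∀ v, ac (tg 3 K g.1) (ac P⁻¹ v) = ac P⁻¹ (ac (P * tg 3 K g.1 * P⁻¹) v) := by
      intro v
      rw [← ac_mul, ← ac_mul]
      congr 1
      group
    rcases hg with h | h
    · exact ⟨1, Or.inl rfl, fun v => by rw [e1, h, one_smul]⟩
    · refine ⟨-1, Or.inr rfl, fun v => ?_⟩
      rw [e1, h]
      have e2 : ac (-s) v = -ac s v := by
        unfold ac
        exact neg_mulVec _ _
      rw [e2, ac_neg, neg_smul, one_smul]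
  apply inner_of_equiv e
  refine d4_inner (r := r) EE_good EE_gen hsim hr3 hK h31 (g := g) ?_ ?_ ?_ ?_
  · have h1 : ∀ k : ℕ, ∀ x, (((e.trans f).trans e.symm : MulAut _) ^ k) x = e.symm ((f ^ k) (e x)) := by
      intro k
      induction k with
      | zero =>
        intro x
        show x = e.symm (e x)
        rw [e.symm_apply_apply]
      | succ k ih =>
        intro x
        rw [pow_succ, MulAut.mul_apply, ih, pow_succ, MulAut.mul_apply]
        show e.symm ((f ^ k) (e (e.symm (f (e x))))) = _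
        rw [e.apply_symm_apply]
    ext x : 1
    rw [h1, hf]
    show e.symm (e x) = x
    exact e.symm_apply_apply x
  · show e.symm (f (e (pH _ g))) = _
    rw [hfg, e.symm_apply_apply]
  · -- a singular line
    obtain ⟨v0, v1, v2⟩ := hs.sing hb
    have hv0 : ac P⁻¹ (y 4 + y 5) ≠ 0 := by
      intro h
      apply v0
      have h1 := ac_inv' P (y 4 + y 5)
      rw [h] at h1
      rw [← h1]
      exact mulVec_zero _
    have hv1 : Qd 3 K (ac P⁻¹ (y 4 + y 5)) = 0 := by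
      rw [← hP, ac_inv', v1]
    obtain ⟨x, hx, t, ht, hxe⟩ := exists_line h2 ha hP hv0 hv1
    have hx1 : ac (tg 3 K x) (e0 K) = t • ac P⁻¹ (y 4 + y 5) := hxe
    refine ⟨⟨x⁻¹, inv_mem hx⟩, mem_StI0 (t := c) ?_⟩
    have e1 : (x⁻¹ * g.1 * x⁻¹⁻¹).1 *ᵥ e0 K = ac (tg 3 K (x⁻¹ * g.1 * x⁻¹⁻¹)) (e0 K) := rfl
    show (x⁻¹ * g.1 * x⁻¹⁻¹).1 *ᵥ e0 K = c • e0 K
    rw [e1, inv_inv, map_mul, map_mul, map_inv, ac_mul, ac_mul, hx1, ac_smul, hgs, v2, smul_comm,
      ac_smul, ← hx1, ac_inv]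
  · -- no totally singular subspace
    intro j hj x hx
    have hc0 : c ≠ 0 := by
      rcases hc with h | h
      · rw [h]; exact one_ne_zero
      · rw [h]; exact neg_ne_zero.2 one_ne_zero
    let G : GL (VI 3) K := tg 3 K x.1 * P⁻¹
    let U : Submodule K (Fin 8 → K) := (MM K j).comap (lin G).toLinearMap
    have hmem : ∀ v, v ∈ U ↔ ac G v ∈ MM K j := fun v => Iff.rfl
    refine hs.no_ts hb (U := U) ?_ ?_ ?_
    · have h3 : U = (MM K j).map (lin G).symm.toLinearMap := by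
        show (MM K j).comap (lin G).toLinearMap = _
        rw [Submodule.comap_equiv_eq_map_symm]
      rw [h3, LinearEquiv.finrank_map_eq, MM_rank hj]
    · intro v hv
      rw [hmem] at hv ⊢
      have h4 : (x * g * x⁻¹).1.1 *ᵥ (ac G v) ∈ MM K j := MM_stab hx hv
      have h5 : (x * g * x⁻¹).1.1 *ᵥ (ac G v) = c • ac G (ac s v) := by
        have e1 : (x * g * x⁻¹).1.1 *ᵥ (ac G v) = ac (tg 3 K (x.1 * g.1 * x.1⁻¹)) (ac G v) := rfl
        have e2 : ac G v = ac (tg 3 K x.1) (ac P⁻¹ v) := ac_mul _ _ _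
        have e3 : ac G (ac s v) = ac (tg 3 K x.1) (ac P⁻¹ (ac s v)) := ac_mul _ _ _
        rw [e1, e2, e3, map_mul, map_mul, map_inv, ac_mul, ac_mul, ac_inv, hgs, ac_smul]
      rw [h5] at h4
      have h6 := (MM K j).smul_mem c⁻¹ h4
      rwa [smul_smul, inv_mul_cancel₀ hc0, one_smul] at h6
    · intro v hv
      rw [hmem] at hv
      have h4 := MM_ts hj hv
      have e2 : ac G v = ac (tg 3 K x.1) (ac P⁻¹ v) := ac_mul _ _ _
      have h5 : Qd 3 K (ac (tg 3 K x.1) (ac P⁻¹ v)) = Qd 3 K (ac P⁻¹ v) :=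
        EE_le x.2 _
      rw [e2, h5, ← hP, ac_inv'] at h4
      exact h4

end

end Vale.Agent.P240.R2.H727.Q5
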