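import Vale.Agent.P240.R2.H727.P1
import Vale.Agent.P240.R2.H112.Dg3

/-!
Simple groups with a split BN-pair with a diagram of type `D_4`: automorphisms of order `3` that
fix an element that lies in a maximal parabolic subgroup of one type, but not in those of two other
types.
-/

set_option autoImplicit false
set_option linter.all false

namespace Vale.Agent.P240.R2.H727.Q5

open Subgroup Vale.Agent.P240.K Vale.Agent.P240.H195 Vale.Agent.P240.R2.H997
open Vale.Agent.P240.R2.H112.Dg (Da branch_fix)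

universe u

section
variable {L : Type u} [Group L] {B N U : Subgroup L} {S : Set L} {r : ℕ}

/-- subgroups over `B` are generated by `B` and generators -/
lemma gen_le [Finite L] (h : SB r B N U S) {Q R : Subgroup L} (hQ : B ≤ Q) (hR : B ≤ R)
    (hS : ∀ s ∈ S, s ∈ Q → s ∈ R) : Q ≤ R := by
  have key : ∀ k, ∀ n, h.toBN0.Len k n → n ∈ Q → n ∈ R := by
    intro k
    induction k using Nat.strong_induction_on with
    | _ k ih =>
      intro n hk hn
      have hnN := h.wd_mem hk.1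
      by_cases hnB : n ∈ B
      · exact hR hnB
      · obtain ⟨s, hs, m, hm, hk0, hrg, hms⟩ := h.exists_desc_len hk hnB
        obtain ⟨h1, h2⟩ := h.desc_mem hQ hn hs hrg hms
        have h3 := hS s hs h1
        have h4 := ih (k - 1) (by omega) m hm h2
        have e1 : n = m * s * ((m * s)⁻¹ * n) := by group
        rw [e1]
        exact mul_mem (mul_mem h4 h3) (hR hms)
  intro x hx
  obtain ⟨n, hn, a, ha, c, hc, rfl⟩ := h.bruhat x
  have hnQ : n ∈ Q := by
    have e1 : n = a⁻¹ * (a * n * c) * c⁻¹ := by group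
    rw [e1]
    exact mul_mem (mul_mem (inv_mem (hQ ha)) hx) (inv_mem (hQ hc))
  obtain ⟨k, hk⟩ := h.exists_len hn
  exact mul_mem (mul_mem (hR ha) (key k n hk hnQ)) (hR hc)

/-- `noOut_root` for one automorphism `f` -/
theorem noOutC (h : SB r B N U S) [Finite L] (hsimple : IsSimpleGroup L) (hr : r.Prime) {p : ℕ}
    (hp : p.Prime) (hpr : p ≠ r) {n₀ : L} (hn₀ : n₀ ∈ N)
    (hopp : ∀ x ∈ U, n₀ * x * n₀⁻¹ ∈ U → x = 1)
    {f : MulAut L} (hf : f ^ p = 1)
    (h1 : ∀ e : MulAut L, (∃ k, e ^ p ^ k = 1) → e ∈ zpowers f ⊔ (MulAut.conj (G := L)).range →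
      am e B = B → ∀ s ∈ S, am e (Par B s) = Par B s)
    (h2 : ∀ s ∈ S, ∀ e : MulAut (cj n₀ U ⊓ Par B s : Subgroup L), (∃ k, e ^ p ^ k = 1) → e = 1) :
    f ∈ (MulAut.conj (G := L)).range := by
  by_contra hfI
  have hnI : (MulAut.conj (G := L)).range.Normal := normal_conj
  obtain ⟨g, hg⟩ := h.exists_conj hr f
  set I := (MulAut.conj (G := L)).range with hI
  have hgI : MulAut.conj g ∈ I := ⟨g, rfl⟩
  obtain ⟨e₀, he₀⟩ : ∃ e₀, e₀ = (MulAut.conj g)⁻¹ * f := ⟨_, rfl⟩
  have he₀f : e₀ ∈ zpowers f ⊔ I := by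
    rw [he₀]
    exact mul_mem ((le_sup_right : I ≤ _) (inv_mem hgI))
      ((le_sup_left : zpowers f ≤ _) (mem_zpowers f))
  have he₀B : am e₀ B = B := by
    have e1 : (MulAut.conj g)⁻¹ = MulAut.conj g⁻¹ := (map_inv _ _).symm
    rw [he₀, am_mul, hg, e1, am_conj, ← cj_mul, inv_mul_cancel, cj_one]
  have he₀I : e₀ ∉ I := by
    intro hc
    apply hfI
    have : f = MulAut.conj g * e₀ := by rw [he₀, mul_inv_cancel_left]
    rw [this]
    exact mul_mem hgI hc
  have he₀p : e₀ ^ p ∈ I := by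
    rw [← QuotientGroup.eq_one_iff (N := I)]
    have h3 : ((e₀ : MulAut L) : MulAut L ⧸ I) = (f : MulAut L ⧸ I) := by
      rw [he₀, QuotientGroup.mk_mul, QuotientGroup.mk_inv, (QuotientGroup.eq_one_iff _).2 hgI,
        inv_one, one_mul]
    rw [QuotientGroup.mk_pow, h3, ← QuotientGroup.mk_pow, hf, QuotientGroup.mk_one]
  -- the `p`-part
  have hord : orderOf e₀ ≠ 0 := (orderOf_pos e₀).ne'
  obtain ⟨a, m, hm, hord'⟩ := Nat.exists_eq_pow_mul_and_not_dvd hord p hp.ne_one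
  obtain ⟨e, he⟩ : ∃ e, e = e₀ ^ m := ⟨_, rfl⟩
  have hef : e ∈ zpowers f ⊔ I := by
    rw [he]
    exact pow_mem he₀f m
  have hea : e ^ p ^ a = 1 := by
    rw [he, ← pow_mul, mul_comm, ← hord', pow_orderOf_eq_one]
  have heB : am e B = B := by rw [he]; exact am_pow_eq he₀B m
  have heI : e ∉ I := by
    intro hc
    apply he₀I
    have hcop : Nat.Coprime p m := (Nat.Prime.coprime_iff_not_dvd hp).2 hm
    have h3 := Nat.gcd_eq_gcd_ab p m
    rw [hcop.gcd_eq_one] at h3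
    have h4 : e₀ = (e₀ ^ p) ^ (Nat.gcdA p m) * e ^ (Nat.gcdB p m) := by
      rw [he, ← zpow_natCast, ← zpow_natCast, ← zpow_mul, ← zpow_mul, ← zpow_add, ← h3]
      simp
    rw [h4]
    exact mul_mem (zpow_mem he₀p _) (zpow_mem hc _)
  obtain ⟨C, hC, heC⟩ := exists_opp_fix h hr hp hpr hea heB
  have hlong := h.long_of_opp hr hn₀ hopp
  obtain ⟨u, hu, rfl⟩ := (h.opp_iff hr hlong).1 hC
  have huB := h.le hu
  have huI : MulAut.conj u ∈ I := ⟨u, rfl⟩
  -- the conjugate that stabilizes the standard opposite chamber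
  obtain ⟨e', he'⟩ : ∃ e', e' = (MulAut.conj u)⁻¹ * e * MulAut.conj u := ⟨_, rfl⟩
  have hu1 : (MulAut.conj u)⁻¹ = MulAut.conj u⁻¹ := (map_inv _ _).symm
  have he'f : e' ∈ zpowers f ⊔ I := by
    rw [he']
    exact mul_mem (mul_mem ((le_sup_right : I ≤ _) (inv_mem huI)) hef)
      ((le_sup_right : I ≤ _) huI)
  have he'I : e' ∉ I := by
    intro hc
    apply heI
    have h3 : e = MulAut.conj u * e' * (MulAut.conj u)⁻¹ := by rw [he']; group
    rw [h3]
    exact hnI.conj_mem _ hc _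
  have he'a : e' ^ p ^ a = 1 := by
    have h3 : e' = (MulAut.conj u)⁻¹ * e * (MulAut.conj u)⁻¹⁻¹ := by rw [he', inv_inv]
    rw [h3, conj_pow, hea, mul_one, mul_inv_cancel]
  have he'B : am e' B = B := by
    rw [he', am_mul, am_mul, am_conj, cj_self huB, heB, hu1, am_conj, cj_self (inv_mem huB)]
  have he'C : am e' (cj n₀ B) = cj n₀ B := by
    rw [he', am_mul, am_mul, am_conj, ← cj_mul, heC, hu1, am_conj, ← cj_mul, inv_mul_cancel_left]
  have hP := h1 e' ⟨a, he'a⟩ he'f he'B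
  have h5 := h.eq_one_of_roots hsimple hr he'B hP hn₀ hopp he'C (by
    intro s hs y hy hyU
    refine fix_of_triv (h2 s hs) he'a ?_ y ⟨mem_cj.2 hyU, hy⟩
    rw [am_inf, am_cj_U h hr he'C, hP s hs])
  exact he'I (h5 ▸ one_mem _)

/-- **`D_4`**: an automorphism of order a power of `3` that stabilizes `B` stabilizes the minimal
parabolic subgroups or moves the first one to the third or fourth -/
theorem par_D4 (h : SB r B N U S) [Finite L] (s : Fin 4 → L)
    (hs : ∀ i, s i ∈ S) (hall : ∀ t ∈ S, ∃ i, (s i)⁻¹ * t ∈ B)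
    (hinj : ∀ i j, (s i)⁻¹ * s j ∈ B → i = j)
    (hD : ∀ i j, i ≠ j → ((s j * s i)⁻¹ * (s i * s j) ∉ B ↔ Da 4 i j))
    {e : MulAut L} (he : am e B = B) {a : ℕ} (hea : e ^ 3 ^ a = 1) :
    (∀ t ∈ S, am e (Par B t) = Par B t) ∨
      ∃ j, (j = 2 ∨ j = 3) ∧ am e (Par B (s 0)) = Par B (s j) := by
  obtain ⟨σ, h1, h2, -, h3⟩ := par_perm h s hs hall hinj he
  have hσ : ∀ i j, Da 4 i j ↔ Da 4 (σ i) (σ j) := by
    intro i j
    by_cases hij : i = j
    · subst hij
      constructor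
      · intro h4
        exfalso
        unfold Da at h4
        omega
      · intro h4
        exfalso
        unfold Da at h4
        omega
    · have hij' : σ i ≠ σ j := fun h4 => hij (σ.injective h4)
      rw [← hD i j hij, ← hD _ _ hij', h2]
  have hb : σ 1 = 1 := branch_fix (le_refl 4) hσ 1 rfl
  have hpow := h3 _ hea
  by_cases h0 : σ 0 = 0
  · left
    have h4 : ∀ τ : Equiv.Perm (Fin 4), τ 1 = 1 → τ 0 = 0 → τ ^ 2 = 1 := by decide
    have h5 := h4 σ hb h0
    have h6 : σ = 1 := by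
      have hodd : Odd (3 ^ a) := Odd.pow (by decide)
      obtain ⟨k, hk⟩ := hodd
      rw [hk, pow_add, pow_mul, h5, one_pow, one_mul, pow_one] at hpow
      exact hpow
    exact par_fix_of_perm h hs hall h1 h6
  · right
    refine ⟨σ 0, ?_, h1 0⟩
    have h7 : σ 0 ≠ 1 := fun h8 => by
      have h9 : (0 : Fin 4) = 1 := σ.injective (h8.trans hb.symm)
      exact absurd h9 (by decide)
    have h8 : ∀ x : Fin 4, x ≠ 0 → x ≠ 1 → x = 2 ∨ x = 3 := by decide
    exact h8 _ h0 h7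

/-- **the abstract theorem** -/
theorem inner_of_type (h : SB r B N U S) [Finite L] (hsimple : IsSimpleGroup L) (hr : r.Prime)
    (hpr : 3 ≠ r) {n₀ : L} (hn₀ : n₀ ∈ N) (hopp : ∀ x ∈ U, n₀ * x * n₀⁻¹ ∈ U → x = 1)
    (s : Fin 4 → L) (hs : ∀ i, s i ∈ S) (hall : ∀ t ∈ S, ∃ i, (s i)⁻¹ * t ∈ B)
    (hinj : ∀ i j, (s i)⁻¹ * s j ∈ B → i = j)
    (hD : ∀ i j, i ≠ j → ((s j * s i)⁻¹ * (s i * s j) ∉ B ↔ Da 4 i j))
    (h2 : ∀ s ∈ S, ∀ e : MulAut (cj n₀ U ⊓ Par B s : Subgroup L), (∃ k, e ^ 3 ^ k = 1) → e = 1)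
    (Q : Fin 4 → Subgroup L) (hQ : ∀ i, B ≤ Q i) (hQs : ∀ i j, s i ∈ Q j ↔ i ≠ j)
    {f : MulAut L} (hf : f ^ 3 = 1) {g : L} (hfg : f g = g)
    (hg0 : ∃ x, x * g * x⁻¹ ∈ Q 0) (hg1 : ∀ j, (j = 2 ∨ j = 3) → ∀ x, x * g * x⁻¹ ∉ Q j) :
    f ∈ (MulAut.conj (G := L)).range := by
  refine noOutC h hsimple hr Nat.prime_three hpr hn₀ hopp hf ?_ h2
  rintro e ⟨a, hea⟩ hef heB
  rcases par_D4 h s hs hall hinj hD heB hea with h3 | ⟨j, hj, h3⟩
  · exact h3
  · exfalso
    -- `e` maps `Q 0` into `Q j`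
    have hQQ : am e (Q 0) ≤ Q j := by
      have hB0 : B ≤ am e (Q 0) := by
        have h4 : am e B ≤ am e (Q 0) := am_le.2 (hQ 0)
        rwa [heB] at h4
      refine gen_le h hB0 (hQ j) fun t ht htQ => ?_
      obtain ⟨i, hi⟩ := hall t ht
      have hij : i ≠ j := by
        rintro rfl
        have h5 : s i ∈ am e (Q 0) := by
          have e1 : s i = t * ((s i)⁻¹ * t)⁻¹ := by group
          rw [e1]
          exact mul_mem htQ (inv_mem (hB0 hi))
        have h6 : Par B (s i) ≤ am e (Q 0) := SB.par_le hB0 h5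
        rw [← h3, am_le] at h6
        exact (hQs 0 0).1 (h6 self_mem_Par) rfl
      have e1 : t = s i * ((s i)⁻¹ * t) := by group
      rw [e1]
      exact mul_mem ((hQs i j).2 hij) (hQ j hi)
    -- `e g` is conjugate to `g`
    have hconj : ∃ z : L, e g = z * g * z⁻¹ := by
      let K : Subgroup (MulAut L) :=
        { carrier := {x | ∃ z : L, x g = z * g * z⁻¹}
          one_mem' := ⟨1, by simp⟩
          mul_mem' := by
            rintro x y ⟨z, hz⟩ ⟨w, hw⟩
            refine ⟨x w * z, ?_⟩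
            show x (y g) = _
            rw [hw, map_mul, map_mul, map_inv, hz]
            group
          inv_mem' := by
            rintro x ⟨z, hz⟩
            refine ⟨(x⁻¹ z)⁻¹, ?_⟩
            have h4 : x⁻¹ (x g) = g := by rw [← MulAut.mul_apply, inv_mul_cancel, MulAut.one_apply]
            rw [hz, map_mul, map_mul, map_inv] at h4
            show x⁻¹ g = _
            conv_rhs => rw [← h4]
            group }
      have h4 : zpowers f ⊔ (MulAut.conj (G := L)).range ≤ K := by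
        refine sup_le ?_ ?_
        · rw [zpowers_le]
          exact ⟨1, by rw [hfg]; group⟩
        · rintro _ ⟨z, rfl⟩
          exact ⟨z, by rw [MulAut.conj_apply]⟩
      exact h4 hef
    obtain ⟨z, hz⟩ := hconj
    obtain ⟨x, hx⟩ := hg0
    refine hg1 j hj (e x * z) ?_
    have h5 : e (x * g * x⁻¹) ∈ Q j := hQQ (apply_mem_am hx)
    rw [map_mul, map_mul, map_inv, hz] at h5
    have e1 : e x * z * g * (e x * z)⁻¹ = e x * (z * g * z⁻¹) * (e x)⁻¹ := by group
    rwa [e1]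

end

end Vale.Agent.P240.R2.H727.Q5
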