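import Vale.Agent.P240.R2.H727.Q5a
import Vale.Agent.P240.R2.H432.N2c

/-!
The groups of type `D_4` over a field of prime order `r`, `3` prime to `r (r - 1)`: automorphisms of
order `3` that fix an element that stabilizes a singular line, but no maximal totally singular
subspace.
-/

set_option autoImplicit false
set_option linter.all false

namespace Vale.Agent.P240.R2.H727.Q5

open Subgroup Matrix Vale.Agent.P240.H195 Vale.Agent.P240.R2.H487.CG
open Vale.Agent.P240.K (cj mem_cj)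
open Vale.Agent.P240.R2.H38.DD Vale.Agent.P240.R2.H997 Vale.Agent.P240.R2.H112.Dg
open Vale.Agent.P240.R2.H432.NO

/-- the spaces spanned by standard vectors -/
def II (j : Fin 4) (b : VI 3) : Prop :=
  (j = 0 ∧ b.val = 0) ∨ (j = 1 ∧ b.val ≤ 1) ∨ (j = 2 ∧ (b.val ≤ 2 ∨ b.val = 4)) ∨
    (j = 3 ∧ b.val ≤ 3)

instance (j : Fin 4) (b : VI 3) : Decidable (II j b) := by
  unfold II
  infer_instance

lemma nd_II : ∀ i j : Fin 4, (∀ b : VI 3, II j b → II j (nd 3 (by decide) i b)) ↔ i ≠ j := by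
  decide

lemma nd_Da' : ∀ i j : Fin 4, i ≠ j →
    (¬ (nd 3 (by decide) i * nd 3 (by decide) j = nd 3 (by decide) j * nd 3 (by decide) i) ↔
      ((i.1 + 1 = j.1 ∧ j.1 + 1 < 4) ∨ (j.1 + 1 = i.1 ∧ i.1 + 1 < 4) ∨
    (i.1 + 3 = 4 ∧ j.1 + 1 = 4) ∨ (j.1 + 3 = 4 ∧ i.1 + 1 = 4))) := by
  decide

lemma nd_Da (hk0 : 0 < 3) (i j : Fin 4) (hij : i ≠ j) {P : Prop}
    (hP : P ↔ nd 3 hk0 i * nd 3 hk0 j = nd 3 hk0 j * nd 3 hk0 i) : ¬ P ↔ Da 4 i j := by
  rw [hP]
  exact nd_Da' i j hij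

lemma conj_not_mem {G L : Type*} [Group G] [Group L] (π : G →* L) (hπ : Function.Surjective π)
    {Q : Subgroup L} {g : G} (h : ∀ y : G, π (y * g * y⁻¹) ∉ Q) : ∀ x, x * π g * x⁻¹ ∉ Q := by
  intro x hx
  obtain ⟨y, rfl⟩ := hπ x
  apply h y
  rwa [map_mul, map_mul, map_inv]

section
variable {F : Type*} [Field F]

/-- matrices that stabilize the spaces -/
def Ps (j : Fin 4) (x : SLm (2 * 3 + 1) F) : Prop := ∀ a b : VI 3, ¬ II j a → II j b → x.1 a b = 0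

lemma Ps_one (j : Fin 4) : Ps j (1 : SLm (2 * 3 + 1) F) := by
  intro a b ha hb
  rw [sl_one, if_neg (by rintro rfl; exact ha hb)]

lemma Ps_mul {j : Fin 4} {x y : SLm (2 * 3 + 1) F} (hx : Ps j x) (hy : Ps j y) : Ps j (x * y) := by
  intro a b ha hb
  rw [sl_mul]
  refine Finset.sum_eq_zero fun c _ => ?_
  by_cases hc : II j c
  · rw [hx a c ha hc, zero_mul]
  · rw [hy c b hc hb, mul_zero]

lemma Ps_pow {j : Fin 4} {x : SLm (2 * 3 + 1) F} (hx : Ps j x) (n : ℕ) : Ps j (x ^ n) := by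
  induction n with
  | zero => rw [pow_zero]; exact Ps_one j
  | succ n ih => rw [pow_succ]; exact Ps_mul ih hx

lemma Ps_inv [Finite F] {j : Fin 4} {x : SLm (2 * 3 + 1) F} (hx : Ps j x) : Ps j x⁻¹ := by
  have h1 : x⁻¹ = x ^ (orderOf x - 1) := by
    refine inv_eq_of_mul_eq_one_left ?_
    rw [← pow_succ, Nat.sub_add_cancel (orderOf_pos x), pow_orderOf_eq_one]
  rw [h1]
  exact Ps_pow hx _

/-- the stabilizers -/
def StI (F : Type*) [Field F] [Finite F] (j : Fin 4) : Subgroup (SLm (2 * 3 + 1) F) where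
  carrier := {x | Ps j x}
  one_mem' := Ps_one j
  mul_mem' := Ps_mul
  inv_mem' := Ps_inv

variable [Finite F]

lemma mem_StI {j : Fin 4} {x : SLm (2 * 3 + 1) F} : x ∈ StI F j ↔ Ps j x := Iff.rfl

lemma StI_mon {j i : Fin 4} {x : SLm (2 * 3 + 1) F} (hx : Mon x (nd 3 (by decide) i)) :
    x ∈ StI F j ↔ i ≠ j := by
  rw [← nd_II i j, mem_StI]
  constructor
  · intro h b hb
    by_contra hcon
    exact mon_ne hx b (h _ _ hcon hb)
  · intro h a b ha hb
    refine mon_eq hx fun hab => ha ?_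
    rw [hab]
    exact h b hb

lemma StI_mon1 {j : Fin 4} {x : SLm (2 * 3 + 1) F} (hx : Mon x 1) : x ∈ StI F j := by
  intro a b ha hb
  refine mon_eq hx fun hab => ha ?_
  rw [hab]
  exact hb

lemma StI_up {j : Fin 4} {x : SLm (2 * 3 + 1) F} (hx : x ∈ SOD 3 F) (hu : IsUp x) :
    x ∈ StI F j := by
  intro a b ha hb
  by_cases hab : b < a
  · exact hu a b hab
  · have hm := up_mid hx hu
    have ha2 := a.2
    have hb2 := b.2
    have h1 : a.val = 3 ∧ b.val = 4 := by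
      rw [Fin.lt_def] at hab
      unfold II at ha hb
      push Not at ha
      obtain ⟨a0, a1, a2, a3⟩ := ha
      rcases hb with ⟨rfl, hb⟩ | ⟨rfl, hb⟩ | ⟨rfl, hb⟩ | ⟨rfl, hb⟩
      · have := a0 rfl
        omega
      · have := a1 rfl
        omega
      · have := a2 rfl
        omega
      · have := a3 rfl
        omega
    have e1 : a = c0 3 := Fin.ext h1.1
    have e2 : b = c1 3 := Fin.ext h1.2
    rw [e1, e2]
    exact hm

/-- **the theorem for the groups of type `D_4`** -/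
theorem d4_inner {H : Subgroup (SLm (2 * 3 + 1) F)} {r : ℕ} [hr : Fact r.Prime] [CharP F r]
    (hg : Good H) (hgen : Gen H) (hsimple : IsSimpleGroup (↥H ⧸ center ↥H)) (hr3 : 3 ≠ r)
    (hF : Nat.card F = r) (h31 : ¬ 3 ∣ r - 1)
    {f : MulAut (↥H ⧸ center ↥H)} (hf : f ^ 3 = 1) {g : ↥H} (hfg : f (pH H g) = pH H g)
    (hg0 : ∃ x : ↥H, (x * g * x⁻¹).1 ∈ StI F 0)
    (hg1 : ∀ j : Fin 4, (j = 2 ∨ j = 3) → ∀ x : ↥H, (x * g * x⁻¹).1 ∉ StI F j) :
    f ∈ (MulAut.conj (G := ↥H ⧸ center ↥H)).range := by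
  have hk0 : 0 < 3 := by decide
  have h := dSB (p := r) hk0 hg hgen
  have h' := qSB (p := r) hk0 hg hgen
  have hN : ∀ n ∈ NH H, ∃ τ, Mon n.1 τ := fun n hn => NH_mon hn
  have hker : ∀ k, pH H k = 1 → k ∈ BH H ∧ k ∈ NH H := by
    intro k hk
    have h1 : k ∈ center ↥H := (QuotientGroup.eq_one_iff k).1 hk
    exact center_le_T h hr.out fun g => (mem_center_iff.1 h1 g).symm
  have hB : ∀ x, pH H x ∈ (BH H).map (pH H) ↔ x ∈ BH H := fun x =>
    map_mem_iff fun k hk => (hker k hk).1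
  have hT1 : ∀ {x : ↥H}, x ∈ BH H → x ∈ NH H → Mon x.1 1 := by
    intro x hx hxN
    obtain ⟨τ, hτ⟩ := hN x hxN
    have := mon_up hτ (mem_BH'.1 hx)
    rwa [this] at hτ
  have hker' : ∀ x : ↥H, pH H x = 1 → Mon x.1 1 := fun x hx => hT1 (hker x hx).1 (hker x hx).2
  have hQm : ∀ (j : Fin 4) (x : ↥H), pH H x ∈ ((StI F j).subgroupOf H).map (pH H) ↔
      x.1 ∈ StI F j := fun j x => map_mem_iff (H := (StI F j).subgroupOf H) fun k hk =>
    mem_subgroupOf.2 (StI_mon1 (hker' k hk))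
  have he1 : ∀ x : ↥H, pH H (x * g * x⁻¹) = pH H x * pH H g * (pH H x)⁻¹ := by
    intro x
    rw [map_mul (pH H), map_mul (pH H), map_inv (pH H)]
  obtain ⟨n₀, hn₀, hopp⟩ := h'.opp
  -- the generators
  have hex : ∀ i : Fin 4, ∃ s : ↥H, Mon s.1 (nd 3 hk0 i) := fun i =>
    exists_STy hg (nd_STy hk0 i)
  choose s hs using hex
  refine inner_of_type h' hsimple hr.out hr3 hn₀ hopp (fun i => pH H (s i)) ?_ ?_ ?_ ?_ ?_
    (fun j => ((StI F j).subgroupOf H).map (pH H)) ?_ ?_ hf hfg ?_ ?_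
  · exact fun i => ⟨s i, Sim_iff.2 ⟨_, nd_STy hk0 i, hs i⟩, rfl⟩
  · rintro _ ⟨x, hx, rfl⟩
    obtain ⟨τ, hτ, hxτ⟩ := Sim_iff.1 (show Sim x.1 from hx)
    obtain ⟨i, rfl⟩ := exists_nd (hk := hk0) hτ
    refine ⟨i, ?_⟩
    rw [← map_inv, ← map_mul, hB]
    have : Mon ((s i)⁻¹ * x).1 ((nd 3 hk0 i)⁻¹ * nd 3 hk0 i) := mon_mul (mon_inv (hs i)) hxτ
    rw [inv_mul_cancel] at this
    exact mem_T' this
  · intro i j hij
    rw [← map_inv, ← map_mul, hB] at hij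
    have : Mon ((s i)⁻¹ * s j).1 ((nd 3 hk0 i)⁻¹ * nd 3 hk0 j) := mon_mul (mon_inv (hs i)) (hs j)
    have h2 := mon_up this hij
    rw [inv_mul_eq_one] at h2
    exact nd_inj h2
  · intro i j hij
    have hcom : (pH H (s j) * pH H (s i))⁻¹ * (pH H (s i) * pH H (s j)) ∈ (BH H).map (pH H) ↔
        nd 3 hk0 i * nd 3 hk0 j = nd 3 hk0 j * nd 3 hk0 i := by
      rw [← map_mul, ← map_mul, ← map_inv, ← map_mul, hB]
      have h1 : Mon ((s j * s i)⁻¹ * (s i * s j)).1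
          ((nd 3 hk0 j * nd 3 hk0 i)⁻¹ * (nd 3 hk0 i * nd 3 hk0 j)) :=
        mon_mul (mon_inv (mon_mul (hs j) (hs i))) (mon_mul (hs i) (hs j))
      constructor
      · intro h2
        have h3 := mon_up h1 h2
        rw [inv_mul_eq_one] at h3
        exact h3.symm
      · intro h2
        rw [h2, inv_mul_cancel] at h1
        exact mem_T' h1
    exact nd_Da hk0 i j hij hcom
  · rintro _ ⟨t, ht, rfl⟩ e he
    obtain ⟨n, hn, rfl⟩ := hn₀
    obtain ⟨σ, hσ⟩ := hN n hn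
    exact triv_of_pow (r := r) (a := 1) Nat.prime_three hr.out hr3
      ((card_X hg hker' hB (s := t) ht (fun {y} hy => (h'.mem_Par ⟨t, ht, rfl⟩).1 hy) hσ
        hopp).trans (by rw [hF, pow_one])) (by
        intro j hj hj1
        obtain rfl : j = 1 := by omega
        rwa [pow_one]) he
  · rintro j _ ⟨x, hx, rfl⟩
    exact (hQm j x).2 (StI_up (hg.le x.2) hx)
  · intro i j
    rw [hQm]
    exact StI_mon (hs i)
  · obtain ⟨x, hx⟩ := hg0
    have h7 : pH H (x * g * x⁻¹) ∈ ((StI F 0).subgroupOf H).map (pH H) := (hQm 0 _).2 hx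
    rw [he1] at h7
    exact ⟨pH H x, h7⟩
  · intro j hj
    exact conj_not_mem (pH H) (QuotientGroup.mk'_surjective (center ↥H)) fun y hy =>
      hg1 j hj y ((hQm j (y * g * y⁻¹)).1 hy)

end

end Vale.Agent.P240.R2.H727.Q5
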