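import Vale.Agent.P240.R2.H727.Q5b
import Vale.Agent.P240.R2.H275.ST
import Vale.Agent.P240.R2.H687.TL
import Vale.Agent.P240.R2.H432.QD

/-!
The stabilizers in the orthogonal group of a form of plus type in dimension `8`.
-/

set_option autoImplicit false
set_option linter.all false

namespace Vale.Agent.P240.R2.H727.Q5

open Subgroup Matrix Vale.Agent.P240.H195
open Vale.Agent.P240.R2.H38.DD
open Vale.Agent.P240.R2.H145.EO hiding SOD
open Vale.Agent.P240.R2.H432.Q (OD0 tg rho rho_mem rho_det exists_tg det_cases tg_coe pM pM_apply)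
open Vale.Agent.P240.R2.H687.T (Bs Sd)

universe u

section
variable {K : Type u} [Field K]

/-- the first standard vector -/
def e0 (K : Type u) [Field K] : VI 3 → K := Pi.single 0 1

lemma e0_ne : e0 K ≠ 0 := by
  intro h
  have h1 := congrFun h 0
  rw [e0, Pi.single_eq_same] at h1
  exact one_ne_zero h1

lemma e0_of {i : VI 3} (h : i ≠ 0) : e0 K i = 0 := Pi.single_eq_of_ne h 1

lemma Qd_e0 : Qd 3 K (e0 K) = 0 := by
  rw [Qd_eq]
  refine HS_zero fun i _ => ?_
  by_cases hi : i = 0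
  · subst hi
    rw [e0_of (i := Fin.rev 0) (by decide), mul_zero]
  · rw [e0_of hi, zero_mul]

lemma mv_e0 (M : Matrix (VI 3) (VI 3) K) (i : VI 3) : (M *ᵥ e0 K) i = M i 0 := by
  rw [e0, Matrix.mulVec_single_one]
  rfl

variable [Finite K]

/-- the group of type `D_4` is transitive on the singular lines -/
theorem exists_line (h2 : (2 : K) ≠ 0) {a : VI 3 → K} (ha : ∀ i, a i ≠ 0) {P : GL (VI 3) K}
    (hP : ∀ v, B a (ac P v) (ac P v) = Qd 3 K v) {v' : VI 3 → K} (hv0 : v' ≠ 0)
    (hv : Qd 3 K v' = 0) : ∃ e ∈ EE 3 K, ∃ t : K, t ≠ 0 ∧ e.1 *ᵥ e0 K = t • v' := by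
  have hne : ∀ w : VI 3 → K, w ≠ 0 → ac P w ≠ 0 := by
    intro w hw h
    apply hw
    have h1 := ac_inv P w
    rw [h] at h1
    rw [← h1]
    exact mulVec_zero _
  obtain ⟨h, hh, hhu⟩ := Vale.Agent.P240.R2.H275.sing_trans' h2 ha (hne _ e0_ne) (hne _ hv0)
    ((hP _).trans Qd_e0) ((hP _).trans hv)
  have hA : P⁻¹ * h * P ∈ OD0 3 K := by
    intro w
    show Qd 3 K (ac (P⁻¹ * h * P) w) = Qd 3 K w
    rw [← hP, ← hP w, ← ac_mul]
    have e1 : P * (P⁻¹ * h * P) = h * P := by group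
    rw [e1, ac_mul]
    exact hh _ _
  have hA0 : ac (P⁻¹ * h * P) (e0 K) = v' := by
    rw [ac_mul, ac_mul, hhu, ac_inv]
  obtain ⟨A, hAS, hAe⟩ : ∃ A ∈ SOD 3 K, A.1 *ᵥ e0 K = v' := by
    rcases det_cases hA with hd | hd
    · obtain ⟨A, hAS, hAg⟩ := exists_tg hA hd
      refine ⟨A, hAS, ?_⟩
      rw [← hA0, ← hAg]
      rfl
    · have hm : P⁻¹ * h * P * rho 3 K ∈ OD0 3 K := mul_mem hA rho_mem
      obtain ⟨A, hAS, hAg⟩ := exists_tg hm (by
        rw [Units.val_mul, det_mul, rho_det, hd]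
        ring)
      refine ⟨A, hAS, ?_⟩
      have e1 : A.1 *ᵥ e0 K = ac (P⁻¹ * h * P * rho 3 K) (e0 K) := by
        rw [← hAg]
        rfl
      have e2 : ac (rho 3 K) (e0 K) = e0 K := by
        funext i
        show ((rho 3 K).1 *ᵥ e0 K) i = e0 K i
        rw [mv_e0]
        show pM (pp 3) K i 0 = e0 K i
        rw [pM_apply]
        by_cases hi : i = 0
        · subst hi
          rw [if_pos (by decide), e0, Pi.single_eq_same]
        · have h3 : ∀ i : VI 3, i ≠ 0 → pp 3 i ≠ 0 := by decide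
          rw [if_neg (h3 i hi), e0_of hi]
      rw [e1, ac_mul, e2, hA0]
  obtain ⟨e, he, n, hn, hm, rfl⟩ := elim hAS
  have hcol : ∀ i : VI 3, i ≠ 0 → n.1 i 0 = 0 := by
    intro i hi
    rcases hm with h3 | h3
    · exact mon_eq h3 (by simpa using hi)
    · refine mon_eq h3 ?_
      have h4 : pp 3 0 = 0 := by decide
      rw [h4]
      exact hi
  have hn0 : n.1 *ᵥ e0 K = n.1 0 0 • e0 K := by
    funext i
    rw [mv_e0, Pi.smul_apply, smul_eq_mul]
    by_cases hi : i = 0
    · subst hi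
      rw [e0, Pi.single_eq_same, mul_one]
    · rw [hcol i hi, e0_of hi, mul_zero]
  have hne0 : n.1 0 0 ≠ 0 := by
    rcases hm with h3 | h3
    · exact mon_ne h3 0
    · have h4 : pp 3 0 = 0 := by decide
      have h5 := mon_ne h3 0
      rwa [h4] at h5
  refine ⟨e, he, (n.1 0 0)⁻¹, inv_ne_zero hne0, ?_⟩
  have h6 : e.1 *ᵥ (n.1 *ᵥ e0 K) = v' := by
    rw [mulVec_mulVec]
    exact hAe
  rw [← h6, hn0, mulVec_smul, smul_smul, inv_mul_cancel₀ hne0, one_smul]

/-- stabilizer of the first line -/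
lemma mem_StI0 {x : SLm (2 * 3 + 1) K} {t : K} (h : x.1 *ᵥ e0 K = t • e0 K) : x ∈ StI K 0 := by
  intro i j hi hj
  have hj0 : j = 0 := by
    unfold II at hj
    rcases hj with ⟨-, h1⟩ | ⟨h1, -⟩ | ⟨h1, -⟩ | ⟨h1, -⟩
    · exact Fin.ext h1
    · exact absurd h1 (by decide)
    · exact absurd h1 (by decide)
    · exact absurd h1 (by decide)
  subst hj0
  have hi0 : i ≠ 0 := by
    rintro rfl
    exact hi hj
  have h1 := congrFun h i
  rw [mv_e0, Pi.smul_apply, e0_of hi0, smul_zero] at h1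
  exact h1

/-- the spaces -/
def MM (K : Type u) [Field K] (j : Fin 4) : Submodule K (VI 3 → K) where
  carrier := {w | ∀ b, ¬ II j b → w b = 0}
  add_mem' := by
    intro v w hv hw b hb
    rw [Pi.add_apply, hv b hb, hw b hb, add_zero]
  zero_mem' := fun b _ => rfl
  smul_mem' := by
    intro t v hv b hb
    rw [Pi.smul_apply, hv b hb, smul_zero]

lemma MM_stab {j : Fin 4} {x : SLm (2 * 3 + 1) K} (hx : x ∈ StI K j) {w : VI 3 → K}
    (hw : w ∈ MM K j) : x.1 *ᵥ w ∈ MM K j := by
  intro i hi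
  rw [mulVec, dotProduct]
  refine Finset.sum_eq_zero fun b _ => ?_
  by_cases hb : II j b
  · rw [hx i b hi hb, zero_mul]
  · rw [hw b hb, mul_zero]

lemma MM_ts {j : Fin 4} (hj : j = 2 ∨ j = 3) {w : VI 3 → K} (hw : w ∈ MM K j) :
    Qd 3 K w = 0 := by
  rw [Qd_eq]
  refine HS_zero fun i _ => ?_
  have h1 : ∀ j : Fin 4, (j = 2 ∨ j = 3) → ∀ i : VI 3, ¬ II j i ∨ ¬ II j (Fin.rev i) := by decide
  rcases h1 j hj i with h2 | h2
  · rw [hw i h2, zero_mul]
  · rw [hw _ h2, mul_zero]

lemma MM_rank {j : Fin 4} (hj : j = 2 ∨ j = 3) : Module.finrank K (MM K j) = 4 := by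
  let E : ({b : VI 3 // II j b} → K) ≃ₗ[K] MM K j :=
    { toFun := fun w => ⟨fun b => if h : II j b then w ⟨b, h⟩ else 0, fun b hb => dif_neg hb⟩
      map_add' := fun v w => Subtype.ext (by
        funext b
        show (if h : II j b then (v + w) ⟨b, h⟩ else 0) =
          (if h : II j b then v ⟨b, h⟩ else 0) + (if h : II j b then w ⟨b, h⟩ else 0)
        split_ifs with h
        · rfl
        · rw [add_zero])
      map_smul' := fun t w => Subtype.ext (by
        funext b
        show (if h : II j b then (t • w) ⟨b, h⟩ else 0) =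
          t • (if h : II j b then w ⟨b, h⟩ else 0)
        split_ifs with h
        · rfl
        · rw [smul_zero])
      invFun := fun w b => w.1 b.1
      left_inv := fun w => by
        funext b
        exact dif_pos b.2
      right_inv := fun w => Subtype.ext (by
        funext b
        show (if h : II j b then w.1 b else 0) = w.1 b
        split_ifs with h
        · rfl
        · exact (w.2 b h).symm) }
  rw [← E.finrank_eq, Module.finrank_fintype_fun_eq_card]
  have h1 : ∀ j : Fin 4, (j = 2 ∨ j = 3) → Fintype.card {b : VI 3 // II j b} = 4 := by decide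
  exact h1 j hj

/-- the linear map of an invertible matrix -/
noncomputable def lin (g : GL (VI 3) K) : (VI 3 → K) ≃ₗ[K] (VI 3 → K) where
  toFun := ac g
  map_add' := ac_add g
  map_smul' := fun t v => ac_smul g t v
  invFun := ac g⁻¹
  left_inv := ac_inv g
  right_inv := ac_inv' g

end

end Vale.Agent.P240.R2.H727.Q5
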