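import Mathlib

/-!
Rank bound for elementary abelian `p`-groups acting projectively on a vector space over an
algebraically closed field in which `p` is invertible.
-/

open Module Polynomial

universe u v

namespace Vale.Agent.P240.R2.H727

/-- a faithful projective action: `a x` injective, multiplicative up to nonzero scalars,
`a x` scalar only for `x = 1` -/
structure PR (E F V : Type*) [CommGroup E] [Field F] [AddCommGroup V] [Module F V] where
  a : E → Module.End F V
  inj : ∀ x, Function.Injective (a x)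
  mul : ∀ x y, ∃ c : F, c ≠ 0 ∧ a x * a y = c • a (x * y)
  faith : ∀ x, (∃ c : F, a x = c • 1) → x = 1

variable {E F V : Type*} [CommGroup E] [Field F] [AddCommGroup V] [Module F V]

namespace PR

variable (P : PR E F V)

theorem one : ∃ c : F, c ≠ 0 ∧ P.a 1 = c • 1 := by
  obtain ⟨c, hc, h⟩ := P.mul 1 1
  refine ⟨c, hc, ?_⟩
  ext v
  have h2 := congrArg (fun f : Module.End F V => f v) h
  simp only [Module.End.mul_apply, mul_one, LinearMap.smul_apply] at h2
  rw [← map_smul] at h2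
  simpa using P.inj 1 h2

theorem pow (x : E) (k : ℕ) : ∃ c : F, c ≠ 0 ∧ (P.a x) ^ k = c • P.a (x ^ k) := by
  induction k with
  | zero =>
    obtain ⟨c, hc, h⟩ := P.one
    refine ⟨c⁻¹, inv_ne_zero hc, ?_⟩
    rw [pow_zero, pow_zero, h, smul_smul, inv_mul_cancel₀ hc, one_smul]
  | succ k ih =>
    obtain ⟨c, hc, h⟩ := ih
    obtain ⟨d, hd, h2⟩ := P.mul (x ^ k) x
    refine ⟨c * d, mul_ne_zero hc hd, ?_⟩
    rw [pow_succ, h, smul_mul_assoc, h2, smul_smul, ← pow_succ]

theorem powp {p : ℕ} (hE : ∀ x : E, x ^ p = 1) (x : E) :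
    ∃ c : F, c ≠ 0 ∧ (P.a x) ^ p = c • 1 := by
  obtain ⟨c, hc, h⟩ := P.pow x p
  obtain ⟨d, hd, h2⟩ := P.one
  refine ⟨c * d, mul_ne_zero hc hd, ?_⟩
  rw [h, hE, h2, smul_smul]

theorem comm (x y : E) : ∃ w : Fˣ, P.a x * P.a y = (w : F) • (P.a y * P.a x) := by
  obtain ⟨c, hc, h⟩ := P.mul x y
  obtain ⟨d, hd, h2⟩ := P.mul y x
  refine ⟨Units.mk0 (c * d⁻¹) (mul_ne_zero hc (inv_ne_zero hd)), ?_⟩
  rw [h, h2, smul_smul, mul_comm y x, Units.val_mk0, mul_assoc, inv_mul_cancel₀ hd, mul_one]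

/-- the commutator of the lifts -/
noncomputable def w (x y : E) : Fˣ := Classical.choose (P.comm x y)

theorem w_spec (x y : E) : P.a x * P.a y = (P.w x y : F) • (P.a y * P.a x) :=
  Classical.choose_spec (P.comm x y)

theorem ne_zero [Nontrivial V] (x : E) : P.a x ≠ 0 := by
  intro h
  obtain ⟨v, hv⟩ := exists_ne (0 : V)
  exact hv (P.inj x (by simp [h]))

theorem mul_ne_zero' [Nontrivial V] (x y : E) : P.a x * P.a y ≠ 0 := by
  intro h
  obtain ⟨v, hv⟩ := exists_ne (0 : V)
  refine hv (P.inj y (P.inj x ?_))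
  have := congrArg (fun f : Module.End F V => f v) h
  simpa using this

theorem w_unique [Nontrivial V] (x y : E) (c : F) (h : P.a x * P.a y = c • (P.a y * P.a x)) :
    c = P.w x y := by
  have h2 := P.w_spec x y
  rw [h, ← sub_eq_zero, ← sub_smul] at h2
  rcases smul_eq_zero.1 h2 with h3 | h3
  · exact sub_eq_zero.1 h3
  · exact absurd h3 (P.mul_ne_zero' y x)

/-- the pairing is a homomorphism in the second variable -/
noncomputable def wHom [Nontrivial V] (x : E) : E →* Fˣ where
  toFun y := P.w x y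
  map_one' := by
    apply Units.ext
    obtain ⟨c, hc, h⟩ := P.one
    refine (P.w_unique x 1 1 ?_).symm
    rw [h, one_smul, smul_mul_assoc, mul_smul_comm, one_mul, mul_one]
  map_mul' y z := by
    apply Units.ext
    refine (P.w_unique x (y * z) _ ?_).symm
    obtain ⟨c, hc, h⟩ := P.mul y z
    have h1 : P.a (y * z) = c⁻¹ • (P.a y * P.a z) := by
      rw [h, smul_smul, inv_mul_cancel₀ hc, one_smul]
    rw [h1, mul_smul_comm, ← mul_assoc, P.w_spec x y, smul_mul_assoc, mul_assoc,
      P.w_spec x z, mul_smul_comm, smul_mul_assoc, ← mul_assoc, Units.val_mul]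
    simp only [smul_smul]
    congr 1
    ring

theorem wHom_apply [Nontrivial V] (x y : E) : P.wHom x y = P.w x y := rfl

theorem wHom_pow [Nontrivial V] {p : ℕ} (hE : ∀ x : E, x ^ p = 1) (x y : E) :
    (P.wHom x y) ^ p = 1 := by
  rw [← map_pow, hE, map_one]

theorem w_eq_one_comm [Nontrivial V] (x y : E) (h : P.w x y = 1) :
    P.a x * P.a y = P.a y * P.a x := by
  have := P.w_spec x y
  rwa [h, Units.val_one, one_smul] at this

/-- restriction to a subgroup and an invariant subspace on which it stays faithful -/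
noncomputable def restr (H : Subgroup E) (U : Submodule F V)
    (hU : ∀ x ∈ H, ∀ v ∈ U, P.a x v ∈ U)
    (hf : ∀ x ∈ H, (∃ c : F, ∀ v ∈ U, P.a x v = c • v) → x = 1) : PR H F U where
  a x := (P.a x).restrict (hU x x.2)
  inj x := by
    intro u v h
    apply Subtype.ext
    apply P.inj x
    have := congrArg Subtype.val h
    simpa using this
  mul x y := by
    obtain ⟨c, hc, h⟩ := P.mul x y
    refine ⟨c, hc, ?_⟩
    ext v
    have := congrArg (fun f : Module.End F V => f v) h
    simpa using this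
  faith x := by
    rintro ⟨c, h⟩
    apply Subtype.ext
    refine hf x x.2 ⟨c, fun v hv => ?_⟩
    have := congrArg (fun f : Module.End F U => ((f ⟨v, hv⟩ : U) : V)) h
    simpa using this

end PR


section closed

variable [IsAlgClosed F] [FiniteDimensional F V]

omit [IsAlgClosed F] [FiniteDimensional F V] in
theorem semisimple {p : ℕ} (hp : (p : F) ≠ 0) {f : Module.End F V} {s : F} (hs : s ≠ 0)
    (h : f ^ p = s • 1) : f.IsSemisimple := by
  refine Module.End.isSemisimple_of_squarefree_aeval_eq_zero (p := X ^ p - C s)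
    (separable_X_pow_sub_C s hp hs).squarefree ?_
  simp [h, Algebra.algebraMap_eq_smul_one]

namespace PR

variable (P : PR E F V)

omit [IsAlgClosed F] [FiniteDimensional F V] in
theorem eq_of_smul (x y : E) (r : F) (h : P.a x = r • P.a y) : x = y := by
  have h1 : x * y⁻¹ = 1 := by
    apply P.faith
    obtain ⟨c, hc, h2⟩ := P.mul x y⁻¹
    obtain ⟨d, hd, h3⟩ := P.mul y y⁻¹
    obtain ⟨e, he, h4⟩ := P.one
    refine ⟨c⁻¹ * (r * (d * e)), ?_⟩
    have h5 : P.a (x * y⁻¹) = c⁻¹ • (P.a x * P.a y⁻¹) := by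
      rw [h2, smul_smul, inv_mul_cancel₀ hc, one_smul]
    rw [h5, h, smul_mul_assoc, h3, mul_inv_cancel, h4]
    simp only [smul_smul]
  exact mul_inv_eq_one.1 h1

theorem card_comm [Nontrivial V] {p : ℕ} [NeZero p] (hE : ∀ x : E, x ^ p = 1) (hp : (p : F) ≠ 0)
    (hc : ∀ x y, P.a x * P.a y = P.a y * P.a x) :
    Nat.card E ≤ p ^ (finrank F V - 1) := by
  classical
  have hss : ∀ x, (P.a x).IsSemisimple := by
    intro x
    obtain ⟨c, hc0, h⟩ := P.powp hE x
    exact semisimple hp hc0 h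
  have hcomm : ∀ x y, Commute (P.a x) (P.a y) := fun x y => hc x y
  have htop := Module.End.iSup_iInf_maxGenEigenspace_eq_top_of_iSup_maxGenEigenspace_eq_top_of_commute
    P.a (fun i j _ => hcomm i j) (fun i => Module.End.iSup_maxGenEigenspace_eq_top (P.a i))
  have hind := Module.End.independent_iInf_maxGenEigenspace_of_forall_mapsTo P.a
    (fun i j φ => Module.End.mapsTo_maxGenEigenspace_of_comm (hcomm j i) φ)
  set S : (E → F) → Submodule F V := fun χ => ⨅ i, (P.a i).maxGenEigenspace (χ i) with hS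
  let _ : Fintype {χ // S χ ≠ ⊥} := hind.fintypeNeBotOfFiniteDimensional
  have hcard : Fintype.card {χ // S χ ≠ ⊥} ≤ finrank F V := hind.subtype_ne_bot_le_finrank
  have hev : ∀ χ, ∀ v ∈ S χ, ∀ x, P.a x v = χ x • v := by
    intro χ v hv x
    have h1 : v ∈ (P.a x).maxGenEigenspace (χ x) := (Submodule.mem_iInf _).1 hv x
    rw [(Module.End.isFinitelySemisimple_iff_isSemisimple.mpr
      (hss x)).maxGenEigenspace_eq_eigenspace] at h1
    exact Module.End.mem_eigenspace_iff.1 h1
  obtain ⟨χ0, hχ0⟩ : ∃ χ, S χ ≠ ⊥ := by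
    by_contra hcon
    push Not at hcon
    have : (⨆ χ, S χ) = ⊥ := by simp [hcon]
    rw [this] at htop
    exact bot_ne_top htop
  have hne : ∀ χ : {χ // S χ ≠ ⊥}, ∀ x, χ.1 x ≠ 0 := by
    intro χ x h0
    obtain ⟨v, hv, hv0⟩ := (Submodule.ne_bot_iff _).1 χ.2
    have := hev χ.1 v hv x
    rw [h0, zero_smul] at this
    exact hv0 (P.inj x (by rw [this, map_zero]))
  have hpw : ∀ χ : {χ // S χ ≠ ⊥}, ∀ x, ∀ c : F, (P.a x) ^ p = c • 1 → (χ.1 x) ^ p = c := by
    intro χ x c h
    obtain ⟨v, hv, hv0⟩ := (Submodule.ne_bot_iff _).1 χ.2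
    have h1 : ∀ k : ℕ, ((P.a x) ^ k) v = (χ.1 x) ^ k • v := by
      intro k
      induction k with
      | zero => simp
      | succ k ih =>
        rw [pow_succ', Module.End.mul_apply, ih, map_smul, hev χ.1 v hv x, smul_smul, pow_succ]
    have h2 := h1 p
    rw [h] at h2
    simp only [LinearMap.smul_apply, Module.End.one_apply] at h2
    rw [← sub_eq_zero, ← sub_smul] at h2
    rcases smul_eq_zero.1 h2 with h3 | h3
    · exact (sub_eq_zero.1 h3).symm
    · exact absurd h3 hv0
  have hratio : ∀ χ : {χ // S χ ≠ ⊥}, ∀ x, (χ.1 x / χ0 x) ^ p = 1 := by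
    intro χ x
    obtain ⟨c, hc0, h⟩ := P.powp hE x
    rw [div_pow, hpw χ x c h, hpw ⟨χ0, hχ0⟩ x c h, div_self hc0]
  let Φ : E → ({χ : {χ // S χ ≠ ⊥} // χ ≠ ⟨χ0, hχ0⟩} → rootsOfUnity p F) := fun x χ =>
    rootsOfUnity.mkOfPowEq (χ.1.1 x / χ0 x) (hratio χ.1 x)
  have hinj : Function.Injective Φ := by
    intro x y hxy
    have hval : ∀ χ : {χ // S χ ≠ ⊥}, χ.1 x / χ0 x = χ.1 y / χ0 y := by
      intro χ
      by_cases h : χ = ⟨χ0, hχ0⟩
      · subst h
        rw [div_self (hne ⟨χ0, hχ0⟩ x), div_self (hne ⟨χ0, hχ0⟩ y)]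
      · have h1 := congrFun hxy ⟨χ, h⟩
        have h2 := congrArg (fun u : rootsOfUnity p F => ((u : Fˣ) : F)) h1
        simpa [Φ] using h2
    apply P.eq_of_smul x y (χ0 x / χ0 y)
    have hle : (⨆ χ, S χ) ≤ LinearMap.eqLocus (P.a x) ((χ0 x / χ0 y) • P.a y) := by
      refine iSup_le fun χ v hv => ?_
      rw [LinearMap.mem_eqLocus, LinearMap.smul_apply, hev χ v hv x, hev χ v hv y, smul_smul]
      by_cases h : S χ = ⊥
      · rw [h, Submodule.mem_bot] at hv
        simp [hv]
      · congr 1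
        have h1 := hval ⟨χ, h⟩
        have h2 := hne ⟨χ0, hχ0⟩ x
        have h3 := hne ⟨χ0, hχ0⟩ y
        simp only at h1 h2 h3
        field_simp at h1 ⊢
        linear_combination h1
    rw [htop] at hle
    ext v
    exact hle (Submodule.mem_top : v ∈ ⊤)
  have h1 : Nat.card E ≤ Nat.card ({χ : {χ // S χ ≠ ⊥} // χ ≠ ⟨χ0, hχ0⟩} → rootsOfUnity p F) :=
    Nat.card_le_card_of_injective Φ hinj
  have h2 : Nat.card ({χ : {χ // S χ ≠ ⊥} // χ ≠ ⟨χ0, hχ0⟩} → rootsOfUnity p F) =
      (Nat.card (rootsOfUnity p F)) ^ (Fintype.card {χ // S χ ≠ ⊥} - 1) := by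
    rw [Nat.card_fun]
    congr 1
    rw [Nat.card_eq_fintype_card, Fintype.card_subtype_compl, Fintype.card_subtype_eq]
  rw [h2] at h1
  have h3 : Nat.card (rootsOfUnity p F) ≤ p := card_rootsOfUnity F p
  calc Nat.card E ≤ (Nat.card (rootsOfUnity p F)) ^ (Fintype.card {χ // S χ ≠ ⊥} - 1) := h1
    _ ≤ p ^ (Fintype.card {χ // S χ ≠ ⊥} - 1) := Nat.pow_le_pow_left h3 _
    _ ≤ p ^ (finrank F V - 1) := Nat.pow_le_pow_right (Nat.pos_of_neZero p) (by omega)

omit [IsAlgClosed F] in
theorem sum_finrank_le {ι : Type} [Fintype ι] [DecidableEq ι] {q : ι → Submodule F V}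
    (hq : iSupIndep q) : ∑ i, finrank F (q i) ≤ finrank F V := by
  rw [← Module.finrank_directSum]
  exact LinearMap.finrank_le_finrank_of_injective (f := DirectSum.coeLinearMap q)
    hq.dfinsupp_lsum_injective

theorem exists_sub [Nontrivial V] {p : ℕ} [hpp : Fact p.Prime] (hE : ∀ x : E, x ^ p = 1)
    (hp : (p : F) ≠ 0) (x y : E) (hxy : P.w x y ≠ 1) :
    ∃ U : Submodule F V, U ≠ ⊥ ∧ p * finrank F U ≤ finrank F V ∧
      ∃ H : Subgroup E, Nat.card E ≤ p ^ 2 * Nat.card H ∧
        (∀ e ∈ H, ∀ v ∈ U, P.a e v ∈ U) ∧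
        (∀ e ∈ H, (∃ c : F, ∀ v ∈ U, P.a e v = c • v) → e = 1) := by
  classical
  have hp0 : NeZero p := ⟨hpp.out.ne_zero⟩
  set ζ := P.w x y with hζdef
  have hζ1 : ζ ^ p = 1 := P.wHom_pow hE x y
  have hζ : IsPrimitiveRoot (ζ : F) p := by
    rw [IsPrimitiveRoot.coe_units_iff, ← orderOf_eq_prime hζ1 hxy]
    exact IsPrimitiveRoot.orderOf ζ
  have hstep : ∀ (k : ℕ) (ν : F) (v : V), P.a x v = ν • v →
      P.a x (((P.a y) ^ k) v) = ((ζ : F) ^ k * ν) • ((P.a y) ^ k) v := by
    intro k ν v hv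
    induction k with
    | zero => simpa using hv
    | succ k ih =>
      have h1 := congrArg (fun f : Module.End F V => f (((P.a y) ^ k) v)) (P.w_spec x y)
      simp only [Module.End.mul_apply, LinearMap.smul_apply] at h1
      rw [pow_succ', Module.End.mul_apply, h1, ih, map_smul, smul_smul, pow_succ', mul_assoc]
  have hinj : ∀ k : ℕ, Function.Injective ((P.a y) ^ k) := by
    intro k
    rw [Module.End.coe_pow]
    exact (P.inj y).iterate k
  obtain ⟨μ, hμ⟩ := Module.End.exists_eigenvalue (P.a x)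
  obtain ⟨s, hs, hsx⟩ := P.powp hE x
  have hss : (P.a x).IsSemisimple := semisimple hp hs hsx
  have hpow : ∀ (ν : F) (v : V), v ≠ 0 → P.a x v = ν • v → ν ^ p = s := by
    intro ν v hv0 hv
    have h1 : ∀ k : ℕ, ((P.a x) ^ k) v = ν ^ k • v := by
      intro k
      induction k with
      | zero => simp
      | succ k ih =>
        rw [pow_succ', Module.End.mul_apply, ih, map_smul, hv, smul_smul, pow_succ]
    have h2 := h1 p
    rw [hsx] at h2
    simp only [LinearMap.smul_apply, Module.End.one_apply] at h2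
    rw [← sub_eq_zero, ← sub_smul] at h2
    rcases smul_eq_zero.1 h2 with h3 | h3
    · exact (sub_eq_zero.1 h3).symm
    · exact absurd h3 hv0
  have hμp : μ ^ p = s := by
    obtain ⟨v, hv⟩ := hμ.exists_hasEigenvector
    exact hpow μ v hv.2 (Module.End.mem_eigenspace_iff.1 hv.1)
  have hμ0 : μ ≠ 0 := by
    rintro rfl
    rw [zero_pow hpp.out.ne_zero] at hμp
    exact hs hμp.symm
  refine ⟨(P.a x).eigenspace μ, hμ, ?_, (P.wHom x).ker ⊓ (P.wHom y).ker, ?_, ?_, ?_⟩
  · have hindep : iSupIndep (fun i : Fin p => (P.a x).eigenspace ((ζ : F) ^ (i : ℕ) * μ)) := by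
      refine (P.a x).eigenspaces_iSupIndep.comp (f := fun i : Fin p => (ζ : F) ^ (i : ℕ) * μ) ?_
      intro i j hij
      apply Fin.ext
      exact hζ.pow_inj i.2 j.2 (mul_right_cancel₀ hμ0 hij)
    calc p * finrank F ((P.a x).eigenspace μ)
        = ∑ _i : Fin p, finrank F ((P.a x).eigenspace μ) := by simp
      _ ≤ ∑ i : Fin p, finrank F ((P.a x).eigenspace ((ζ : F) ^ (i : ℕ) * μ)) := by
          refine Finset.sum_le_sum fun i _ => ?_
          rw [(Submodule.equivMapOfInjective _ (hinj i) ((P.a x).eigenspace μ)).finrank_eq]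
          refine Submodule.finrank_mono ?_
          rintro _ ⟨v, hv, rfl⟩
          rw [Module.End.mem_eigenspace_iff]
          exact hstep i μ v (Module.End.mem_eigenspace_iff.1 hv)
      _ ≤ finrank F V := sum_finrank_le hindep
  · have hidx : ∀ z : E, (P.wHom z).ker.index ≤ p := by
      intro z
      rw [Subgroup.index_ker]
      refine le_trans ?_ (card_rootsOfUnity F p)
      refine Nat.card_le_card_of_injective
        (fun u : (P.wHom z).range => (⟨u.1, ?_⟩ : rootsOfUnity p F)) ?_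
      · obtain ⟨e, he⟩ := u.2
        rw [mem_rootsOfUnity, ← he]
        exact P.wHom_pow hE z e
      · intro u v huv
        exact Subtype.ext (congrArg (fun t : rootsOfUnity p F => (t : Fˣ)) huv)
    have h1 := Subgroup.card_mul_index ((P.wHom x).ker ⊓ (P.wHom y).ker)
    have h2 : ((P.wHom x).ker ⊓ (P.wHom y).ker).index ≤ p * p :=
      (Subgroup.index_inf_le).trans (Nat.mul_le_mul (hidx x) (hidx y))
    rw [← h1, mul_comm, pow_two]
    exact Nat.mul_le_mul_right _ h2
  · intro e he v hv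
    rw [Module.End.mem_eigenspace_iff] at hv ⊢
    have h1 := P.w_eq_one_comm x e (by simpa [wHom_apply] using (MonoidHom.mem_ker.1 he.1))
    have h2 := congrArg (fun f : Module.End F V => f v) h1
    simp only [Module.End.mul_apply] at h2
    rw [h2, hv, map_smul]
  · rintro e he ⟨c, hc⟩
    apply P.faith e
    refine ⟨c, ?_⟩
    have hye : P.a y * P.a e = P.a e * P.a y :=
      P.w_eq_one_comm y e (by simpa [wHom_apply] using (MonoidHom.mem_ker.1 he.2))
    have hyk : ∀ k : ℕ, (P.a y) ^ k * P.a e = P.a e * (P.a y) ^ k := by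
      intro k
      have : Commute (P.a y) (P.a e) := hye
      exact (this.pow_left k).eq
    have hle : (⨆ ν : F, (P.a x).eigenspace ν) ≤ LinearMap.eqLocus (P.a e) (c • 1) := by
      refine iSup_le fun ν v hv => ?_
      rw [LinearMap.mem_eqLocus, LinearMap.smul_apply, Module.End.one_apply]
      rw [Module.End.mem_eigenspace_iff] at hv
      by_cases hv0 : v = 0
      · simp [hv0]
      have hν : ν ^ p = s := hpow ν v hv0 hv
      have hν0 : ν ≠ 0 := by
        rintro rfl
        rw [zero_pow hpp.out.ne_zero] at hν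
        exact hs hν.symm
      obtain ⟨k, -, hk⟩ := hζ.eq_pow_of_pow_eq_one (ξ := μ / ν)
        (by rw [div_pow, hμp, hν, div_self hs])
      have h1 := hstep k ν v hv
      rw [hk, div_mul_cancel₀ _ hν0] at h1
      have h2 := hc _ (Module.End.mem_eigenspace_iff.2 h1)
      have h3 := congrArg (fun f : Module.End F V => f v) (hyk k)
      simp only [Module.End.mul_apply] at h3
      apply hinj k
      rw [h3, h2, map_smul]
    rw [hss.iSup_eigenspace_eq_top] at hle
    ext v
    exact hle (Submodule.mem_top : v ∈ ⊤)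

end PR

end closed

/-- the rank bound: `card E ≤ p ^ (m - 1 + 2 k)` with `p ^ k * m ≤ dim V` -/
theorem card_le_aux {F : Type*} [Field F] [IsAlgClosed F] {p : ℕ} [hpp : Fact p.Prime]
    (hp : (p : F) ≠ 0) (n : ℕ) :
    ∀ (E : Type u) [CommGroup E] (V : Type v) [AddCommGroup V] [Module F V]
      [FiniteDimensional F V] (_ : finrank F V = n) (_ : 1 ≤ n)
      (_ : ∀ x : E, x ^ p = 1) (_ : PR E F V),
      ∃ k m : ℕ, 1 ≤ m ∧ p ^ k * m ≤ n ∧ Nat.card E ≤ p ^ (m - 1 + 2 * k) := by
  induction n using Nat.strong_induction_on with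
  | _ n ih =>
  intro E _ V _ _ _ hn hn1 hE P
  have hp0 : NeZero p := ⟨hpp.out.ne_zero⟩
  have : Nontrivial V := Module.nontrivial_of_finrank_pos (R := F) (by omega)
  by_cases hall : ∀ x y, P.w x y = 1
  · refine ⟨0, n, hn1, by simp, ?_⟩
    have := P.card_comm hE hp (fun x y => P.w_eq_one_comm x y (hall x y))
    simpa [hn] using this
  · push Not at hall
    obtain ⟨x, y, hxy⟩ := hall
    obtain ⟨U, hU0, hUd, H, hH, hinv, hf⟩ := P.exists_sub hE hp x y hxy
    have hUpos : 1 ≤ finrank F U := by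
      have : Nontrivial U := (Submodule.nontrivial_iff_ne_bot).2 hU0
      exact Module.finrank_pos
    have hp2 : 2 ≤ p := hpp.out.two_le
    have hlt : finrank F U < n := by nlinarith
    obtain ⟨k, m, hm, hkm, hc⟩ := ih (finrank F U) hlt H U rfl hUpos
      (fun z => Subtype.ext (by simpa using hE z)) (P.restr H U hinv hf)
    refine ⟨k + 1, m, hm, ?_, ?_⟩
    · calc p ^ (k + 1) * m = p * (p ^ k * m) := by ring
        _ ≤ p * finrank F U := Nat.mul_le_mul_left _ hkm
        _ ≤ n := by rw [← hn]; exact hUd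
    · calc Nat.card E ≤ p ^ 2 * Nat.card H := hH
        _ ≤ p ^ 2 * p ^ (m - 1 + 2 * k) := Nat.mul_le_mul_left _ hc
        _ = p ^ (m - 1 + 2 * (k + 1)) := by rw [← pow_add]; congr 1; ring

end Vale.Agent.P240.R2.H727
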