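import Vale.Agent.P240.R2.H727.T3a
import Vale.Agent.P240.R2.H687.NL6
import Vale.Agent.P240.R2.H387.M2
import Vale.Agent.P240.R2.H986.B7r
import Vale.Agent.P240.R2.H281.B1

/-!
Top cycles of `L⟨x⟩`, `L` the image of `SU_n(K)`, `x` of order `p` acting as a field automorphism
(`T3` of `locTopF_of`).
-/

set_option autoImplicit false
set_option linter.all false

namespace Vale.Agent.P240.R2.H727

open Matrix Vale.Agent.P240 Vale.Agent.P240.K Vale.Agent.P240.R2.H687 Vale.Agent.P240.R2.H38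
open Vale.Agent.P240.R2.H986.St
open Vale.Agent.P240.R2.AS hiding SU

universe u v w

noncomputable section

variable {K : Type u} [Field K] [Fintype K] [StarRing K] {n : ℕ} {ζ c : K} {G : Type v} [Group G]
  [Finite G]

/-- if `x` acts as the automorphism `φ`, then `x⁻¹` normalises `L` -/
lemma conj_inv_mem {ε : SU K n →* G} {x : G} {p : ℕ} (hp : 0 < p) (hxp : x ^ p = 1)
    (φ : K →+* K) (hφs : ∀ x, φ (star x) = star (φ x))
    (hx : ∀ h h' : SU K n, mt h' = (mt h).map φ → x * ε h * x⁻¹ = ε h') {l : G} (hl : l ∈ ε.range) :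
    x⁻¹ * l * x ∈ ε.range := by
  have h1 : ∀ l ∈ ε.range, x * l * x⁻¹ ∈ ε.range := by
    rintro _ ⟨h, rfl⟩
    have hdet : ((mt h).map φ).det = 1 := by
      have h3 : (mt h).map φ = φ.mapMatrix (mt h) := rfl
      rw [h3, ← RingHom.map_det, mt_det, map_one]
    obtain ⟨h', hm'⟩ : ∃ h' : SU K n, mt h' = (mt h).map φ := ⟨⟨uMap n φ hφs h.1, hdet⟩, rfl⟩
    exact ⟨h', (hx h h' hm').symm⟩
  have h2 : ∀ k : ℕ, ∀ l ∈ ε.range, x ^ k * l * (x ^ k)⁻¹ ∈ ε.range := by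
    intro k
    induction k with
    | zero => intro l hl; simpa using hl
    | succ k ih =>
      intro l hl
      have h3 := h1 _ (ih l hl)
      have h4 : x ^ (k + 1) * l * (x ^ (k + 1))⁻¹ = x * (x ^ k * l * (x ^ k)⁻¹) * x⁻¹ := by
        rw [pow_succ']
        group
      rw [h4]
      exact h3
  have h5 := h2 (p - 1) l hl
  have h6 : x ^ (p - 1) = x⁻¹ := by
    rw [eq_inv_iff_mul_eq_one, ← pow_succ, Nat.sub_add_cancel hp, hxp]
  rw [h6, inv_inv] at h5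
  exact h5

/-- **The core of `T3`**: a family with `Σ t > |Fr| / 2` gives a top cycle. -/
theorem t3_core {p : ℕ} [hpr : Fact p.Prime] {ε : SU K n →* G}
    (hk : ∀ g : SU K n, ε g = 1 ↔ ∃ c : K, mt g = c • (1 : Matrix (Fin n) (Fin n) K))
    (hzp : ζ ^ p = 1) (h1 : ζ ≠ 1) (hζ : ζ * star ζ = 1) (hc : c * star c = 1)
    (hcn : c ^ n * ζ = 1) (hn : 2 ≤ n) {x : G} (hxp : x ^ p = 1) (hxL : x ∉ ε.range)
    (hxN : ∀ l ∈ ε.range, x⁻¹ * l * x ∈ ε.range)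
    {Y : Finset G} {Fy : G → Finset (List (Ln K n))}
    (hY : ∀ y, y ∈ Y ↔ ∃ g, ε g * x * (ε g)⁻¹ = y)
    (hFy : ∀ y ∈ Y, Fy y ⊆ Fr K n ∧ (∀ w ∈ Fy y, ∀ w', w.Perm w' → w' ∈ Fy y) ∧
        ∀ u v, u ++ v ∈ Fy y → ε (sW ζ c u) * y = y * ε (sW ζ c u))
    (hcount : (Fr K n).card < 2 * ∑ y ∈ Y, t (Fy y)) (𝕜 : Type w) [Field 𝕜] :
    ∃ w ∈ Fr K n, ∃ t' : G, t' * x⁻¹ ∈ ε.range ∧ t' ^ p = 1 ∧
      (∀ a ∈ De (fun w => ε (sW ζ c w)) w, t' * a = a * t') ∧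
      ∃ (α : Ch 𝕜 (Subgroup G)) (φ : List (Subgroup G)), TopCycle 𝕜 p (ε.range ⊔ Subgroup.zpowers x)
        (De (fun w => ε (sW ζ c w)) w ⊔ Subgroup.zpowers t') α φ := by
  have hcomb : Comb p n (Fr K n) (fun w => ε (sW ζ c w)) := comb_sW hk hzp h1 hζ hc hcn
  have hmul : ∀ y ∈ Y, y * x⁻¹ ∈ ε.range := by
    intro y hy
    obtain ⟨g, rfl⟩ := (hY y).1 hy
    have h2 : ∀ l ∈ ε.range, x * l * x⁻¹ ∈ ε.range := by
      intro l hl
      have h3 : ∀ k : ℕ, x⁻¹ ^ k * l * (x⁻¹ ^ k)⁻¹ ∈ ε.range := by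
        intro k
        induction k with
        | zero => simpa using hl
        | succ k ih =>
          have h3 := hxN _ ih
          have h4 : x⁻¹ ^ (k + 1) * l * (x⁻¹ ^ (k + 1))⁻¹ = x⁻¹ * (x⁻¹ ^ k * l * (x⁻¹ ^ k)⁻¹) * x := by
            rw [pow_succ']
            group
          rw [h4]
          exact h3
      have h5 := h3 (p - 1)
      have h6 : x⁻¹ ^ (p - 1) = x := by
        rw [inv_pow, inv_eq_iff_eq_inv, eq_inv_iff_mul_eq_one, ← pow_succ,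
          Nat.sub_add_cancel hpr.out.pos, hxp]
      rw [h6] at h5
      exact h5
    have h7 : ε g * x * (ε g)⁻¹ * x⁻¹ = ε g * (x * (ε g)⁻¹ * x⁻¹) := by group
    rw [h7]
    exact mul_mem ⟨g, rfl⟩ (h2 _ (inv_mem ⟨g, rfl⟩))
  have hconj : ∀ y ∈ Y, y ∈ ε.range ⊔ Subgroup.zpowers x := by
    intro y hy
    have h8 : y = y * x⁻¹ * x := by group
    rw [h8]
    exact mul_mem (Subgroup.mem_sup_left (hmul y hy))
      (Subgroup.mem_sup_right (Subgroup.mem_zpowers x))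
  have hpow : ∀ y ∈ Y, y ^ p = 1 := by
    intro y hy
    obtain ⟨g, rfl⟩ := (hY y).1 hy
    rw [conj_pow, hxp, mul_one, mul_inv_cancel]
  have hd : H945.SemiData p (Fr K n) (fun w => ε (sW ζ c w)) ε.range
      (ε.range ⊔ Subgroup.zpowers x) Y Fy :=
    { memN := fun u v huv => ⟨_, rfl⟩
      le := le_sup_left
      pow := hpow
      memM := hconj
      notN := fun y hy h => hxL (by
        have h2 := hmul y hy
        have h3 : x = (y * x⁻¹)⁻¹ * y := by group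
        rw [h3]
        exact mul_mem (inv_mem h2) h)
      coset := fun y hy y' hy' => by
        have h2 := hmul y hy
        have h3 := hmul y' hy'
        have h4 : y⁻¹ * y' = x⁻¹ * ((y * x⁻¹)⁻¹ * (y' * x⁻¹)) * x := by group
        rw [h4]
        exact hxN _ (mul_mem (inv_mem h2) h3)
      sub := fun y hy => (hFy y hy).1
      perm := fun y hy => (hFy y hy).2.1
      fix := fun y hy => (hFy y hy).2.2 }
  obtain ⟨y, hy, w, hw, α, l, h2, h3⟩ := H945.top_of_semi₂ hn hcomb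
    (fun u v huv => sW_rev ε hc hζ hcn huv) hd hcount 𝕜
  refine ⟨w, (hFy y hy).1 hw, y, hmul y hy, hpow y hy, ?_, α, l, ?_⟩
  · intro a ha
    have h4 : De (fun w => ε (sW ζ c w)) w ≤ Subgroup.centralizer {y} := by
      unfold De
      rw [Subgroup.closure_le]
      rintro _ ⟨u, v, h5, rfl⟩
      rw [SetLike.mem_coe, Subgroup.mem_centralizer_singleton_iff]
      exact (hFy y hy).2.2 u v (h5 ▸ hw)
    have h5 := h4 ha
    rw [Subgroup.mem_centralizer_singleton_iff] at h5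
    exact h5.symm
  · have h4 : De (fun w => ε (sW ζ c w)) w ⊔ Subgroup.zpowers y =
        Subgroup.zpowers y ⊔ De (fun w => ε (sW ζ c w)) w := sup_comm _ _
    rw [h4]
    exact h2

/-- **`T3` for odd `p`.** -/
theorem t3_odd {q : ℕ} (hq : 3 ≤ q) (hK : Nat.card K = q ^ 2) (hs : ∀ x : K, star x = x ^ q)
    {p : ℕ} [hpr : Fact p.Prime] (hp2 : p ≠ 2) (hpq : p ∣ q + 1) (h38 : ¬ (p = 3 ∧ q = 8))
    (hn : 2 ≤ n) (hzp : ζ ^ p = 1) (h1 : ζ ≠ 1) (hc : c * star c = 1) (hcn : c ^ n * ζ = 1)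
    (σ : SA K) (hσ : orderOf σ = p) {ε : SU K n →* G}
    (hk : ∀ g : SU K n, ε g = 1 ↔ ∃ c : K, mt g = c • (1 : Matrix (Fin n) (Fin n) K))
    {x : G} (hxp : x ^ p = 1) (hxL : x ∉ ε.range)
    (hx : ∀ h h' : SU K n, mt h' = (mt h).map σ.1 → x * ε h * x⁻¹ = ε h')
    (𝕜 : Type w) [Field 𝕜] :
    ∃ w ∈ Fr K n, ∃ t' : G, t' * x⁻¹ ∈ ε.range ∧ t' ^ p = 1 ∧
      (∀ a ∈ De (fun w => ε (sW ζ c w)) w, t' * a = a * t') ∧
      ∃ (α : Ch 𝕜 (Subgroup G)) (φ : List (Subgroup G)), TopCycle 𝕜 p (ε.range ⊔ Subgroup.zpowers x)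
        (De (fun w => ε (sW ζ c w)) w ⊔ Subgroup.zpowers t') α φ := by
  have hζ : ζ * star ζ = 1 := by
    obtain ⟨r, hr⟩ := hpq
    rw [hs, ← pow_succ', hr, pow_mul, hzp, one_pow]
  have hc0 : c ≠ 0 := by
    rintro rfl
    rw [zero_mul] at hc
    exact zero_ne_one hc
  obtain ⟨Y, Fy, hY, hFy, hcount⟩ := nl6_odd H387.stmtM2 hq hK hs hpr.out hp2 hpq h38 hn hzp hc0 σ hσ
    ε hk x hx
  exact t3_core hk hzp h1 hζ hc hcn hn hxp hxL
    (fun l hl => conj_inv_mem hpr.out.pos hxp (σ.1 : K →+* K) (SA_star σ) hx hl) hY hFy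
    (by omega) 𝕜

/-- `T3` for `p = 2`, from the numbers -/
theorem t3_two_of {q : ℕ} (hq : Odd q) (hK : Nat.card K = q ^ 2)
    (hs : ∀ x : K, star x = x ^ q) (hn2 : 2 ≤ n)
    (ht : (Fr (F0 K) n).card < 3 * 2 ^ n * t (Fr (F0 K) n))
    (hnum : (q + 1) * Nat.gcd n (q + 1) * (3 * 4 ^ n) ≤ 2 * (2 * (q + 1) ^ n))
    (hc : c * star c = 1) (hcn : c ^ n * (-1) = 1) {ε : SU K n →* G}
    (hk : ∀ g : SU K n, ε g = 1 ↔ ∃ c : K, mt g = c • (1 : Matrix (Fin n) (Fin n) K))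
    {x : G} (hxp : x ^ 2 = 1) (hxL : x ∉ ε.range)
    (hx : ∀ h h' : SU K n, mt h' = (mt h).map (starRingEnd K) → x * ε h * x⁻¹ = ε h')
    (𝕜 : Type w) [Field 𝕜] :
    ∃ w ∈ Fr K n, ∃ t' : G, t' * x⁻¹ ∈ ε.range ∧ t' ^ 2 = 1 ∧
      (∀ a ∈ De (fun w => ε (sW (-1) c w)) w, t' * a = a * t') ∧
      ∃ (α : Ch 𝕜 (Subgroup G)) (φ : List (Subgroup G)), TopCycle 𝕜 2 (ε.range ⊔ Subgroup.zpowers x)
        (De (fun w => ε (sW (-1) c w)) w ⊔ Subgroup.zpowers t') α φ := by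
  have hpr : Fact (Nat.Prime 2) := ⟨Nat.prime_two⟩
  have h2K : (2 : F0 K) ≠ 0 := two_ne hq hK hs
  have h2K' : (2 : K) ≠ 0 := by
    intro h
    apply h2K
    apply (toK K).injective
    rw [map_ofNat, map_zero, h]
  have h1 : (-1 : K) ≠ 1 := by
    intro h
    apply h2K'
    have : (1 : K) + 1 = 0 := by
      nth_rewrite 1 [← h]
      ring
    rw [← one_add_one_eq_two]
    exact this
  have hζ : (-1 : K) * star (-1 : K) = 1 := by
    rw [star_neg, star_one]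
    ring
  have hc0 : c ≠ 0 := by
    rintro rfl
    rw [zero_mul] at hc
    exact zero_ne_one hc
  obtain ⟨Y, Fy, hY, hFy, hcount⟩ := nl6_two (r := 2) hq hK hs (by omega) ht hnum hc0 ε hk x hx
  exact t3_core hk (by norm_num) h1 hζ hc hcn (by omega) hxp hxL
    (fun l hl => conj_inv_mem (by norm_num) hxp (starRingEnd K) star_comm hx hl) hY hFy hcount 𝕜

/-- **`T3` for `p = 2`**, `n` odd, `q ≥ 11`. -/
theorem t3_two {q : ℕ} (hq : Odd q) (hq11 : 11 ≤ q) (hK : Nat.card K = q ^ 2)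
    (hs : ∀ x : K, star x = x ^ q) (hn : Odd n) (hn3 : 3 ≤ n)
    (hc : c * star c = 1) (hcn : c ^ n * (-1) = 1) {ε : SU K n →* G}
    (hk : ∀ g : SU K n, ε g = 1 ↔ ∃ c : K, mt g = c • (1 : Matrix (Fin n) (Fin n) K))
    {x : G} (hxp : x ^ 2 = 1) (hxL : x ∉ ε.range)
    (hx : ∀ h h' : SU K n, mt h' = (mt h).map (starRingEnd K) → x * ε h * x⁻¹ = ε h')
    (𝕜 : Type w) [Field 𝕜] :
    ∃ w ∈ Fr K n, ∃ t' : G, t' * x⁻¹ ∈ ε.range ∧ t' ^ 2 = 1 ∧
      (∀ a ∈ De (fun w => ε (sW (-1) c w)) w, t' * a = a * t') ∧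
      ∃ (α : Ch 𝕜 (Subgroup G)) (φ : List (Subgroup G)), TopCycle 𝕜 2 (ε.range ⊔ Subgroup.zpowers x)
        (De (fun w => ε (sW (-1) c w)) w ⊔ Subgroup.zpowers t') α φ := by
  have ht : (Fr (F0 K) n).card < 3 * 2 ^ n * t (Fr (F0 K) n) := by
    refine H281.stmtB1 (F0 K) (star_F0 K) ?_ ?_ n (by omega)
    · rw [card_F0 hK hs]; exact hq
    · rw [card_F0 hK hs]; exact hq11
  exact t3_two_of hq hK hs (by omega) ht (H986.B7.num_r hn hn3 hq11) hc hcn hk hxp hxL hx 𝕜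

end

end Vale.Agent.P240.R2.H727
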