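import Vale.Agent.P240.R2.H38.UDefs
import Vale.Agent.P240.R2.H687.A7
import Vale.Agent.P240.R2.H938.M4c
import Vale.Agent.P240.R2.H945.SemiG

/-!
The elements `sW ζ c w` of `SU_n(K)`: matrices, products, and the hypotheses of M3 for the images under a
homomorphism of `SU_n(K)` with scalar kernel.
-/

set_option autoImplicit false
set_option linter.all false

namespace Vale.Agent.P240.R2.H727

open Matrix Vale.Agent.P240 Vale.Agent.P240.R2.H687 Vale.Agent.P240.R2.H38
open Vale.Agent.P240.R2.AS hiding SU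
open Vale.Agent.P240.R2.H472 (ln_idem ln_star ln_comm sm_nil sm_cons sm_append sm_mul sm_eq_one)

universe u v w

noncomputable section

section ker

variable {S : Type u} {Q : Type v} {G : Type w} [Group S] [Group Q] [Group G] {X : Type*}

lemma ker_iff {θ : S →* Q} {ε : S →* G} (hk : ∀ s, θ s = 1 ↔ ε s = 1) (a b : S) :
    θ a = θ b ↔ ε a = ε b := by
  have h1 := hk (a * b⁻¹)
  rw [map_mul, map_mul, map_inv, map_inv, mul_inv_eq_one, mul_inv_eq_one] at h1
  exact h1

lemma map_iff {θ : S →* Q} {ε : S →* G} (hk : ∀ s, θ s = 1 ↔ ε s = 1) (A B : Subgroup S) :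
    A.map θ = B.map θ ↔ A.map ε = B.map ε := by
  have h : θ.ker = ε.ker := by
    ext s
    exact hk s
  rw [Subgroup.map_eq_map_iff, Subgroup.map_eq_map_iff, h]

lemma card_map_quot {R : Type*} [Group R] (η : S →* R) (A : Subgroup S) :
    Nat.card (A.map η) = Nat.card (Quot fun a b : A => η a = η b) := by
  symm
  refine Nat.card_congr (Equiv.ofBijective
    (Quot.lift (fun a : A => (⟨η a, a, a.2, rfl⟩ : A.map η)) fun a b hab => Subtype.ext hab) ⟨?_, ?_⟩)
  · intro a b
    induction a using Quot.ind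
    induction b using Quot.ind
    intro hab
    exact Quot.sound (congrArg Subtype.val hab)
  · rintro ⟨_, a, ha, rfl⟩
    exact ⟨Quot.mk _ ⟨a, ha⟩, rfl⟩

lemma card_map_eq {θ : S →* Q} {ε : S →* G} (hk : ∀ s, θ s = 1 ↔ ε s = 1) (A : Subgroup S) :
    Nat.card (A.map θ) = Nat.card (A.map ε) := by
  rw [card_map_quot θ, card_map_quot ε]
  have h3 : (fun a b : A => θ a = θ b) = fun a b : A => ε a = ε b := by
    funext a b
    exact propext (ker_iff hk _ _)
  rw [h3]

lemma card_range_quot {A : Type*} {B : Type*} (f : A → B) :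
    Nat.card (Set.range f) = Nat.card (Quot fun a b => f a = f b) := by
  symm
  refine Nat.card_congr (Equiv.ofBijective
    (Quot.lift (fun a : A => (⟨f a, a, rfl⟩ : Set.range f)) fun a b hab => Subtype.ext hab) ⟨?_, ?_⟩)
  · intro a b
    induction a using Quot.ind
    induction b using Quot.ind
    intro hab
    exact Quot.sound (congrArg Subtype.val hab)
  · rintro ⟨_, a, rfl⟩
    exact ⟨Quot.mk _ a, rfl⟩

/-- the number of values depends only on the fibres -/
lemma card_range_eq {A : Type*} {B : Type*} {C : Type*} {f : A → B} {g : A → C}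
    (h : ∀ a b, f a = f b ↔ g a = g b) : Nat.card (Set.range f) = Nat.card (Set.range g) := by
  rw [card_range_quot f, card_range_quot g]
  have h3 : (fun a b : A => f a = f b) = fun a b : A => g a = g b := by
    funext a b
    exact propext (h _ _)
  rw [h3]

lemma zp_map {R : Type*} [Group R] (η : S →* R) (a : S) :
    Subgroup.zpowers (η a) = (Subgroup.zpowers a).map η := (MonoidHom.map_zpowers η a).symm

lemma clos_map (η : S →* G) (T : Set S) : Subgroup.closure (η '' T) = (Subgroup.closure T).map η :=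
  (MonoidHom.map_closure η T).symm

lemma pre_clos (η : S →* G) (s : List X → S) (w : List X) :
    Subgroup.closure {y | ∃ u v, w = u ++ v ∧ y = η (s u)} =
      (Subgroup.closure {y | ∃ u v, w = u ++ v ∧ y = s u}).map η := by
  rw [MonoidHom.map_closure]
  congr 1
  ext y
  constructor
  · rintro ⟨u, v, h1, rfl⟩
    exact ⟨s u, ⟨u, v, h1, rfl⟩, rfl⟩
  · rintro ⟨_, ⟨u, v, h1, rfl⟩, rfl⟩
    exact ⟨u, v, h1, rfl⟩

lemma SS_map (η : S →* G) (s : List X → S) (w : List X) :
    SS (fun w => η (s w)) w = (SS s w).map η := by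
  unfold SS
  rw [MonoidHom.map_closure]
  congr 1
  ext y
  constructor
  · rintro ⟨x, hx, rfl⟩
    exact ⟨s [x], ⟨x, hx, rfl⟩, rfl⟩
  · rintro ⟨_, ⟨x, hx, rfl⟩, rfl⟩
    exact ⟨x, hx, rfl⟩

/-- `Comb` depends only on the kernel -/
theorem comb_ker {p n : ℕ} {F : Finset (List X)} {s : List X → S} {θ : S →* Q} {ε : S →* G}
    (hk : ∀ s, θ s = 1 ↔ ε s = 1) (h : Comb p n F (fun w => θ (s w))) :
    Comb p n F (fun w => ε (s w)) where
  len := h.len
  nodup := h.nodup
  perm := h.perm
  plane := fun u a b c d v w h1 h2 => (ker_iff hk _ _).1 (h.plane u a b c d v w h1 h2)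
  comm := fun u v w h1 => by
    have h2 := h.comm u v w h1
    rw [← map_mul, ← map_mul, ker_iff hk, map_mul, map_mul] at h2
    exact h2
  pow := fun u v h1 => by
    have h2 := h.pow u v h1
    rw [← map_pow, hk, map_pow] at h2
    exact h2
  nil := (hk _).1 h.nil
  full := fun w hw => (hk _).1 (h.full w hw)
  card := fun w hw => by
    have h1 := h.card w hw
    rw [pre_clos] at h1 ⊢
    rw [← card_map_eq hk]
    exact h1
  sep := by
    intro A u v B l g h1 h2 hu hv
    have h3 := h.sep A u v B l g h1 h2 hu hv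
    rw [← h3, SS_map, SS_map]
    rw [zp_map ε, zp_map ε, zp_map θ, zp_map θ, ← Subgroup.map_sup, ← Subgroup.map_sup, ← Subgroup.map_sup,
      ← Subgroup.map_sup]
    exact (map_iff hk _ _).symm

end ker

section sW

variable {K : Type u} [Field K] [Fintype K] [StarRing K] {n : ℕ} {ζ c : K}

omit [Fintype K] in
lemma det_ln (ζ : K) (P : Ln K n) : (1 + (ζ - 1) • P.1).det = ζ := by
  obtain ⟨P, x, hx, rfl⟩ := P
  show (1 + (ζ - 1) • vecMulVec x (star x)).det = ζ
  have h1 : (ζ - 1) • vecMulVec x (star x) =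
      replicateCol Unit ((ζ - 1) • x) * replicateRow Unit (star x) := by
    rw [← vecMulVec_eq, smul_vecMulVec]
  rw [h1, det_one_add_replicateCol_mul_replicateRow, dotProduct_smul, hx]
  simp

lemma det_sm (ζ : K) {w : List (Ln K n)} (hO : Orth w) :
    (1 + (ζ - 1) • sm w).det = ζ ^ w.length := by
  induction w with
  | nil => rw [sm_nil, smul_zero, add_zero, det_one, List.length_nil, pow_zero]
  | cons a t ih =>
    have h' := List.pairwise_cons.1 hO
    have h1 : a.1 * sm t = 0 := H472.mul_sm_zero t h'.1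
    have h2 : (1 + (ζ - 1) • sm (a :: t)) = (1 + (ζ - 1) • a.1) * (1 + (ζ - 1) • sm t) := by
      rw [sm_cons, Matrix.add_mul, Matrix.mul_add, Matrix.mul_add, Matrix.one_mul, Matrix.one_mul,
        Matrix.mul_one, Matrix.smul_mul, Matrix.mul_smul, h1, smul_zero, smul_zero, add_zero, smul_add]
      abel
    rw [h2, det_mul, det_ln, ih h'.2, List.length_cons, pow_succ']

omit [Fintype K] in
lemma pow_norm (hc : c * star c = 1) (k : ℕ) : c ^ k * star (c ^ k) = 1 := by
  rw [star_pow, ← mul_pow, hc, one_pow]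

lemma sM_mem (hc : c * star c = 1) (hζ : ζ * star ζ = 1) {w : List (Ln K n)} (hO : Orth w) :
    sM ζ c w ∈ Matrix.unitaryGroup (Fin n) K := by
  have hP := isPr_sm hO
  have h1 := eU_aux ⟨hP.1, hP.2, hζ⟩
  unfold sM
  rw [mem_unitaryGroup_iff, star_smul, smul_mul_smul_comm, mem_unitaryGroup_iff.1 h1, pow_norm hc,
    one_smul]

lemma det_sM (hcn : c ^ n * ζ = 1) {w : List (Ln K n)} (hO : Orth w) : (sM ζ c w).det = 1 := by
  unfold sM
  rw [Matrix.det_smul, Fintype.card_fin, det_sm ζ hO, ← pow_mul, mul_comm w.length n, pow_mul,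
    ← mul_pow, hcn, one_pow]

lemma mt_sW (hc : c * star c = 1) (hζ : ζ * star ζ = 1) (hcn : c ^ n * ζ = 1) {w : List (Ln K n)}
    (hO : Orth w) : mt (sW ζ c w : SU K n) = sM ζ c w := by
  have h : ∃ g : SU K n, mt g = sM ζ c w := ⟨⟨⟨sM ζ c w, sM_mem hc hζ hO⟩, det_sM hcn hO⟩, rfl⟩
  unfold sW
  rw [dif_pos h]
  exact h.choose_spec

lemma mt_mul (g h : SU K n) : mt (g * h) = mt g * mt h := rfl

lemma mt_one : mt (1 : SU K n) = 1 := rfl

lemma mt_inv (g : SU K n) : mt g⁻¹ = star (mt g) := rfl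

lemma mt_mul_star (g : SU K n) : mt g * star (mt g) = 1 := mem_unitaryGroup_iff.1 g.1.2

lemma star_mul_mt (g : SU K n) : star (mt g) * mt g = 1 := mem_unitaryGroup_iff'.1 g.1.2

/-- two elements whose matrices are proportional have the same image -/
lemma eps_eq {G : Type v} [Group G] {ε : SU K n →* G}
    (hk : ∀ g : SU K n, ε g = 1 ↔ ∃ c : K, mt g = c • (1 : Matrix (Fin n) (Fin n) K))
    {g h : SU K n} {d : K} (e : mt g = d • mt h) : ε g = ε h := by
  have h1 : ε (g * h⁻¹) = 1 := by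
    rw [hk]
    refine ⟨d, ?_⟩
    rw [mt_mul, mt_inv, e, Matrix.smul_mul, mt_mul_star]
  rw [map_mul, map_inv, mul_inv_eq_one] at h1
  exact h1

/-- the homomorphism to `PGU` -/
def thP (K : Type u) [Field K] [Fintype K] [StarRing K] (n : ℕ) : SU K n →* PGU K n :=
  (QuotientGroup.mk' (Subgroup.center (GU K n))).comp (SU K n).subtype

lemma sc_mem (hc : c * star c = 1) : c • (1 : Matrix (Fin n) (Fin n) K) ∈
    Matrix.unitaryGroup (Fin n) K := by
  rw [mem_unitaryGroup_iff, star_smul, star_one, smul_mul_smul_comm, hc, one_mul, one_smul]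

lemma sc_cen (hc : c * star c = 1) : (⟨_, sc_mem hc⟩ : GU K n) ∈ Subgroup.center (GU K n) := by
  rw [Subgroup.mem_center_iff]
  intro y
  apply Subtype.ext
  change (y : Matrix (Fin n) (Fin n) K) * (c • 1) = (c • 1) * y
  rw [smul_mul_assoc, mul_smul_comm, one_mul, mul_one]

lemma thP_eq_one (hζ : ζ * star ζ = 1) (hζ1 : ζ ≠ 1) (g : SU K n) :
    thP K n g = 1 ↔ ∃ c : K, mt g = c • (1 : Matrix (Fin n) (Fin n) K) := by
  constructor
  · intro h
    exact (H296.mem_center_iff hζ1 hζ g.1).1 ((QuotientGroup.eq_one_iff _).1 h)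
  · intro h
    exact (QuotientGroup.eq_one_iff _).2 ((H296.mem_center_iff hζ1 hζ g.1).2 h)

lemma thP_sW (hc : c * star c = 1) (hζ : ζ * star ζ = 1) (hcn : c ^ n * ζ = 1)
    {w : List (Ln K n)} (hO : Orth w) : thP K n (sW ζ c w) = eW ζ w := by
  have hP := isPr_sm hO
  have h1 : (sW ζ c w : SU K n).1 = ⟨_, sc_mem (pow_norm hc w.length)⟩ * eU ζ (sm w) := by
    apply Subtype.ext
    have h2 : ((sW ζ c w : SU K n).1 : Matrix (Fin n) (Fin n) K) = sM ζ c w := mt_sW hc hζ hcn hO
    rw [h2, coe_mul', eU_val hP hζ]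
    show sM ζ c w = (c ^ w.length • (1 : Matrix (Fin n) (Fin n) K)) * _
    rw [Matrix.smul_mul, Matrix.one_mul]
    rfl
  show (QuotientGroup.mk (sW ζ c w : SU K n).1 : PGU K n) = _
  rw [h1, QuotientGroup.mk_mul, (QuotientGroup.eq_one_iff _).2 (sc_cen (pow_norm hc w.length)), one_mul]
  rfl

/-- **The hypotheses of M3** for the images of the `sW ζ c w`. -/
theorem comb_sW {p : ℕ} [hpr : Fact p.Prime] {G : Type v} [Group G] {ε : SU K n →* G}
    (hk : ∀ g : SU K n, ε g = 1 ↔ ∃ c : K, mt g = c • (1 : Matrix (Fin n) (Fin n) K))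
    (hp : ζ ^ p = 1) (h1 : ζ ≠ 1) (hζ : ζ * star ζ = 1) (hc : c * star c = 1)
    (hcn : c ^ n * ζ = 1) : Comb p n (Fr K n) (fun w => ε (sW ζ c w)) := by
  refine comb_ker (θ := thP K n) (fun g => by rw [thP_eq_one hζ h1, hk]) ?_
  have h2 : Comb p n (Fr K n) (eW ζ) := H938.comb_eW hp h1 hζ
  have hO1 : ∀ u v : List (Ln K n), u ++ v ∈ Fr K n → Orth u := fun u v h =>
    (H938.orth_app.1 ((mem_Fr K).1 h).2).1
  have key : ∀ u v : List (Ln K n), u ++ v ∈ Fr K n → thP K n (sW ζ c u) = eW ζ u := fun u v h =>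
    thP_sW hc hζ hcn (hO1 u v h)
  have hs : ∀ x : Ln K n, thP K n (sW ζ c [x]) = eW ζ [x] := fun x =>
    thP_sW hc hζ hcn (List.pairwise_singleton _ _)
  have hSS : ∀ w : List (Ln K n), SS (fun w => thP K n (sW ζ c w)) w = SS (eW ζ) w := by
    intro w
    unfold SS
    congr 1
    ext y
    constructor
    · rintro ⟨x, hx, rfl⟩
      exact ⟨x, hx, hs x⟩
    · rintro ⟨x, hx, rfl⟩
      exact ⟨x, hx, (hs x).symm⟩
  exact
    { len := h2.len
      nodup := h2.nodup
      perm := h2.perm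
      plane := fun u a b c' d v w h3 h4 => by
        show thP K n (sW ζ c (u ++ a :: b :: v)) = thP K n (sW ζ c (u ++ c' :: d :: v))
        rw [key (u ++ a :: b :: v) w (by simpa using h3), key (u ++ c' :: d :: v) w (by simpa using h4)]
        exact h2.plane u a b c' d v w h3 h4
      comm := fun u v w h3 => by
        show thP K n (sW ζ c u) * thP K n (sW ζ c (u ++ v)) =
          thP K n (sW ζ c (u ++ v)) * thP K n (sW ζ c u)
        rw [key u (v ++ w) h3, key (u ++ v) w (by simpa using h3)]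
        exact h2.comm u v w h3
      pow := fun u v h3 => by
        show thP K n (sW ζ c u) ^ p = 1
        rw [key u v h3]
        exact h2.pow u v h3
      nil := by
        show thP K n (sW ζ c []) = 1
        rw [thP_sW hc hζ hcn List.Pairwise.nil]
        exact h2.nil
      full := fun w hw => by
        show thP K n (sW ζ c w) = 1
        rw [key w [] (by rwa [List.append_nil])]
        exact h2.full w hw
      card := fun w hw => by
        have h3 : {y | ∃ u v, w = u ++ v ∧ y = thP K n (sW ζ c u)} =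
            {y | ∃ u v, w = u ++ v ∧ y = eW ζ u} := by
          ext y
          constructor
          · rintro ⟨u, v, h4, rfl⟩
            exact ⟨u, v, h4, key u v (h4 ▸ hw)⟩
          · rintro ⟨u, v, h4, rfl⟩
            exact ⟨u, v, h4, (key u v (h4 ▸ hw)).symm⟩
        rw [h3]
        exact h2.card w hw
      sep := by
        intro A u v B l g h3 h4 hu hv
        show _ ⊔ Subgroup.zpowers (thP K n (sW ζ c (A ++ u))) =
          _ ⊔ Subgroup.zpowers (thP K n (sW ζ c [l])) ↔ _
        rw [hSS, hs, key (A ++ u) (v ++ B) (by simpa using h3)]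
        exact h2.sep A u v B l g h3 h4 hu hv }

lemma sM_mul (ζ c : K) {u v : List (Ln K n)} (h : u ++ v ∈ Fr K n) :
    sM ζ c u * sM ζ c v = (c ^ n * ζ) • (1 : Matrix (Fin n) (Fin n) K) := by
  obtain ⟨hl, hO⟩ := (mem_Fr K).1 h
  have hs := sm_eq_one hl hO
  rw [sm_append] at hs
  have hPQ : sm u * sm v = 0 := H938.sm_app_zero hO
  unfold sM
  rw [smul_mul_smul_comm, ← pow_add, ← List.length_append, hl, mul_smul]
  congr 1
  have e : (1 + (ζ - 1) • sm u) * (1 + (ζ - 1) • sm v)
      = 1 + (ζ - 1) • (sm u + sm v) + ((ζ - 1) * (ζ - 1)) • (sm u * sm v) := by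
    simp only [Matrix.add_mul, Matrix.mul_add, Matrix.one_mul, Matrix.mul_one, Matrix.smul_mul,
      Matrix.mul_smul, smul_add, smul_smul]
    abel
  rw [e, hPQ, hs, smul_zero, add_zero, sub_smul, one_smul]
  abel

lemma sM_perm (ζ c : K) {u v : List (Ln K n)} (h : u.Perm v) : sM ζ c u = sM ζ c v := by
  unfold sM
  rw [H938.sm_perm h, h.length_eq]

lemma sW_perm (ζ c : K) {u v : List (Ln K n)} (h : u.Perm v) :
    (sW ζ c u : SU K n) = sW ζ c v := by
  unfold sW
  rw [sM_perm ζ c h]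

lemma sW_mul (hc : c * star c = 1) (hζ : ζ * star ζ = 1) (hcn : c ^ n * ζ = 1)
    {u v : List (Ln K n)} (h : u ++ v ∈ Fr K n) : (sW ζ c u : SU K n) * sW ζ c v = 1 := by
  have hO := ((mem_Fr K).1 h).2
  apply mt_inj
  rw [mt_mul, mt_sW hc hζ hcn (H938.orth_app.1 hO).1, mt_sW hc hζ hcn (H938.orth_app.1 hO).2.1,
    sM_mul ζ c h, hcn, one_smul, mt_one]

/-- reversed words -/
theorem sW_rev {G : Type v} [Group G] (ε : SU K n →* G) (hc : c * star c = 1)
    (hζ : ζ * star ζ = 1) (hcn : c ^ n * ζ = 1) {u v : List (Ln K n)} (h : u ++ v ∈ Fr K n) :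
    Subgroup.zpowers (ε (sW ζ c v.reverse)) = Subgroup.zpowers (ε (sW ζ c u)) := by
  have h1 : (sW ζ c u : SU K n) * sW ζ c v = 1 := sW_mul hc hζ hcn h
  have h2 : (sW ζ c v : SU K n) = (sW ζ c u)⁻¹ := (inv_eq_of_mul_eq_one_right h1).symm
  have h3 : (sW ζ c v.reverse : SU K n) = sW ζ c v := sW_perm ζ c (List.reverse_perm v)
  rw [h3, h2, map_inv, Subgroup.zpowers_inv]

end sW

end

end Vale.Agent.P240.R2.H727
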